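import Crest.Agent.R323.Defs

set_option autoImplicit false

namespace Crest.Agent.R323

namespace BITS

theorem and_zero_iff (x y : ℕ) : x &&& y = 0 ↔ ¬ (x % 2 = 1 ∧ y % 2 = 1) ∧ x / 2 &&& y / 2 = 0 := by
  have h1 := Nat.and_div_two (a := x) (b := y)
  have h2 : (x &&& y) % 2 = 1 ↔ x % 2 = 1 ∧ y % 2 = 1 := Nat.and_mod_two_eq_one
  constructor
  · intro h
    rw [h] at h1 h2
    refine ⟨?_, ?_⟩
    · intro h3
      have := h2.2 h3
      omega
    · rw [← h1]
  · rintro ⟨h3, h4⟩
    rw [h4] at h1
    have h5 : (x &&& y) % 2 ≠ 1 := fun h => h3 (h2.1 h)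
    omega

theorem add_eq_or (x : ℕ) : ∀ y : ℕ, x &&& y = 0 → x + y = x ||| y := by
  induction x using Nat.strong_induction_on with
  | _ x ih =>
    intro y h
    rcases Nat.eq_zero_or_pos x with h0 | h0
    · subst h0; simp
    · have h1 := (and_zero_iff x y).1 h
      have h2 := ih (x / 2) (by omega) (y / 2) h1.2
      have h3 : (x ||| y) / 2 = x / 2 ||| y / 2 := Nat.or_div_two
      have h4 : (x ||| y) % 2 = 1 ↔ x % 2 = 1 ∨ y % 2 = 1 := Nat.or_mod_two_eq_one
      rw [← h2] at h3
      by_cases hx : x % 2 = 1
      · have hy : y % 2 = 0 := by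
          by_contra hy
          exact h1.1 ⟨hx, by omega⟩
        have h5 := h4.2 (Or.inl hx)
        omega
      · by_cases hy : y % 2 = 1
        · have h5 := h4.2 (Or.inr hy)
          omega
        · have h5 : (x ||| y) % 2 ≠ 1 := fun h => by
            rcases h4.1 h with h | h
            · exact hx h
            · exact hy h
          omega

theorem odd_bits (x : ℕ) : ∀ y : ℕ, (x + y).choose x % 2 = 1 ↔ x &&& y = 0 := by
  induction x using Nat.strong_induction_on with
  | _ x ih =>
    intro y
    rcases Nat.eq_zero_or_pos x with h0 | h0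
    · subst h0; simp
    · have hL : (x + y).choose x % 2 =
          (((x + y) % 2).choose (x % 2) * ((x + y) / 2).choose (x / 2)) % 2 := by
        have : Fact (Nat.Prime 2) := ⟨Nat.prime_two⟩
        exact Choose.choose_modEq_choose_mod_mul_choose_div_nat (n := x + y) (k := x) (p := 2)
      rw [hL, and_zero_iff x y]
      by_cases hxy : x % 2 = 1 ∧ y % 2 = 1
      · have h1 : (x + y) % 2 = 0 := by omega
        have h2 : x % 2 = 1 := hxy.1
        rw [h1, h2]
        simp [hxy.2]
      · have h1 : (x + y) / 2 = x / 2 + y / 2 := by omega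
        have h2 : ((x + y) % 2).choose (x % 2) = 1 := by
          have h3 : x % 2 = 0 ∨ x % 2 = 1 := by omega
          rcases h3 with h3 | h3
          · rw [h3]; simp
          · have : (x + y) % 2 = 1 := by omega
            rw [this, h3]; simp
        rw [h1, h2, one_mul, ih (x / 2) (by omega) (y / 2)]
        simp [hxy]

theorem sub_and (a b : ℕ) : a - (a &&& b) = a ^^^ (a &&& b) := by
  have h1 : (a &&& b) &&& (a ^^^ (a &&& b)) = 0 := by
    apply Nat.eq_of_testBit_eq
    intro i
    simp only [Nat.testBit_and, Nat.testBit_xor, Nat.zero_testBit]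
    cases a.testBit i <;> cases b.testBit i <;> rfl
  have h2 : (a &&& b) ||| (a ^^^ (a &&& b)) = a := by
    apply Nat.eq_of_testBit_eq
    intro i
    simp only [Nat.testBit_and, Nat.testBit_xor, Nat.testBit_or]
    cases a.testBit i <;> cases b.testBit i <;> rfl
  have h3 := add_eq_or _ _ h1
  rw [h2] at h3
  omega

theorem ofDig (u : ℕ) (f : ℕ → ℕ) (N : ℕ) :
    Nat.ofDigits u ((List.range N).map f) = ∑ m ∈ Finset.range N, f m * u ^ m := by
  induction N with
  | zero => simp
  | succ N ih =>
    rw [List.range_succ, List.map_append, Nat.ofDigits_append, ih, Finset.sum_range_succ]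
    simp [mul_comm]

end BITS

open BITS

theorem oddBits : StOdd := fun x y => odd_bits x y

theorem landChar : StLandChar := by
  intro a b c
  constructor
  · intro h
    subst h
    refine ⟨Nat.and_le_left, Nat.and_le_right, ?_, ?_, ?_⟩
    · rw [sub_and]
      apply Nat.eq_of_testBit_eq
      intro i
      simp only [Nat.testBit_and, Nat.testBit_xor, Nat.zero_testBit]
      cases a.testBit i <;> cases b.testBit i <;> rfl
    · rw [Nat.and_comm a b, sub_and]
      apply Nat.eq_of_testBit_eq
      intro i
      simp only [Nat.testBit_and, Nat.testBit_xor, Nat.zero_testBit]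
      cases a.testBit i <;> cases b.testBit i <;> rfl
    · rw [sub_and]
      nth_rewrite 2 [Nat.and_comm a b]
      rw [sub_and]
      apply Nat.eq_of_testBit_eq
      intro i
      simp only [Nat.testBit_and, Nat.testBit_xor, Nat.zero_testBit]
      cases a.testBit i <;> cases b.testBit i <;> rfl
  · rintro ⟨ha, hb, h1, h2, h3⟩
    have e1 : a = c ||| (a - c) := by
      rw [← add_eq_or _ _ h1]; omega
    have e2 : b = c ||| (b - c) := by
      rw [← add_eq_or _ _ h2]; omega
    generalize hx : a - c = x at *
    generalize hy : b - c = y at *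
    rw [e1, e2]
    apply Nat.eq_of_testBit_eq
    intro i
    have t1 : (c &&& x).testBit i = (0 : ℕ).testBit i := by rw [h1]
    have t2 : (c &&& y).testBit i = (0 : ℕ).testBit i := by rw [h2]
    have t3 : (x &&& y).testBit i = (0 : ℕ).testBit i := by rw [h3]
    simp only [Nat.testBit_and, Nat.testBit_or, Nat.zero_testBit] at t1 t2 t3 ⊢
    revert t1 t2 t3
    cases c.testBit i <;> cases x.testBit i <;> cases y.testBit i <;> simp

theorem chooseF : StChooseF := by
  intro n k
  set u := 2 ^ n + 1 with hu
  have hu2 : 2 ≤ u := by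
    have : 1 ≤ 2 ^ n := Nat.one_le_two_pow
    omega
  have h1 : (2 ^ n + 2) ^ n = ∑ m ∈ Finset.range (n + 1), n.choose m * u ^ m := by
    have : 2 ^ n + 2 = u + 1 := by omega
    rw [this, add_pow]
    apply Finset.sum_congr rfl
    intro m _
    simp [mul_comm]
  have h2 : Nat.ofDigits u ((List.range (n + 1)).map n.choose) =
      ∑ m ∈ Finset.range (n + 1), n.choose m * u ^ m := by
    exact ofDig u n.choose (n + 1)
  have h3 : Nat.digits u ((2 ^ n + 2) ^ n) = (List.range (n + 1)).map n.choose := by
    rw [h1, ← h2]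
    apply Nat.digits_ofDigits u hu2
    · intro l hl
      rw [List.mem_map] at hl
      obtain ⟨i, -, rfl⟩ := hl
      have := Nat.choose_le_two_pow n i
      omega
    · intro h
      simp
  rw [← Nat.getD_digits _ _ hu2, h3]
  rcases Nat.lt_or_ge k (n + 1) with h | h
  · simp [h, List.getD_eq_getElem?_getD]
  · rw [Nat.choose_eq_zero_of_lt h, List.getD_eq_getElem?_getD, List.getElem?_eq_none]
    · rfl
    · simpa using h

end Crest.Agent.R323
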