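import Crest.Agent.R323.SFLib

/-! The bounded universal quantifier. -/

set_option autoImplicit false

namespace Crest.Agent.R323.BQ

open Sum

/-- expressions with natural coefficients -/
inductive Ex (σ : Type) : Type
  | var : σ → Ex σ
  | const : ℕ → Ex σ
  | add : Ex σ → Ex σ → Ex σ
  | mul : Ex σ → Ex σ → Ex σ

def Ex.ev {σ : Type} (v : σ → ℕ) : Ex σ → ℕ
  | .var i => v i
  | .const c => c
  | .add e f => e.ev v + f.ev v
  | .mul e f => e.ev v * f.ev v

theorem exists_ex {σ : Type} {p : (σ → ℕ) → ℤ} (hp : IsPoly p) :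
    ∃ F G : Ex σ, ∀ v, p v = (F.ev v : ℤ) - G.ev v := by
  induction hp with
  | proj i => exact ⟨.var i, .const 0, fun v => by simp [Ex.ev]⟩
  | const n => exact ⟨.const n.toNat, .const (-n).toNat, fun v => by simp only [Ex.ev]; omega⟩
  | sub _ _ h1 h2 =>
    obtain ⟨F1, G1, h1⟩ := h1
    obtain ⟨F2, G2, h2⟩ := h2
    refine ⟨.add F1 G2, .add G1 F2, fun v => ?_⟩
    simp only [Ex.ev, h1, h2]; push_cast; ring
  | mul _ _ h1 h2 =>
    obtain ⟨F1, G1, h1⟩ := h1
    obtain ⟨F2, G2, h2⟩ := h2
    refine ⟨.add (.mul F1 F2) (.mul G1 G2), .add (.mul F1 G2) (.mul G1 F2), fun v => ?_⟩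
    simp only [Ex.ev, h1, h2]; push_cast; ring

/-- upper bound for all values of all subexpressions -/
def Ex.mx {σ : Type} (b : ℕ) : Ex σ → ℕ
  | .var _ => b
  | .const c => c
  | .add e f => e.mx b + f.mx b
  | .mul e f => e.mx b + f.mx b + e.mx b * f.mx b

def Ex.vs {α : Type} {k : ℕ} : Ex (Option α ⊕ Fin k) → List α
  | .var (inl (some a)) => [a]
  | .var (inl none) => []
  | .var (inr _) => []
  | .const _ => []
  | .add e f => e.vs ++ f.vs
  | .mul e f => e.vs ++ f.vs

def env {α : Type} {k : ℕ} (v : α → ℕ) (z : Fin k → ℕ → ℕ) (t : ℕ) : Option α ⊕ Fin k → ℕ :=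
  Sum.elim (fun o => o.elim t v) (fun i => z i t)

theorem ev_le {α : Type} {k : ℕ} (v : α → ℕ) (z : Fin k → ℕ → ℕ) (t b : ℕ) (ht : t ≤ b)
    (hz : ∀ i, z i t ≤ b) (e : Ex (Option α ⊕ Fin k)) (hv : ∀ a ∈ e.vs, v a ≤ b) :
    e.ev (env v z t) ≤ e.mx b := by
  induction e with
  | var x =>
    rcases x with (_ | a) | i
    · exact ht
    · exact hv a (by simp [Ex.vs])
    · exact hz i
  | const c => exact le_rfl
  | add e f he hf =>
    simp only [Ex.vs, List.mem_append] at hv
    exact Nat.add_le_add (he fun a h => hv a (Or.inl h)) (hf fun a h => hv a (Or.inr h))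
  | mul e f he hf =>
    simp only [Ex.vs, List.mem_append] at hv
    have := Nat.mul_le_mul (he fun a h => hv a (Or.inl h)) (hf fun a h => hv a (Or.inr h))
    simp only [Ex.ev, Ex.mx]
    omega

theorem mx_sfn {σ α : Type} (e : Ex σ) {f : (α → ℕ) → ℕ} (hf : SFn f) :
    SFn (fun v => e.mx (f v)) := by
  induction e with
  | var x => exact hf
  | const c => exact SFn.const c
  | add e f he hf => exact he.add hf
  | mul e f he hf => exact (he.add hf).add (he.mul hf)

section main

variable {α β : Type} {k : ℕ}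

theorem geom_cod (n B K : ℕ) : ∑ t ∈ Finset.range n, (2 ^ (B * K)) ^ t = cod n B K (fun _ => 1) := by
  unfold cod
  refine Finset.sum_congr rfl fun t _ => ?_
  rw [one_mul, ← pow_mul]

theorem geom_cod2 (n B K : ℕ) :
    ∑ t ∈ Finset.range n, t * (2 ^ (B * K)) ^ t = cod n B K (fun t => t) := by
  unfold cod
  refine Finset.sum_congr rfl fun t _ => ?_
  rw [← pow_mul]

theorem cod_mul_left (n B K c : ℕ) : c * cod n B K (fun _ => 1) = cod n B K (fun _ => c) := by
  unfold cod
  rw [Finset.mul_sum]
  refine Finset.sum_congr rfl fun t _ => ?_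
  rw [one_mul]

theorem cod_add (n B K : ℕ) (y z : ℕ → ℕ) :
    cod n B K y + cod n B K z = cod n B K (fun t => y t + z t) := by
  unfold cod
  rw [← Finset.sum_add_distrib]
  refine Finset.sum_congr rfl fun t _ => ?_
  rw [add_mul]

theorem cod_congr (n B K : ℕ) (y z : ℕ → ℕ) (h : ∀ t < n, y t = z t) :
    cod n B K y = cod n B K z := by
  unfold cod
  refine Finset.sum_congr rfl fun t ht => ?_
  rw [h t (Finset.mem_range.1 ht)]

theorem pow_sfn (hP : SPow) {f g : (β → ℕ) → ℕ} (hf : SFn f) (hg : SFn g) :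
    SFn (fun v => f v ^ g v) := SFn.comp2 (F := fun x y => x ^ y) hP hf hg

theorem land_sfn (hP : SLand) {f g : (β → ℕ) → ℕ} (hf : SFn f) (hg : SFn g) :
    SFn (fun v => f v &&& g v) := SFn.comp2 (F := fun x y => x &&& y) hP hf hg

theorem ones_sfn (hP : SPow) (hG : SGeom) {n B K : (β → ℕ) → ℕ} (hn : SFn n) (hB : SFn B)
    (hK : SFn K) : SFn (fun v => cod (n v) (B v) (K v) (fun _ => 1)) := by
  refine (SFn.comp2 (F := fun x y => ∑ t ∈ Finset.range y, x ^ t) hG.1
    (pow_sfn hP (SFn.const 2) (hB.mul hK)) hn).congr fun v => ?_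
  exact geom_cod _ _ _

theorem ids_sfn (hP : SPow) (hG : SGeom) {n B K : (β → ℕ) → ℕ} (hn : SFn n) (hB : SFn B)
    (hK : SFn K) : SFn (fun v => cod (n v) (B v) (K v) (fun t => t)) := by
  refine (SFn.comp2 (F := fun x y => ∑ t ∈ Finset.range y, t * x ^ t) hG.2
    (pow_sfn hP (SFn.const 2) (hB.mul hK)) hn).congr fun v => ?_
  exact geom_cod2 _ _ _

theorem main (hE : StExtr) (hP : SPow) (hL : SLand) (hG : SGeom)
    (nn BB : (β → ℕ) → ℕ) (vv : α → (β → ℕ) → ℕ) (WW : Fin k → (β → ℕ) → ℕ)
    (hnn : SFn nn) (hBB : SFn BB) (hvv : ∀ a, SFn (vv a)) (hWW : ∀ i, SFn (WW i))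
    (e : Ex (Option α ⊕ Fin k)) :
    ∃ Ke : ℕ → ℕ, SFn (fun v : Fin 1 → ℕ => Ke (v 0)) ∧ (∀ n, 1 ≤ Ke n) ∧
      ∀ KK : (β → ℕ) → ℕ, SFn KK → ∃ g : (β → ℕ) → ℕ, SFn g ∧
        ∀ (x : β → ℕ) (b : ℕ) (z : Fin k → ℕ → ℕ),
          (∀ i, WW i x = cod (nn x) (BB x) 1 (z i)) →
          (∀ i, ∀ t < nn x, z i t ≤ b) → nn x ≤ b → (∀ a ∈ e.vs, vv a x ≤ b) →
          e.mx b < 2 ^ (BB x) → Ke (nn x) ≤ KK x →
          g x = cod (nn x) (BB x) (KK x) (fun t => e.ev (env (fun a => vv a x) z t)) := by
  induction e with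
  | var y =>
    rcases y with (_ | a) | i
    · refine ⟨fun _ => 1, SFn.const 1, fun _ => le_rfl, fun KK hK =>
        ⟨fun x => cod (nn x) (BB x) (KK x) (fun t => t), ids_sfn hP hG hnn hBB hK, ?_⟩⟩
      intro x b z _ _ _ _ _ _
      rfl
    · refine ⟨fun _ => 1, SFn.const 1, fun _ => le_rfl, fun KK hK =>
        ⟨fun x => vv a x * cod (nn x) (BB x) (KK x) (fun _ => 1),
          (hvv a).mul (ones_sfn hP hG hnn hBB hK), ?_⟩⟩
      intro x b z _ _ _ _ _ _
      exact cod_mul_left _ _ _ _
    · refine ⟨fun n => n + 1, (SFn.proj _).add (SFn.const 1), fun n => Nat.le_add_left 1 n, fun KK hK =>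
        ⟨fun x => (WW i x * cod (nn x) (BB x) (KK x - 1) (fun _ => 1)) &&&
          ((2 ^ BB x - 1) * cod (nn x) (BB x) (1 + (KK x - 1)) (fun _ => 1)), ?_, ?_⟩⟩
      · refine land_sfn hL ((hWW i).mul (ones_sfn hP hG hnn hBB (hK.sub (SFn.const 1)))) ?_
        exact ((pow_sfn hP (SFn.const 2) hBB).sub (SFn.const 1)).mul
          (ones_sfn hP hG hnn hBB ((SFn.const 1).add (hK.sub (SFn.const 1))))
      · intro x b z hW hz hn hv hm hKe
        have hKe' : nn x + 1 ≤ KK x := hKe
        have h1 := hE (nn x) (BB x) 1 (KK x - 1) (z i) (fun _ => 1) le_rfl (by omega) (by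
          intro s hs t ht
          rw [mul_one]
          exact lt_of_le_of_lt (hz i s hs) hm)
        show (WW i x * cod (nn x) (BB x) (KK x - 1) (fun _ => 1)) &&&
          ((2 ^ BB x - 1) * cod (nn x) (BB x) (1 + (KK x - 1)) (fun _ => 1)) = _
        rw [hW i, h1]
        have h2 : 1 + (KK x - 1) = KK x := by omega
        rw [h2]
        refine cod_congr _ _ _ _ _ fun t _ => ?_
        rw [mul_one]; rfl
  | const c =>
    refine ⟨fun _ => 1, SFn.const 1, fun _ => le_rfl, fun KK hK =>
        ⟨fun x => c * cod (nn x) (BB x) (KK x) (fun _ => 1),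
          (SFn.const c).mul (ones_sfn hP hG hnn hBB hK), ?_⟩⟩
    intro x b z _ _ _ _ _ _
    exact cod_mul_left _ _ _ _
  | add e f he hf =>
    obtain ⟨K1, hK1, hK1', h1⟩ := he
    obtain ⟨K2, hK2, hK2', h2⟩ := hf
    refine ⟨fun n => K1 n + K2 n, hK1.add hK2, fun n => le_trans (hK1' n) (Nat.le_add_right _ _),
      fun KK hK => ?_⟩
    obtain ⟨g1, hg1, h1⟩ := h1 KK hK
    obtain ⟨g2, hg2, h2⟩ := h2 KK hK
    refine ⟨fun x => g1 x + g2 x, hg1.add hg2, ?_⟩
    intro x b z hW hz hn hv hm hKe
    simp only [Ex.vs, List.mem_append] at hv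
    simp only [Ex.mx] at hm
    have hKe' : K1 (nn x) + K2 (nn x) ≤ KK x := hKe
    show g1 x + g2 x = _
    rw [h1 x b z hW hz hn (fun a h => hv a (Or.inl h)) (by omega) (by omega),
      h2 x b z hW hz hn (fun a h => hv a (Or.inr h)) (by omega) (by omega), cod_add]
    rfl
  | mul e f he hf =>
    obtain ⟨K1, hK1, hK1', h1⟩ := he
    obtain ⟨K2, hK2, hK2', h2⟩ := hf
    have hK1n : SFn (fun x => K1 (nn x)) := SFn.comp1 (F := K1) hK1 hnn
    refine ⟨fun n => (n + 1) * K1 n + K2 n, (((SFn.proj _).add (SFn.const 1)).mul hK1).add hK2,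
      fun n => le_trans (hK2' n) (Nat.le_add_left _ _), fun KK hK => ?_⟩
    obtain ⟨g1, hg1, h1⟩ := h1 (fun x => K1 (nn x)) hK1n
    obtain ⟨g2, hg2, h2⟩ := h2 (fun x => KK x - K1 (nn x)) (hK.sub hK1n)
    refine ⟨fun x => (g1 x * g2 x) &&& ((2 ^ BB x - 1) *
      cod (nn x) (BB x) (K1 (nn x) + (KK x - K1 (nn x))) (fun _ => 1)), ?_, ?_⟩
    · refine land_sfn hL (hg1.mul hg2) ?_
      exact ((pow_sfn hP (SFn.const 2) hBB).sub (SFn.const 1)).mul
          (ones_sfn hP hG hnn hBB (hK1n.add (hK.sub hK1n)))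
    · intro x b z hW hz hn hv hm hKe
      simp only [Ex.vs, List.mem_append] at hv
      simp only [Ex.mx] at hm
      have hKe' : (nn x + 1) * K1 (nn x) + K2 (nn x) ≤ KK x := hKe
      have hKe2 : nn x * K1 (nn x) + K1 (nn x) + K2 (nn x) ≤ KK x := by
        rw [add_mul, one_mul] at hKe'; exact hKe'
      have e1 := h1 x b z hW hz hn (fun a h => hv a (Or.inl h)) (by omega) le_rfl
      have e2 := h2 x b z hW hz hn (fun a h => hv a (Or.inr h)) (by omega)
        (by show K2 (nn x) ≤ KK x - K1 (nn x); omega)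
      show (g1 x * g2 x) &&& ((2 ^ BB x - 1) *
        cod (nn x) (BB x) (K1 (nn x) + (KK x - K1 (nn x))) (fun _ => 1)) = _
      rw [e1, e2]
      rw [hE (nn x) (BB x) (K1 (nn x)) (KK x - K1 (nn x)) _ _ (hK1' _) (by omega)]
      · have h3 : K1 (nn x) + (KK x - K1 (nn x)) = KK x := by omega
        rw [h3]
        rfl
      · intro s hs t ht
        have l1 := ev_le (fun a => vv a x) z s b (by omega) (fun i => hz i s hs) e
          (fun a h => hv a (Or.inl h))
        have l2 := ev_le (fun a => vv a x) z t b (by omega) (fun i => hz i t ht) f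
          (fun a h => hv a (Or.inr h))
        have l3 := Nat.mul_le_mul l1 l2
        omega

end main

theorem list_sum_sfn {α β : Type} (l : List α) {f : α → (β → ℕ) → ℕ} (hf : ∀ a, SFn (f a)) :
    SFn (fun v => (l.map (fun a => f a v)).sum) := by
  induction l with
  | nil => exact SFn.const 0
  | cons a l ih =>
    simp only [List.map_cons, List.sum_cons]
    exact (hf a).add ih

theorem le_list_sum {α : Type} (l : List α) (f : α → ℕ) (a : α) (h : a ∈ l) :
    f a ≤ (l.map f).sum := by
  induction l with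
  | nil => simp at h
  | cons b l ih =>
    simp only [List.map_cons, List.sum_cons]
    rcases List.mem_cons.1 h with h | h
    · subst h; omega
    · have := ih h; omega

theorem bq : StBQ := by
  intro hE hD hU hS hP hL hG α R hR
  classical
  obtain ⟨k, p, hp, hv⟩ := hR
  obtain ⟨F, G, hFG⟩ := exists_ex hp
  -- functions on β = Option α ⊕ Option (Fin k)
  let nn : (Option α ⊕ Option (Fin k) → ℕ) → ℕ := fun x => x (inl none)
  let bb : (Option α ⊕ Option (Fin k) → ℕ) → ℕ := fun x => x (inr none)
  let Q : ℕ → ℕ := fun b => F.mx b + G.mx b + 2 * b + 2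
  let BB : (Option α ⊕ Option (Fin k) → ℕ) → ℕ := fun x => Q (x (inr none))
  let vv : α → (Option α ⊕ Option (Fin k) → ℕ) → ℕ := fun a x => x (inl (some a))
  let WW : Fin k → (Option α ⊕ Option (Fin k) → ℕ) → ℕ := fun i x => x (inr (some i))
  have hnn : SFn nn := SFn.proj _
  have hbb : SFn bb := SFn.proj _
  have hBB : SFn BB := (((mx_sfn F hbb).add (mx_sfn G hbb)).add ((SFn.const 2).mul hbb)).add
    (SFn.const 2)
  have hvv : ∀ a, SFn (vv a) := fun a => SFn.proj _
  have hWW : ∀ i, SFn (WW i) := fun i => SFn.proj _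
  obtain ⟨KF, hKF, hKF1, hF⟩ := main hE hP hL hG nn BB vv WW hnn hBB hvv hWW F
  obtain ⟨KG, hKG, hKG1, hG'⟩ := main hE hP hL hG nn BB vv WW hnn hBB hvv hWW G
  let KK : (Option α ⊕ Option (Fin k) → ℕ) → ℕ := fun x => KF (nn x) + KG (nn x)
  have hKK : SFn KK := (SFn.comp1 (F := KF) hKF hnn).add (SFn.comp1 (F := KG) hKG hnn)
  obtain ⟨gF, hgF, hF⟩ := hF KK hKK
  obtain ⟨gG, hgG, hG'⟩ := hG' KK hKK
  let l : List α := F.vs ++ G.vs
  let us : (α → ℕ) → ℕ := fun v => (l.map v).sum
  -- the relation
  let Rel : (Option α → ℕ) → (Option (Fin k) → ℕ) → Prop := fun v t =>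
    (t none = ∑ i, t (some i) % (2 ^ Q (t none) - 1) + us (fun a => v (some a)) + v none ∧
      ∀ i, t (some i) &&& ((2 ^ t none - 1) * cod (v none) (Q (t none)) 1 (fun _ => 1)) =
        t (some i)) ∧ gF (Sum.elim v t) = gG (Sum.elim v t)
  have helim : ∀ x : Option α ⊕ Option (Fin k) → ℕ,
      Sum.elim (fun a => x (inl a)) (fun c => x (inr c)) = x := by
    intro x; funext y; rcases y with y | y <;> rfl
  have hRel : SF (fun x : Option α ⊕ Option (Fin k) → ℕ =>
      Rel (fun a => x (inl a)) (fun c => x (inr c))) := by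
    refine SF.and (SF.and ?_ (SF.all fun i => ?_)) ?_
    · refine SF.eq hbb (((SFn.sum _ fun i => ?_).add ?_).add hnn)
      · exact (hWW i).mod ((pow_sfn hP (SFn.const 2) hBB).sub (SFn.const 1))
      · exact list_sum_sfn l (f := fun a x => x (inl (some a))) fun a => SFn.proj _
    · refine SF.eq (land_sfn hL (hWW i) (((pow_sfn hP (SFn.const 2) hbb).sub (SFn.const 1)).mul ?_))
        (hWW i)
      exact ones_sfn hP hG hnn hBB (SFn.const 1)
    · refine (SF.eq hgF hgG).congr fun x => ?_
      rw [helim]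
  -- characterization of the relation
  have hpow : ∀ b : ℕ, b < 2 ^ b := fun b => Nat.lt_two_pow_self
  have key : ∀ (v : Option α → ℕ) (t : Option (Fin k) → ℕ), Rel v t ↔
      ∃ z : Fin k → ℕ → ℕ, (∀ s < v none, p (env (fun a => v (some a)) z s) = 0) ∧
        t none = (∑ i, ∑ s ∈ Finset.range (v none), z i s) + us (fun a => v (some a)) + v none ∧
        ∀ i, t (some i) = cod (v none) (Q (t none)) 1 (z i) := by
    intro v t
    -- common part: valid data
    have common : ∀ z : Fin k → ℕ → ℕ,
        t none = (∑ i, ∑ s ∈ Finset.range (v none), z i s) + us (fun a => v (some a)) + v none →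
        (∀ i, t (some i) = cod (v none) (Q (t none)) 1 (z i)) →
        ((gF (Sum.elim v t) = gG (Sum.elim v t)) ↔
          ∀ s < v none, p (env (fun a => v (some a)) z s) = 0) := by
      intro z hb hW
      have hz : ∀ i, ∀ s < v none, z i s ≤ t none := by
        intro i s hs
        have h1 : z i s ≤ ∑ s ∈ Finset.range (v none), z i s :=
          Finset.single_le_sum (f := fun s => z i s) (fun _ _ => Nat.zero_le _)
            (Finset.mem_range.2 hs)
        have h2 : ∑ s ∈ Finset.range (v none), z i s ≤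
            ∑ i, ∑ s ∈ Finset.range (v none), z i s :=
          Finset.single_le_sum (f := fun i => ∑ s ∈ Finset.range (v none), z i s)
            (fun _ _ => Nat.zero_le _) (Finset.mem_univ i)
        omega
      have hn : v none ≤ t none := by omega
      have hvs : ∀ a ∈ l, v (some a) ≤ t none := by
        intro a ha
        have := le_list_sum l (fun a => v (some a)) a ha
        have h2 : us (fun a => v (some a)) ≤ t none := by omega
        exact le_trans this h2
      have hQ := hpow (Q (t none))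
      have hQ1 : F.mx (t none) + G.mx (t none) + 2 * t none + 2 = Q (t none) := rfl
      have e1 := hF (Sum.elim v t) (t none) z hW hz hn
        (fun a ha => hvs a (List.mem_append.2 (Or.inl ha)))
        (by show F.mx (t none) < 2 ^ Q (t none); omega)
        (by show KF (v none) ≤ KF (v none) + KG (v none); omega)
      have e2 := hG' (Sum.elim v t) (t none) z hW hz hn
        (fun a ha => hvs a (List.mem_append.2 (Or.inr ha)))
        (by show G.mx (t none) < 2 ^ Q (t none); omega)
        (by show KG (v none) ≤ KF (v none) + KG (v none); omega)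
      have e1' : gF (Sum.elim v t) = cod (v none) (Q (t none)) (KF (v none) + KG (v none))
        (fun s => F.ev (env (fun a => v (some a)) z s)) := e1
      have e2' : gG (Sum.elim v t) = cod (v none) (Q (t none)) (KF (v none) + KG (v none))
        (fun s => G.ev (env (fun a => v (some a)) z s)) := e2
      rw [e1', e2']
      constructor
      · intro h s hs
        have h1 := hU (v none) (Q (t none)) (KF (v none) + KG (v none)) _ _
          (le_trans (hKF1 _) (Nat.le_add_right _ _)) (by
            intro s hs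
            have := ev_le (fun a => v (some a)) z s (t none) (by omega) (fun i => hz i s hs) F
              (fun a ha => hvs a (List.mem_append.2 (Or.inl ha)))
            show F.ev (env (fun a => v (some a)) z s) < _
            omega) (by
            intro s hs
            have := ev_le (fun a => v (some a)) z s (t none) (by omega) (fun i => hz i s hs) G
              (fun a ha => hvs a (List.mem_append.2 (Or.inr ha)))
            show G.ev (env (fun a => v (some a)) z s) < _
            omega) h s hs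
        rw [hFG]
        have h1' : F.ev (env (fun a => v (some a)) z s) = G.ev (env (fun a => v (some a)) z s) := h1
        rw [h1']; ring
      · intro h
        refine cod_congr _ _ _ _ _ fun s hs => ?_
        have := h s hs
        rw [hFG] at this
        omega
    constructor
    · rintro ⟨⟨h1, h2⟩, h3⟩
      have hn : v none ≤ t none := by omega
      have hbQ : t none ≤ Q (t none) := by show t none ≤ _ + _ + 2 * t none + 2; omega
      have hex : ∀ i, ∃ z : ℕ → ℕ, (∀ s < v none, z s < 2 ^ t none) ∧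
          t (some i) = cod (v none) (Q (t none)) 1 z := fun i =>
        (hD (v none) (Q (t none)) (t none) (t (some i)) hbQ
          (by show 1 ≤ _ + _ + 2 * t none + 2; omega)).1 (h2 i)
      choose z hz1 hz2 using hex
      have hsum : ∀ i, t (some i) % (2 ^ Q (t none) - 1) = ∑ s ∈ Finset.range (v none), z i s := by
        intro i
        rw [hz2 i]
        refine hS _ _ _ ?_
        have s1 : ∑ s ∈ Finset.range (v none), z i s ≤ ∑ s ∈ Finset.range (v none), 2 ^ t none :=
          Finset.sum_le_sum fun s hs => (hz1 i s (Finset.mem_range.1 hs)).le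
        rw [Finset.sum_const, Finset.card_range, smul_eq_mul] at s1
        have s2 : v none * 2 ^ t none ≤ t none * 2 ^ t none := Nat.mul_le_mul_right _ hn
        have s3 : t none * 2 ^ t none ≤ 2 ^ t none * 2 ^ t none :=
          Nat.mul_le_mul_right _ (hpow _).le
        have s4 : 2 ^ t none * 2 ^ t none = 2 ^ (2 * t none) := by rw [← pow_add]; congr 1; omega
        have s5 : 2 ^ (2 * t none + 2) ≤ 2 ^ Q (t none) :=
          Nat.pow_le_pow_right (by norm_num) (by show _ ≤ _ + _ + 2 * t none + 2; omega)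
        have s6 : 2 ^ (2 * t none + 2) = 4 * 2 ^ (2 * t none) := by rw [pow_add]; ring
        have s7 : 0 < 2 ^ (2 * t none) := Nat.two_pow_pos _
        omega
      simp only [hsum] at h1
      exact ⟨z, (common z h1 hz2).1 h3, h1, hz2⟩
    · rintro ⟨z, h1, h2, h3⟩
      have hn : v none ≤ t none := by omega
      have hz : ∀ i, ∀ s < v none, z i s ≤ t none := by
        intro i s hs
        have h1 : z i s ≤ ∑ s ∈ Finset.range (v none), z i s :=
          Finset.single_le_sum (f := fun s => z i s) (fun _ _ => Nat.zero_le _)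
            (Finset.mem_range.2 hs)
        have h2 : ∑ s ∈ Finset.range (v none), z i s ≤
            ∑ i, ∑ s ∈ Finset.range (v none), z i s :=
          Finset.single_le_sum (f := fun i => ∑ s ∈ Finset.range (v none), z i s)
            (fun _ _ => Nat.zero_le _) (Finset.mem_univ i)
        omega
      refine ⟨⟨?_, fun i => ?_⟩, (common z h2 h3).2 h1⟩
      · have hsum : ∀ i, t (some i) % (2 ^ Q (t none) - 1) =
            ∑ s ∈ Finset.range (v none), z i s := by
          intro i
          rw [h3 i]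
          refine hS _ _ _ ?_
          have h2' : ∑ s ∈ Finset.range (v none), z i s ≤
            ∑ i, ∑ s ∈ Finset.range (v none), z i s :=
          Finset.single_le_sum (f := fun i => ∑ s ∈ Finset.range (v none), z i s)
            (fun _ _ => Nat.zero_le _) (Finset.mem_univ i)
          have s1 := hpow (Q (t none))
          have hQ1 : F.mx (t none) + G.mx (t none) + 2 * t none + 2 = Q (t none) := rfl
          omega
        rw [Finset.sum_congr rfl fun i _ => hsum i]
        exact h2
      · refine (hD (v none) (Q (t none)) (t none) (t (some i)) ?_ ?_).2 ⟨z i, ?_, h3 i⟩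
        · show t none ≤ _ + _ + 2 * t none + 2; omega
        · show 1 ≤ _ + _ + 2 * t none + 2; omega
        · intro s hs
          exact lt_of_le_of_lt (hz i s hs) (hpow _)
  -- conclusion
  have henv : ∀ (v : Option α → ℕ) (z : Fin k → ℕ → ℕ) (s : ℕ),
      env (fun a => v (some a)) z s =
        Sum.elim (fun o : Option α => o.elim s (fun a => v (some a))) (fun i => z i s) := by
    intro v z s; rfl
  have hfin := SF.exType (R := Rel) hRel (by
    intro v t t' ht ht'
    obtain ⟨z, h1, h2, h3⟩ := (key v t).1 ht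
    obtain ⟨z', h1', h2', h3'⟩ := (key v t').1 ht'
    have hzz : ∀ s < v none, ∀ i, z i s = z' i s := by
      intro s hs i
      have a1 := h1 s hs
      have a2 := h1' s hs
      rw [henv] at a1 a2
      exact congrFun ((hv _).2 _ _ a1 a2) i
    have hb : t none = t' none := by
      rw [h2, h2']
      congr 2
      refine Finset.sum_congr rfl fun i _ => Finset.sum_congr rfl fun s hs => ?_
      exact hzz s (Finset.mem_range.1 hs) i
    funext o
    rcases o with _ | i
    · exact hb
    · rw [h3 i, h3' i, hb]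
      exact cod_congr _ _ _ _ _ fun s hs => hzz s hs i)
  refine hfin.congr fun v => ?_
  constructor
  · rintro ⟨t, ht⟩ s hs
    obtain ⟨z, h1, h2, h3⟩ := (key v t).1 ht
    have a1 := h1 s hs
    rw [henv] at a1
    exact ((hv _).1).2 ⟨_, a1⟩
  · intro h
    have hex : ∀ s, ∃ w : Fin k → ℕ, s < v none →
        p (Sum.elim (fun o : Option α => o.elim s (fun a => v (some a))) w) = 0 := by
      intro s
      by_cases hs : s < v none
      · obtain ⟨w, hw⟩ := ((hv _).1).1 (h s hs)
        exact ⟨w, fun _ => hw⟩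
      · exact ⟨fun _ => 0, fun h => (hs h).elim⟩
    choose w hw using hex
    let b := (∑ i, ∑ s ∈ Finset.range (v none), w s i) + us (fun a => v (some a)) + v none
    let t0 : Option (Fin k) → ℕ := fun o => match o with
      | none => b
      | some i => cod (v none) (Q b) 1 (fun s => w s i)
    refine ⟨t0, (key v t0).2 ⟨fun i s => w s i, ?_, rfl, ?_⟩⟩
    · intro s hs
      rw [henv]
      exact hw s hs
    · intro i
      rfl

end Crest.Agent.R323.BQ

namespace Crest.Agent.R323

theorem bq : StBQ := BQ.bq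

end Crest.Agent.R323
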