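import Crest.Agent.R323.Defs

set_option autoImplicit false

namespace Crest.Agent.R323

namespace CGx

open WeierstrassCurve WeierstrassCurve.Affine

/-- the curve `y² = x³ - 2x` -/
def Wc : WeierstrassCurve.Affine ℚ := ⟨0, 0, 0, -2, 0⟩

theorem ns {x y : ℚ} (h : On x y) : Wc.Nonsingular x y := by
  unfold On at h
  rw [nonsingular_iff', equation_iff]
  refine ⟨by simp only [Wc]; linarith, ?_⟩
  simp only [Wc]
  by_contra hc
  push Not at hc
  obtain ⟨h1, h2⟩ := hc
  have hy : y = 0 := by linarith
  subst hy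
  have h3 : x * (x ^ 2 - 2) = 0 := by linarith
  rcases mul_eq_zero.1 h3 with h4 | h4
  · subst h4; norm_num at h1
  · nlinarith

theorem negY (x y : ℚ) : Wc.negY x y = -y := by
  simp [Affine.negY, Wc]

open Classical in
noncomputable def pt (x y : ℚ) : Wc.Point :=
  if h : Wc.Nonsingular x y then .some x y h else 0

theorem pt_eq {x y : ℚ} (h : On x y) : pt x y = .some x y (ns h) := dif_pos (ns h)

theorem pt_eq' {x y : ℚ} (h : Wc.Nonsingular x y) : pt x y = .some x y h := dif_pos h

end CGx

open CGx WeierstrassCurve.Affine in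
theorem curveG : StCG := by
  refine ⟨Wc.Point, inferInstance, pt, ?_⟩
  refine ⟨?_, ?_, ?_, ?_, ?_⟩
  · intro x y x' y' h h' he
    rw [pt_eq h, pt_eq h'] at he
    injection he with h1 h2
    exact ⟨h1, h2⟩
  · intro x y h
    rw [pt_eq h]
    exact Point.some_ne_zero _
  · intro x y h
    have h' : On x (-y) := by unfold On at *; rw [neg_sq]; exact h
    rw [pt_eq h, pt_eq h', Point.neg_some]
    simp only [CGx.negY]
  · intro x y x' y' l h h' hx hl
    rw [pt_eq h, pt_eq h', Point.add_of_X_ne hx]
    have hs : Wc.slope x x' y y' = l := by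
      rw [slope_of_X_ne hx, div_eq_iff (sub_ne_zero.2 hx)]; exact hl.symm
    have hX : Wc.addX x x' (Wc.slope x x' y y') = l ^ 2 - x - x' := by
      rw [hs]; simp [addX, Wc]
    have hY : Wc.addY x x' y (Wc.slope x x' y y') = l * (x - (l ^ 2 - x - x')) - y := by
      rw [hs]; simp [addY, negAddY, addX, WeierstrassCurve.Affine.negY, Wc]; ring
    have hn := nonsingular_add (ns h) (ns h') (fun hxy => hx hxy.left)
    rw [← pt_eq' hn, hX, hY]
  · intro x y l h hy hl
    have hyn : y ≠ Wc.negY x y := by
      rw [CGx.negY]; intro h0; apply hy; linarith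
    rw [pt_eq h, Point.add_self_of_Y_ne hyn]
    have hs : Wc.slope x x y y = l := by
      rw [slope_of_Y_ne rfl hyn, CGx.negY, div_eq_iff (by intro h0; apply hy; linarith)]
      simp only [Wc]
      linarith
    have hX : Wc.addX x x (Wc.slope x x y y) = l ^ 2 - 2 * x := by
      rw [hs]; simp [addX, Wc]; ring
    have hY : Wc.addY x x y (Wc.slope x x y y) = l * (x - (l ^ 2 - 2 * x)) - y := by
      rw [hs]; simp [addY, negAddY, addX, WeierstrassCurve.Affine.negY, Wc]; ring
    have hn := nonsingular_add (ns h) (ns h) (fun hxy => hyn hxy.right)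
    rw [← pt_eq' hn, hX, hY]

end Crest.Agent.R323
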