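import Crest.Agent.R323.Defs

set_option autoImplicit false

namespace Crest.Agent.R323

namespace CLASS

theorem on_rep (s e : ℤ) (u d w : ℕ) (h : CS s u d w) (he : e = 1 ∨ e = -1) :
    On ((s : ℚ) * (u : ℚ) ^ 2 / (d : ℚ) ^ 2) ((e : ℚ) * u * w / (d : ℚ) ^ 3) := by
  have hd : (d : ℚ) ≠ 0 := by exact_mod_cast h.d0.ne'
  have he2 : (e : ℚ) ^ 2 = 1 := by rcases he with rfl | rfl <;> norm_num
  have hs2 : (s : ℚ) ^ 2 = 1 := by rcases h.s1 with hs | hs <;> rw [hs] <;> norm_num
  have heq : (u : ℚ) ^ 4 - 2 * (d : ℚ) ^ 4 = s * (w : ℚ) ^ 2 := by exact_mod_cast h.eq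
  unfold On
  field_simp
  linear_combination (u : ℚ) ^ 2 * w ^ 2 * he2 - (u : ℚ) ^ 2 * s * heq
    - ((u : ℚ) ^ 6 * s + (u : ℚ) ^ 2 * w ^ 2) * hs2

theorem half (hD : StDblR) (hS : StDesc) (G : Type) [AddCommGroup G] (pt : ℚ → ℚ → G)
    (hG : CG G pt) (Q : G) (e : ℤ) (u d w : ℕ) (h : RepE pt Q e 1 u d w) :
    ∃ (s : ℤ) (g k f : ℕ) (R : G), RepE pt R 1 s g k f ∧ u = g ^ 4 + 2 * k ^ 4 ∧
      (Q = R + R ∨ Q = -(R + R)) := by
  obtain ⟨c, he, hQ⟩ := h
  obtain ⟨s, g, k, f, c', hu, hd⟩ := hS u d w c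
  refine ⟨s, g, k, f, pt ((s : ℚ) * (g : ℚ) ^ 2 / (k : ℚ) ^ 2) (((1 : ℤ) : ℚ) * g * f / (k : ℚ) ^ 3),
    ⟨c', Or.inl rfl, rfl⟩, hu, ?_⟩
  obtain ⟨e', c2, he', h2⟩ := hD G pt hG _ 1 s g k f ⟨c', Or.inl rfl, rfl⟩
  rw [← hu, ← hd] at c2 h2
  have hw : ((g : ℤ) ^ 8 - 12 * (g : ℤ) ^ 4 * (k : ℤ) ^ 4 + 4 * (k : ℤ) ^ 8).natAbs = w := by
    have h1 := c2.eq
    have h3 := c.eq
    rw [h1] at h3
    have h4 : (((g : ℤ) ^ 8 - 12 * (g : ℤ) ^ 4 * (k : ℤ) ^ 4 + 4 * (k : ℤ) ^ 8).natAbs) ^ 2 = w ^ 2 := by
      zify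
      simpa using h3
    exact Nat.pow_left_injective (n := 2) (by norm_num) h4
  rw [hw] at h2
  rw [h2, hQ]
  have o := on_rep 1 e u d w c he
  rcases he with rfl | rfl <;> rcases he' with rfl | rfl
  · left; rfl
  · right
    have o' := on_rep 1 (-1) u d w c (Or.inr rfl)
    rw [hG.neg _ _ o']
    congr 1
    push_cast
    ring
  · right
    have o' := on_rep 1 1 u d w c (Or.inl rfl)
    rw [hG.neg _ _ o']
    congr 1
    push_cast
    ring
  · left; rfl

theorem main (hR : StRep) (hD : StDblR) (hS : StDesc) (G : Type) [AddCommGroup G]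
    (pt : ℚ → ℚ → G) (hG : CG G pt) : ∀ (m : ℕ) (Q : G) (e s : ℤ) (u d w : ℕ), max u d ≤ m →
    RepE pt Q e s u d w → ∃ k : ℤ, Q = k • pt (-1) 1 := by
  intro m
  induction m using Nat.strong_induction_on with
  | _ m ih =>
  intro Q e s u d w hm h
  have hus : s = 1 ∨ s = -1 := h.1.s1
  rcases hus with rfl | rfl
  · obtain ⟨s', g, k, f, R, hRr, hu, hQ⟩ := half hD hS G pt hG Q e u d w h
    have hg0 := hRr.1.u0
    have hk0 := hRr.1.d0
    have h1 : g ≤ g ^ 4 := Nat.le_self_pow (by norm_num) g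
    have h2 : k ≤ k ^ 4 := Nat.le_self_pow (by norm_num) k
    have hlt : max g k < m := by
      have : u ≤ m := le_trans (le_max_left _ _) hm
      have : max g k < u := by
        rw [max_lt_iff]
        constructor <;> omega
      omega
    obtain ⟨j, hj⟩ := ih (max g k) hlt R 1 s' g k f le_rfl hRr
    rcases hQ with rfl | rfl
    · exact ⟨j + j, by rw [add_smul, ← hj]⟩
    · exact ⟨-(j + j), by rw [neg_smul, add_smul, ← hj]⟩
  · by_cases hud : u = d
    · subst hud
      have hc := h.1.cop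
      rw [Nat.coprime_self] at hc
      subst hc
      have hw := h.1.eq
      have hw1 : w = 1 := by
        have : (w : ℤ) ^ 2 = 1 := by push_cast at hw; linarith
        have h0 := h.1.w0
        have : w ^ 2 = 1 := by exact_mod_cast this
        nlinarith
      subst hw1
      obtain ⟨c, he, hQ⟩ := h
      rcases he with rfl | rfl
      · refine ⟨1, ?_⟩
        rw [hQ, one_smul]
        congr 1 <;> norm_num
      · refine ⟨-1, ?_⟩
        have : On (-1) 1 := by unfold On; norm_num
        rw [hQ, neg_smul, one_smul, hG.neg _ _ this]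
        congr 1 <;> norm_num
    · have hu0 := h.1.u0
      have hd0 := h.1.d0
      have hne : (d : ℤ) ^ 2 + (-1) * (u : ℤ) ^ 2 ≠ 0 := by
        intro h0
        apply hud
        have : u ^ 2 = d ^ 2 := by zify; linarith
        exact Nat.pow_left_injective (n := 2) (by norm_num) this
      obtain ⟨e', u', d', w', hr, heq⟩ := hR G pt hG Q e (-1) u d w h hne
      rw [neg_neg] at hr
      obtain ⟨s', g, k, f, R, hRr, hu, hQ⟩ := half hD hS G pt hG _ e' u' d' w' hr
      -- bound for `u'`
      have hb : u' ≤ w + u * d := by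
        have h1 : u' ∣ ((w : ℤ) + (-1) * e * u * d).natAbs := by
          have h2 : u' * ((d : ℤ) ^ 2 + (-1) * (u : ℤ) ^ 2).natAbs =
              d' * ((w : ℤ) + (-1) * e * u * d).natAbs := by
            zify
            exact heq
          have h3 : u' ∣ d' * ((w : ℤ) + (-1) * e * u * d).natAbs := Dvd.intro _ h2
          exact hr.1.cop.dvd_of_dvd_mul_left h3
        have h4 : ((w : ℤ) + (-1) * e * u * d).natAbs ≠ 0 := by
          intro h0
          rw [← Int.natCast_natAbs ((w : ℤ) + (-1) * e * u * d), h0] at heq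
          have h5 : 0 < (u' : ℤ) * |(d : ℤ) ^ 2 + (-1) * (u : ℤ) ^ 2| := by
            have := hr.1.u0
            have := abs_pos.2 hne
            positivity
          rw [heq] at h5
          simp at h5
        have h6 := Nat.le_of_dvd (Nat.pos_of_ne_zero h4) h1
        refine h6.trans ?_
        have h7 : (((w : ℤ) + (-1) * e * u * d).natAbs : ℤ) ≤ ((w + u * d : ℕ) : ℤ) := by
          rw [Int.natCast_natAbs, abs_le]
          push_cast
          have hw0 : (0 : ℤ) ≤ w := by positivity
          have hud0 : (0 : ℤ) ≤ (u : ℤ) * d := by positivity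
          rcases h.2.1 with rfl | rfl
          · constructor <;> nlinarith
          · constructor <;> nlinarith
        exact_mod_cast h7
      -- bound for `w`
      have hM2 : 2 ≤ max u d := by
        by_contra hlt
        have : u ≤ 1 := by omega
        have : d ≤ 1 := by omega
        omega
      have huM : u ≤ max u d := le_max_left _ _
      have hdM : d ≤ max u d := le_max_right _ _
      have hw2 : w ^ 2 ≤ 2 * (max u d) ^ 4 := by
        have h1 := h.1.eq
        have h2 : (w : ℤ) ^ 2 ≤ 2 * (d : ℤ) ^ 4 := by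
          have : (0 : ℤ) ≤ (u : ℤ) ^ 4 := by positivity
          linarith
        have h3 : w ^ 2 ≤ 2 * d ^ 4 := by exact_mod_cast h2
        exact h3.trans (Nat.mul_le_mul_left _ (Nat.pow_le_pow_left hdM 4))
      have hw : w < 2 * (max u d) ^ 2 := by
        by_contra hge
        push Not at hge
        have h1 : (2 * (max u d) ^ 2) ^ 2 ≤ w ^ 2 := Nat.pow_le_pow_left hge 2
        have h2 : 0 < (max u d) ^ 4 := by positivity
        nlinarith
      have hud2 : u * d ≤ (max u d) ^ 2 := by
        rw [sq]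
        exact Nat.mul_le_mul huM hdM
      have hlt4 : g ^ 4 + 2 * k ^ 4 < 3 * (max u d) ^ 2 := by
        rw [← hu]
        omega
      have hM4 : 3 * (max u d) ^ 2 ≤ (max u d) ^ 4 := by
        have : (max u d) ^ 4 = (max u d) ^ 2 * (max u d) ^ 2 := by ring
        rw [this]
        apply Nat.mul_le_mul_right
        nlinarith
      have hgl : g < max u d := by
        by_contra hge
        push Not at hge
        have := Nat.pow_le_pow_left hge 4
        omega
      have hkl : k < max u d := by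
        by_contra hge
        push Not at hge
        have := Nat.pow_le_pow_left hge 4
        omega
      obtain ⟨j, hj⟩ := ih (max g k) (by rw [max_lt_iff]; constructor <;> omega) R 1 s' g k f
        le_rfl hRr
      rcases hQ with hQ | hQ
      · refine ⟨j + j - 1, ?_⟩
        rw [sub_smul, add_smul, ← hj, one_smul, ← hQ]
        abel
      · refine ⟨-(j + j) - 1, ?_⟩
        rw [sub_smul, neg_smul, add_smul, ← hj, one_smul, ← hQ]
        abel

end CLASS

theorem cls : StClass := by
  intro hR hD hS G _ pt hG Q e s u d w h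
  exact CLASS.main hR hD hS G pt hG (max u d) Q e s u d w le_rfl h

end Crest.Agent.R323
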