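import Crest.Agent.R323.SFLib

set_option autoImplicit false

namespace Crest.Agent.R323

theorem choose : StChoose := by
  intro hF hP
  have hpow : ∀ {α : Type} {f g : (α → ℕ) → ℕ}, SFn f → SFn g → SFn (fun v => f v ^ g v) :=
    fun hf hg => SFn.comp2 (F := fun x y => x ^ y) hP hf hg
  have h0 : SFn (fun v : Fin 2 → ℕ => v 0) := SFn.proj 0
  have h1 : SFn (fun v : Fin 2 → ℕ => v 1) := SFn.proj 1
  have h2 : SFn (fun v : Fin 2 → ℕ => 2 ^ v 0) := hpow (SFn.const 2) h0
  have h3 : SFn (fun v : Fin 2 → ℕ =>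
      ((2 ^ v 0 + 2) ^ v 0 / (2 ^ v 0 + 1) ^ v 1) % (2 ^ v 0 + 1)) :=
    ((hpow (h2.add (SFn.const 2)) h0).div (hpow (h2.add (SFn.const 1)) h1)).mod
      (h2.add (SFn.const 1))
  exact h3.congr fun v => (hF _ _).symm

theorem land : StLand := by
  intro hO hL hC
  have hdisj : ∀ {α : Type} {f g : (α → ℕ) → ℕ}, SFn f → SFn g →
      SF (fun v => f v &&& g v = 0) := by
    intro α f g hf hg
    have h1 : SFn (fun v => (f v + g v).choose (f v)) :=
      SFn.comp2 (F := fun x y => x.choose y) hC (hf.add hg) hf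
    exact (SF.eq (h1.mod (SFn.const 2)) (SFn.const 1)).congr fun v => hO _ _
  refine SFn.of_rel (R := fun v y => y ≤ v 0 ∧ y ≤ v 1 ∧ y &&& (v 0 - y) = 0 ∧
    y &&& (v 1 - y) = 0 ∧ (v 0 - y) &&& (v 1 - y) = 0) ?_ ?_
  · have hy : SFn (fun v : Option (Fin 2) → ℕ => v none) := SFn.proj none
    have h0 : SFn (fun v : Option (Fin 2) → ℕ => v (some 0)) := SFn.proj _
    have h1 : SFn (fun v : Option (Fin 2) → ℕ => v (some 1)) := SFn.proj _
    exact SF.and (SF.le hy h0) (SF.and (SF.le hy h1) (SF.and (hdisj hy (h0.sub hy))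
      (SF.and (hdisj hy (h1.sub hy)) (hdisj (h0.sub hy) (h1.sub hy)))))
  · intro v y
    exact (hL (v 0) (v 1) y).symm

theorem geom : StGeom := by
  intro hG hP
  have hpow : ∀ {α : Type} {f g : (α → ℕ) → ℕ}, SFn f → SFn g → SFn (fun v => f v ^ g v) :=
    fun hf hg => SFn.comp2 (F := fun x y => x ^ y) hP hf hg
  have h0 : SFn (fun v : Fin 2 → ℕ => v 0) := SFn.proj 0
  have h1 : SFn (fun v : Fin 2 → ℕ => v 1) := SFn.proj 1
  have h2 : SFn (fun v : Fin 2 → ℕ => v 0 ^ v 1) := hpow h0 h1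
  have h3 : SFn (fun v : Fin 2 → ℕ => (v 0 ^ v 1 - 1) / (v 0 - 1)) :=
    h2.pred.div h0.pred
  constructor
  · have h4 : SFn (fun v : Fin 2 → ℕ => if v 0 < 2 then (if v 0 = 0 then
        (if v 1 = 0 then 0 else 1) else v 1) else (v 0 ^ v 1 - 1) / (v 0 - 1)) :=
      SFn.ite_lt h0 (SFn.const 2) (SFn.ite_eq h0 (SFn.const 0)
        (SFn.ite_eq h1 (SFn.const 0) (SFn.const 0) (SFn.const 1)) h1) h3
    refine h4.congr fun v => ?_
    show _ = ∑ t ∈ Finset.range (v 1), v 0 ^ t
    by_cases hv : v 0 < 2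
    · rw [if_pos hv]
      by_cases hv0 : v 0 = 0
      · rw [if_pos hv0, hv0]
        by_cases hv1 : v 1 = 0
        · simp [hv1]
        · rw [if_neg hv1]
          obtain ⟨n, hn⟩ := Nat.exists_eq_succ_of_ne_zero hv1
          rw [hn, Finset.sum_range_succ']
          simp
      · have : v 0 = 1 := by omega
        rw [if_neg hv0, this]
        simp
    · rw [if_neg hv, (hG (v 0) (v 1) (by omega)).1]
  · have h4 : SFn (fun v : Fin 2 → ℕ => if v 0 < 2 then (if v 0 = 0 then 0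
        else (v 1 * (v 1 - 1)) / 2) else
        (v 1 * v 0 ^ v 1 - v 0 * ((v 0 ^ v 1 - 1) / (v 0 - 1))) / (v 0 - 1)) :=
      SFn.ite_lt h0 (SFn.const 2) (SFn.ite_eq h0 (SFn.const 0) (SFn.const 0)
        ((h1.mul h1.pred).div (SFn.const 2))) (((h1.mul h2).sub (h0.mul h3)).div h0.pred)
    refine h4.congr fun v => ?_
    show _ = ∑ t ∈ Finset.range (v 1), t * v 0 ^ t
    by_cases hv : v 0 < 2
    · rw [if_pos hv]
      by_cases hv0 : v 0 = 0
      · rw [if_pos hv0, hv0]
        symm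
        apply Finset.sum_eq_zero
        intro t _
        rcases Nat.eq_zero_or_pos t with h | h
        · simp [h]
        · rw [zero_pow (by omega), mul_zero]
      · have : v 0 = 1 := by omega
        rw [if_neg hv0, this]
        simp only [one_pow, mul_one]
        rw [Finset.sum_range_id]
    · rw [if_neg hv, (hG (v 0) (v 1) (by omega)).2]

end Crest.Agent.R323
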