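import Crest.Agent.R323.Defs

/-!
# Row 323, task DBLR: doubling on `y² = x³ - 2x`
-/

set_option autoImplicit false

namespace Crest.Agent.R323

namespace DBLR

theorem odd_u {s : ℤ} {u d w : ℕ} (h : CS s u d w) : u % 2 = 1 := by
  by_contra hne
  have hu0 : u % 2 = 0 := by omega
  have hd1 : d % 2 = 1 := by
    by_contra hd0
    have h1 : 2 ∣ Nat.gcd u d := Nat.dvd_gcd (Nat.dvd_of_mod_eq_zero hu0)
      (Nat.dvd_of_mod_eq_zero (by omega))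
    have hc := h.cop
    unfold Nat.Coprime at hc
    rw [hc] at h1
    omega
  obtain ⟨a, ha⟩ : ∃ a, u = 2 * a := ⟨u / 2, by omega⟩
  obtain ⟨b, hb⟩ : ∃ b, d = 2 * b + 1 := ⟨d / 2, by omega⟩
  have he := h.eq
  have h1 : (u : ℤ) ^ 4 = 4 * (4 * (a : ℤ) ^ 4) := by rw [ha]; push_cast; ring
  have h2 : 2 * (d : ℤ) ^ 4 = 4 * (8 * (b : ℤ) ^ 4 + 16 * b ^ 3 + 12 * b ^ 2 + 4 * b) + 2 := by
    rw [hb]; push_cast; ring
  rw [h1, h2] at he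
  have h3 : (w : ℤ) ^ 2 % 4 = 0 ∨ (w : ℤ) ^ 2 % 4 = 1 := by
    rcases Nat.even_or_odd' w with ⟨c, hc | hc⟩
    · left
      have : (w : ℤ) ^ 2 = 4 * (c : ℤ) ^ 2 := by rw [hc]; push_cast; ring
      rw [this]; omega
    · right
      have : (w : ℤ) ^ 2 = 4 * ((c : ℤ) ^ 2 + c) + 1 := by rw [hc]; push_cast; ring
      rw [this]; omega
  rcases h.s1 with hs | hs <;> rw [hs] at he <;> omega

theorem w4 {s : ℤ} {u d w : ℕ} (h : CS s u d w) :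
    (w : ℤ) ^ 4 = ((u : ℤ) ^ 4 - 2 * (d : ℤ) ^ 4) ^ 2 := by
  rw [h.eq]
  rcases h.s1 with hs | hs <;> rw [hs] <;> ring

theorem cop {s : ℤ} {u d w : ℕ} (h : CS s u d w) :
    Nat.Coprime (u ^ 4 + 2 * d ^ 4) (2 * u * d * w) := by
  have huo := odd_u h
  have hodd : (u ^ 4 + 2 * d ^ 4) % 2 = 1 := by
    have : u ^ 4 % 2 = 1 := by simp [Nat.pow_mod, huo]
    omega
  rw [Nat.coprime_iff_gcd_eq_one]
  by_contra hne
  obtain ⟨p, hp, hpd⟩ := Nat.exists_prime_and_dvd hne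
  have hpA : p ∣ u ^ 4 + 2 * d ^ 4 := hpd.trans (Nat.gcd_dvd_left _ _)
  have hpB : p ∣ 2 * u * d * w := hpd.trans (Nat.gcd_dvd_right _ _)
  have hp2 : ¬ p ∣ 2 := by
    intro h2
    have h3 : p = 2 := (Nat.prime_dvd_prime_iff_eq hp Nat.prime_two).1 h2
    rw [h3] at hpA
    omega
  have hno : ¬ (p ∣ u ∧ p ∣ d) := by
    rintro ⟨h1, h2⟩
    have := Nat.dvd_gcd h1 h2
    have hc := h.cop
    unfold Nat.Coprime at hc
    rw [hc] at this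
    exact hp.one_lt.ne' (Nat.dvd_one.1 this)
  have hpu : ¬ p ∣ u := by
    intro h1
    have h2 : p ∣ 2 * d ^ 4 := (Nat.dvd_add_right (dvd_pow h1 (by norm_num))).1 hpA
    rcases (hp.dvd_mul).1 h2 with h3 | h3
    · exact hp2 h3
    · exact hno ⟨h1, hp.dvd_of_dvd_pow h3⟩
  have hpd' : ¬ p ∣ d := by
    intro h1
    have h2 : p ∣ 2 * d ^ 4 := (dvd_pow h1 (by norm_num)).mul_left 2
    have h3 : p ∣ u ^ 4 := (Nat.dvd_add_left h2).1 hpA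
    exact hpu (hp.dvd_of_dvd_pow h3)
  have hpw : ¬ p ∣ w := by
    intro h1
    have h2 : (p : ℤ) ∣ (u : ℤ) ^ 4 - 2 * (d : ℤ) ^ 4 := by
      rw [h.eq]
      exact (dvd_pow (Int.natCast_dvd_natCast.2 h1) (by norm_num)).mul_left _
    have h3 : (p : ℤ) ∣ (u : ℤ) ^ 4 + 2 * (d : ℤ) ^ 4 := by exact_mod_cast hpA
    have h4 : (p : ℤ) ∣ 2 * (u : ℤ) ^ 4 := by
      have := dvd_add h2 h3
      ring_nf at this
      ring_nf
      exact this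
    have h5 : p ∣ 2 * u ^ 4 := by exact_mod_cast h4
    rcases (hp.dvd_mul).1 h5 with h6 | h6
    · exact hp2 h6
    · exact hpu (hp.dvd_of_dvd_pow h6)
  rcases (hp.dvd_mul).1 hpB with h1 | h1
  · rcases (hp.dvd_mul).1 h1 with h2 | h2
    · rcases (hp.dvd_mul).1 h2 with h3 | h3
      · exact hp2 h3
      · exact hpu h3
    · exact hpd' h2
  · exact hpw h1

theorem cs {s : ℤ} {u d w : ℕ} (h : CS s u d w) :
    CS 1 (u ^ 4 + 2 * d ^ 4) (2 * u * d * w)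
      ((u : ℤ) ^ 8 - 12 * (u : ℤ) ^ 4 * (d : ℤ) ^ 4 + 4 * (d : ℤ) ^ 8).natAbs := by
  have hu := h.u0
  have hd := h.d0
  have hw := h.w0
  refine ⟨Or.inl rfl, by positivity, by positivity, ?_, cop h, ?_⟩
  · rw [Nat.pos_iff_ne_zero, Int.natAbs_ne_zero]
    intro h0
    have huo := odd_u h
    obtain ⟨a, ha⟩ : ∃ a, u ^ 8 = 2 * a + 1 := by
      have : u ^ 8 % 2 = 1 := by simp [Nat.pow_mod, huo]
      exact ⟨u ^ 8 / 2, by omega⟩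
    have h1 : (u : ℤ) ^ 8 = 2 * a + 1 := by exact_mod_cast ha
    rw [h1] at h0
    have h2 : (2 : ℤ) * (a - 6 * (u : ℤ) ^ 4 * (d : ℤ) ^ 4 + 2 * (d : ℤ) ^ 8) + 1 = 0 := by
      linarith
    omega
  · have h1 := w4 h
    rw [Int.natCast_natAbs, sq_abs]
    push_cast
    have h2 : (2 * (u : ℤ) * d * w) ^ 4 = 16 * u ^ 4 * d ^ 4 * w ^ 4 := by ring
    rw [h2, h1]
    ring

theorem on {s e : ℤ} {u d w : ℕ} (h : CS s u d w) (he : e = 1 ∨ e = -1) :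
    On ((s : ℚ) * (u : ℚ) ^ 2 / (d : ℚ) ^ 2) ((e : ℚ) * u * w / (d : ℚ) ^ 3) := by
  have hd : (d : ℚ) ≠ 0 := by
    have := h.d0
    positivity
  have h1 : (u : ℚ) ^ 4 - 2 * (d : ℚ) ^ 4 = s * (w : ℚ) ^ 2 := by exact_mod_cast h.eq
  have hs : (s : ℚ) ^ 2 = 1 := by
    rcases h.s1 with hs | hs <;> rw [hs] <;> norm_num
  have he2 : (e : ℚ) ^ 2 = 1 := by
    rcases he with hs | hs <;> rw [hs] <;> norm_num
  unfold On
  have e1 : ((e : ℚ) * u * w / (d : ℚ) ^ 3) ^ 2 = (u : ℚ) ^ 2 * (w : ℚ) ^ 2 / (d : ℚ) ^ 6 := by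
    rw [div_pow, mul_pow, mul_pow, he2]
    ring
  have e2 : ((s : ℚ) * (u : ℚ) ^ 2 / (d : ℚ) ^ 2) ^ 3 - 2 * ((s : ℚ) * (u : ℚ) ^ 2 / (d : ℚ) ^ 2)
      = (s : ℚ) * u ^ 2 * (u ^ 4 - 2 * d ^ 4) / (d : ℚ) ^ 6 := by
    rw [div_pow, mul_pow]
    have : (s : ℚ) ^ 3 = s := by
      have : (s : ℚ) ^ 3 = s ^ 2 * s := by ring
      rw [this, hs, one_mul]
    rw [this]
    field_simp
  rw [e1, e2, h1]
  have : (s : ℚ) * u ^ 2 * (s * w ^ 2) = s ^ 2 * (u ^ 2 * w ^ 2) := by ring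
  rw [this, hs, one_mul]

theorem on_dbl {x y l : ℚ} (h : On x y) (hl : l * (2 * y) = 3 * x ^ 2 - 2) :
    On (l ^ 2 - 2 * x) (l * (x - (l ^ 2 - 2 * x)) - y) := by
  unfold On at *
  linear_combination (l ^ 2 - 3 * x) * hl + h

end DBLR

open DBLR in
theorem dblR : StDblR := by
  intro G _ pt hG Q e s u d w hR
  obtain ⟨hcs, he, hQ⟩ := hR
  have hon := DBLR.on hcs he
  have hu : (0 : ℚ) < u := by exact_mod_cast hcs.u0
  have hd : (0 : ℚ) < d := by exact_mod_cast hcs.d0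
  have hw : (0 : ℚ) < w := by exact_mod_cast hcs.w0
  have h1 : (u : ℚ) ^ 4 - 2 * (d : ℚ) ^ 4 = s * (w : ℚ) ^ 2 := by exact_mod_cast hcs.eq
  have hs2 : (s : ℚ) ^ 2 = 1 := by
    rcases hcs.s1 with hs | hs <;> rw [hs] <;> norm_num
  have he2 : (e : ℚ) ^ 2 = 1 := by
    rcases he with hs | hs <;> rw [hs] <;> norm_num
  have he0 : (e : ℚ) ≠ 0 := by
    intro h; rw [h] at he2; norm_num at he2
  set x : ℚ := (s : ℚ) * (u : ℚ) ^ 2 / (d : ℚ) ^ 2 with hx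
  set y : ℚ := (e : ℚ) * u * w / (d : ℚ) ^ 3 with hy
  have hy0 : y ≠ 0 := by
    rw [hy]; positivity
  have hdbl := hG.dbl x y ((3 * x ^ 2 - 2) / (2 * y)) hon hy0
    (div_mul_cancel₀ _ (mul_ne_zero two_ne_zero hy0))
  set l : ℚ := (3 * x ^ 2 - 2) / (2 * y) with hl
  have hl' : l * (2 * y) = 3 * x ^ 2 - 2 := div_mul_cancel₀ _ (mul_ne_zero two_ne_zero hy0)
  have hon' := on_dbl hon hl'
  set X : ℚ := l ^ 2 - 2 * x with hX
  set Y : ℚ := l * (x - X) - y with hY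
  have hcs' := DBLR.cs hcs
  set U' : ℕ := u ^ 4 + 2 * d ^ 4 with hU'
  set D' : ℕ := 2 * u * d * w with hD'
  set W' : ℕ := ((u : ℤ) ^ 8 - 12 * (u : ℤ) ^ 4 * (d : ℤ) ^ 4 + 4 * (d : ℤ) ^ 8).natAbs with hW'
  have hU'q : (U' : ℚ) = (u : ℚ) ^ 4 + 2 * (d : ℚ) ^ 4 := by rw [hU']; push_cast; ring
  have hD'q : (D' : ℚ) = 2 * (u : ℚ) * d * w := by rw [hD']; push_cast; ring
  have hD'0 : (0 : ℚ) < D' := by exact_mod_cast hcs'.d0
  -- the x coordinate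
  have hXeq : X = (U' : ℚ) ^ 2 / (D' : ℚ) ^ 2 := by
    have hon2 : y ^ 2 = x ^ 3 - 2 * x := hon
    have h2 : X * (2 * y) ^ 2 = (x ^ 2 + 2) ^ 2 := by
      rw [hX]
      linear_combination (l * (2 * y) + (3 * x ^ 2 - 2)) * hl' - 8 * x * hon2
    have hx2 : x ^ 2 + 2 = (U' : ℚ) / (d : ℚ) ^ 4 := by
      rw [hx, hU'q, div_pow, mul_pow, hs2]
      field_simp
    have hy2 : (2 * y) ^ 2 = (D' : ℚ) ^ 2 / (d : ℚ) ^ 8 := by
      rw [hy, hD'q]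
      have : (2 * ((e : ℚ) * u * w / (d : ℚ) ^ 3)) ^ 2 = (e : ℚ) ^ 2 * (4 * u ^ 2 * w ^ 2 / d ^ 6) := by
        ring
      rw [this, he2]
      field_simp
      ring
    rw [hx2, hy2] at h2
    field_simp at h2
    field_simp
    linarith
  have hYeq : Y ^ 2 = ((U' : ℚ) * W' / (D' : ℚ) ^ 3) ^ 2 := by
    have hon2 : Y ^ 2 = X ^ 3 - 2 * X := hon'
    have h3 : (U' : ℚ) ^ 4 - 2 * (D' : ℚ) ^ 4 = 1 * (W' : ℚ) ^ 2 := by exact_mod_cast hcs'.eq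
    rw [hon2, hXeq]
    have h4 : ((U' : ℚ) * W' / (D' : ℚ) ^ 3) ^ 2 = (U' : ℚ) ^ 2 * (1 * (W' : ℚ) ^ 2) / (D' : ℚ) ^ 6 := by
      ring
    rw [h4, ← h3]
    field_simp
  rcases sq_eq_sq_iff_eq_or_eq_neg.1 hYeq with h5 | h5
  · refine ⟨1, hcs', Or.inl rfl, ?_⟩
    rw [hQ, hdbl, hXeq, h5]
    congr 1
    · push_cast; ring
    · push_cast; ring
  · refine ⟨-1, hcs', Or.inr rfl, ?_⟩
    rw [hQ, hdbl, hXeq, h5]
    congr 1
    · push_cast; ring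
    · push_cast; ring

end Crest.Agent.R323
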