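import Crest.Agent.R323.Defs

/-!
# Row 323, task DESC: Lagrange's descent for `u⁴ - 2 d⁴ = w²`
-/

set_option autoImplicit false

namespace Crest.Agent.R323

namespace DESC

theorem split1 {A B e : ℕ} (hc : Nat.Coprime A B) (h : A * B = e ^ 4) :
    ∃ x y : ℕ, A = x ^ 4 ∧ B = y ^ 4 ∧ e = x * y := by
  have h1 : IsUnit (gcd A B) := by
    have : gcd A B = 1 := hc
    rw [this]; exact isUnit_one
  have h2 : IsUnit (gcd B A) := by
    have : gcd B A = 1 := hc.symm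
    rw [this]; exact isUnit_one
  obtain ⟨x, hx⟩ := exists_eq_pow_of_mul_eq_pow h1 h
  obtain ⟨y, hy⟩ := exists_eq_pow_of_mul_eq_pow h2 (by rw [mul_comm]; exact h)
  refine ⟨x, y, hx, hy, ?_⟩
  have h3 : (x * y) ^ 4 = e ^ 4 := by rw [mul_pow, ← hx, ← hy, h]
  exact (Nat.pow_left_injective (n := 4) (by norm_num) h3).symm

theorem splitk {A B e : ℕ} (j : ℕ) (hc : Nat.Coprime A B)
    (h : A * B = 2 ^ j * e ^ 4) :
    ∃ x y : ℕ, e = x * y ∧ ((A = 2 ^ j * x ^ 4 ∧ B = y ^ 4) ∨ (A = y ^ 4 ∧ B = 2 ^ j * x ^ 4)) := by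
  have hpos : 0 < 2 ^ j := by positivity
  have hodd : ¬ 2 ∣ A ∨ ¬ 2 ∣ B := by
    by_contra hcon
    push Not at hcon
    have := Nat.dvd_gcd hcon.1 hcon.2
    rw [hc] at this
    omega
  rcases hodd with hA | hB
  · have hcop : Nat.Coprime (2 ^ j) A :=
      Nat.Coprime.pow_left _ ((Nat.Prime.coprime_iff_not_dvd Nat.prime_two).2 hA)
    have hd : 2 ^ j ∣ A * B := ⟨e ^ 4, h⟩
    obtain ⟨B', hB'⟩ := hcop.dvd_of_dvd_mul_left hd
    have h' : A * B' = e ^ 4 := by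
      have : 2 ^ j * (A * B') = 2 ^ j * e ^ 4 := by rw [← h, hB']; ring
      exact Nat.eq_of_mul_eq_mul_left hpos this
    have hc' : Nat.Coprime A B' := Nat.Coprime.coprime_mul_left_right (hB' ▸ hc)
    obtain ⟨x, y, hx, hy, he⟩ := split1 hc' h'
    exact ⟨y, x, by rw [he]; ring, Or.inr ⟨hx, by rw [hB', hy]⟩⟩
  · have hcop : Nat.Coprime (2 ^ j) B :=
      Nat.Coprime.pow_left _ ((Nat.Prime.coprime_iff_not_dvd Nat.prime_two).2 hB)
    have hd : 2 ^ j ∣ A * B := ⟨e ^ 4, h⟩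
    obtain ⟨A', hA'⟩ := hcop.dvd_of_dvd_mul_right hd
    have h' : A' * B = e ^ 4 := by
      have : 2 ^ j * (A' * B) = 2 ^ j * e ^ 4 := by rw [← h, hA']; ring
      exact Nat.eq_of_mul_eq_mul_left hpos this
    have hc' : Nat.Coprime A' B := Nat.Coprime.coprime_mul_left (hA' ▸ hc)
    obtain ⟨x, y, hx, hy, he⟩ := split1 hc' h'
    exact ⟨x, y, he, Or.inl ⟨by rw [hA', hx], hy⟩⟩

theorem desc0 {u d w : ℕ} (hu : 0 < u) (hd : 0 < d) (hw : 0 < w) (hcop : Nat.Coprime u d)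
    (h : u ^ 4 = 2 * d ^ 4 + w ^ 2) : ∃ (s : ℤ) (g h f : ℕ), CS s g h f ∧
      u = g ^ 4 + 2 * h ^ 4 ∧ d = 2 * g * h * f := by
  -- parity
  have hsq : ∀ n : ℕ, n ^ 2 % 4 = (n % 2) ^ 2 := by
    intro n
    obtain ⟨k, hk⟩ := Nat.even_or_odd' n
    rcases hk with hk | hk
    · have h1 : n ^ 2 = 4 * (k ^ 2) := by rw [hk]; ring
      have h2 : n % 2 = 0 := by omega
      rw [h1, h2]; omega
    · have h1 : n ^ 2 = 4 * (k ^ 2 + k) + 1 := by rw [hk]; ring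
      have h2 : n % 2 = 1 := by omega
      rw [h1, h2]; omega
  have hq : ∀ n : ℕ, n ^ 4 % 4 = (n % 2) ^ 2 := by
    intro n
    have h1 : n ^ 4 = (n ^ 2) ^ 2 := by ring
    have h2 := hsq (n ^ 2)
    have h3 := hsq n
    rw [h1, h2]
    have h5 : n ^ 2 % 2 = n % 2 := by
      rcases Nat.mod_two_eq_zero_or_one n with h6 | h6 <;> simp [Nat.pow_mod, h6]
    rw [h5]
  have huodd : u % 2 = 1 := by
    by_contra hne
    have hu0 : u % 2 = 0 := by omega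
    have hd1 : d % 2 = 1 := by
      by_contra hd0
      have h1 : 2 ∣ Nat.gcd u d := Nat.dvd_gcd (Nat.dvd_of_mod_eq_zero hu0)
        (Nat.dvd_of_mod_eq_zero (by omega))
      rw [hcop] at h1
      omega
    have e1 := hq u
    have e2 := hq d
    have e3 := hsq w
    rw [hu0] at e1
    rw [hd1] at e2
    rcases Nat.mod_two_eq_zero_or_one w with h6 | h6 <;> rw [h6] at e3 <;> omega
  have hwodd : w % 2 = 1 := by
    have e1 := hq u
    have e3 := hsq w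
    rw [huodd] at e1
    rcases Nat.mod_two_eq_zero_or_one w with h6 | h6
    · rw [h6] at e3; omega
    · exact h6
  have hu2odd : u ^ 2 % 2 = 1 := by simp [Nat.pow_mod, huodd]
  have hwlt : w < u ^ 2 := by
    have h1 : w ^ 2 < (u ^ 2) ^ 2 := by
      have : 0 < d ^ 4 := by positivity
      nlinarith
    exact lt_of_pow_lt_pow_left₀ 2 (by positivity) h1
  obtain ⟨A, hA⟩ : ∃ A, u ^ 2 = w + 2 * A := ⟨(u ^ 2 - w) / 2, by omega⟩
  obtain ⟨B, hB⟩ : ∃ B, B = w + A := ⟨_, rfl⟩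
  have hAB : u ^ 2 = A + B := by omega
  have hmul : 2 * (A * B) = d ^ 4 := by
    have h1 : (w + 2 * A) ^ 2 = 2 * d ^ 4 + w ^ 2 := by
      rw [← hA, ← h]; ring
    subst hB
    nlinarith
  have hcAB : Nat.Coprime A B := by
    rw [Nat.coprime_iff_gcd_eq_one]
    by_contra hne
    obtain ⟨p, hp, hpd⟩ := Nat.exists_prime_and_dvd hne
    have hpA : p ∣ A := hpd.trans (Nat.gcd_dvd_left _ _)
    have hpB : p ∣ B := hpd.trans (Nat.gcd_dvd_right _ _)
    have hpu : p ∣ u := hp.dvd_of_dvd_pow (n := 2) (hAB ▸ (hpA.add hpB))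
    have hpd : p ∣ d := hp.dvd_of_dvd_pow (n := 4) (hmul ▸ (Dvd.dvd.mul_left (hpA.mul_right _) 2))
    have := Nat.dvd_gcd hpu hpd
    rw [hcop] at this
    exact hp.one_lt.ne' (Nat.dvd_one.1 this)
  -- d even
  have hdeven : 2 ∣ d := Nat.prime_two.dvd_of_dvd_pow (n := 4) ⟨_, hmul.symm⟩
  obtain ⟨e', he'⟩ := hdeven
  have hmul' : A * B = 2 ^ 3 * e' ^ 4 := by
    rw [he'] at hmul
    nlinarith
  obtain ⟨e, f, hef, hcase⟩ := splitk 3 hcAB hmul'
  have hu2 : u ^ 2 = 8 * e ^ 4 + f ^ 4 := by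
    rcases hcase with ⟨h1, h2⟩ | ⟨h1, h2⟩ <;> rw [hAB, h1, h2] <;> ring
  have hd' : d = 2 * (e * f) := by rw [he', hef]
  have he0 : 0 < e := by
    rcases Nat.eq_zero_or_pos e with h0 | h0
    · subst h0; simp at hd'; omega
    · exact h0
  have hf0 : 0 < f := by
    rcases Nat.eq_zero_or_pos f with h0 | h0
    · subst h0; simp at hd'; omega
    · exact h0
  have hfodd : f % 2 = 1 := by
    by_contra hne
    have hf2 : f % 2 = 0 := by omega
    have : f ^ 4 % 2 = 0 := by simp [Nat.pow_mod, hf2]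
    omega
  have hf2odd : f ^ 2 % 2 = 1 := by simp [Nat.pow_mod, hfodd]
  have hflt : f ^ 2 < u := by
    have h1 : (f ^ 2) ^ 2 < u ^ 2 := by
      have : 0 < e ^ 4 := by positivity
      nlinarith
    exact lt_of_pow_lt_pow_left₀ 2 (by positivity) h1
  obtain ⟨C, hC⟩ : ∃ C, u = f ^ 2 + 2 * C := ⟨(u - f ^ 2) / 2, by omega⟩
  obtain ⟨D, hD⟩ : ∃ D, D = f ^ 2 + C := ⟨_, rfl⟩
  have hCD : u = C + D := by omega
  have hmul2 : C * D = 2 ^ 1 * e ^ 4 := by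
    have h1 : (f ^ 2 + 2 * C) ^ 2 = 8 * e ^ 4 + f ^ 4 := by
      rw [← hC, ← hu2]
    subst hD
    nlinarith
  have hcCD : Nat.Coprime C D := by
    rw [Nat.coprime_iff_gcd_eq_one]
    by_contra hne
    obtain ⟨p, hp, hpd⟩ := Nat.exists_prime_and_dvd hne
    have hpA : p ∣ C := hpd.trans (Nat.gcd_dvd_left _ _)
    have hpB : p ∣ D := hpd.trans (Nat.gcd_dvd_right _ _)
    have hpu : p ∣ u := hCD ▸ (hpA.add hpB)
    have hpf2 : p ∣ f ^ 2 := by
      have h1 : p ∣ f ^ 2 + C := hD ▸ hpB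
      exact (Nat.dvd_add_left hpA).1 h1
    have hpf : p ∣ f := hp.dvd_of_dvd_pow hpf2
    have hpd : p ∣ d := by
      rw [hd']
      exact (hpf.mul_left e).mul_left 2
    have := Nat.dvd_gcd hpu hpd
    rw [hcop] at this
    exact hp.one_lt.ne' (Nat.dvd_one.1 this)
  obtain ⟨h, g, hgh, hcase2⟩ := splitk 1 hcCD hmul2
  have hh0 : 0 < h := by
    rcases Nat.eq_zero_or_pos h with h0 | h0
    · subst h0; simp at hgh; omega
    · exact h0
  have hg0 : 0 < g := by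
    rcases Nat.eq_zero_or_pos g with h0 | h0
    · subst h0; simp at hgh; omega
    · exact h0
  have hueq : u = g ^ 4 + 2 * h ^ 4 := by
    rcases hcase2 with ⟨h1, h2⟩ | ⟨h1, h2⟩ <;> rw [hCD, h1, h2] <;> ring
  have hdeq : d = 2 * g * h * f := by
    rw [hd', hgh]; ring
  have hcgh : Nat.Coprime g h := by
    rcases hcase2 with ⟨h1, h2⟩ | ⟨h1, h2⟩
    · rw [h1, h2] at hcCD
      have h3 : Nat.Coprime (h ^ 4) (g ^ 4) := Nat.Coprime.coprime_mul_left hcCD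
      exact ((Nat.coprime_pow_left_iff (by norm_num) _ _).1
        ((Nat.coprime_pow_right_iff (by norm_num) _ _).1 h3)).symm
    · rw [h1, h2] at hcCD
      have h3 : Nat.Coprime (g ^ 4) (h ^ 4) := Nat.Coprime.coprime_mul_left_right hcCD
      exact ((Nat.coprime_pow_left_iff (by norm_num) _ _).1
        ((Nat.coprime_pow_right_iff (by norm_num) _ _).1 h3))
  rcases hcase2 with ⟨h1, h2⟩ | ⟨h1, h2⟩
  · -- f² = D - C = g⁴ - 2h⁴
    refine ⟨1, g, h, f, ⟨Or.inl rfl, hg0, hh0, hf0, hcgh, ?_⟩, hueq, hdeq⟩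
    have h3 : g ^ 4 = f ^ 2 + 2 * h ^ 4 := by
      rw [← h2, hD, h1]
      ring
    have h4 : (g : ℤ) ^ 4 = (f : ℤ) ^ 2 + 2 * (h : ℤ) ^ 4 := by exact_mod_cast h3
    linarith
  · refine ⟨-1, g, h, f, ⟨Or.inr rfl, hg0, hh0, hf0, hcgh, ?_⟩, hueq, hdeq⟩
    have h3 : 2 * h ^ 4 = f ^ 2 + g ^ 4 := by
      have h5 : D = f ^ 2 + C := hD
      rw [h1, h2] at h5
      linarith
    have h4 : 2 * (h : ℤ) ^ 4 = (f : ℤ) ^ 2 + (g : ℤ) ^ 4 := by exact_mod_cast h3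
    linarith

end DESC

theorem desc : StDesc := by
  intro u d w hcs
  refine DESC.desc0 hcs.u0 hcs.d0 hcs.w0 hcs.cop ?_
  have h := hcs.eq
  have h2 : (u : ℤ) ^ 4 = 2 * (d : ℤ) ^ 4 + (w : ℤ) ^ 2 := by linarith
  exact_mod_cast h2

end Crest.Agent.R323
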