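import Crest.Agent.R323.Defs

set_option autoImplicit false

namespace Crest.Agent.R323

namespace DIG

/-- value with digits `D` in base `2^C` -/
def V (C n : ℕ) (D : ℕ → ℕ) : ℕ := ∑ t ∈ Finset.range n, D t * 2 ^ (C * t)

theorem V_succ (C n : ℕ) (D : ℕ → ℕ) : V C (n + 1) D = 2 ^ (C * n) * D n + V C n D := by
  unfold V
  rw [Finset.sum_range_succ]
  ring

theorem V_zero (C : ℕ) (D : ℕ → ℕ) : V C 0 D = 0 := by simp [V]

theorem V_congr {C n : ℕ} {D E : ℕ → ℕ} (h : ∀ t < n, D t = E t) : V C n D = V C n E := by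
  unfold V
  refine Finset.sum_congr rfl fun t ht => ?_
  rw [h t (Finset.mem_range.1 ht)]

theorem V_lt (C : ℕ) (D : ℕ → ℕ) : ∀ n, (∀ t < n, D t < 2 ^ C) → V C n D < 2 ^ (C * n)
  | 0, _ => by simp [V_zero]
  | n + 1, h => by
    have h1 := V_lt C D n fun t ht => h t (by omega)
    have h2 : D n + 1 ≤ 2 ^ C := h n (by omega)
    rw [V_succ]
    have h3 : 2 ^ (C * (n + 1)) = 2 ^ (C * n) * 2 ^ C := by rw [← pow_add]; ring_nf
    rw [h3]
    calc 2 ^ (C * n) * D n + V C n D < 2 ^ (C * n) * D n + 2 ^ (C * n) := by omega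
      _ = 2 ^ (C * n) * (D n + 1) := by ring
      _ ≤ _ := Nat.mul_le_mul_left _ h2

theorem V_land (C : ℕ) (D E : ℕ → ℕ) : ∀ n, (∀ t < n, D t < 2 ^ C) → (∀ t < n, E t < 2 ^ C) →
    V C n D &&& V C n E = V C n (fun t => D t &&& E t)
  | 0, _, _ => by simp [V_zero]
  | n + 1, h, h' => by
    have ih := V_land C D E n (fun t ht => h t (by omega)) (fun t ht => h' t (by omega))
    have h1 := V_lt C D n fun t ht => h t (by omega)
    have h2 := V_lt C E n fun t ht => h' t (by omega)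
    have h3 : V C n (fun t => D t &&& E t) < 2 ^ (C * n) := by
      rw [← ih]; exact lt_of_le_of_lt Nat.and_le_left h1
    rw [V_succ, V_succ, V_succ]
    refine Nat.eq_of_testBit_eq fun i => ?_
    rw [Nat.testBit_and, Nat.testBit_two_pow_mul_add _ h1, Nat.testBit_two_pow_mul_add _ h2,
      Nat.testBit_two_pow_mul_add _ h3]
    split_ifs
    · rw [← ih, Nat.testBit_and]
    · rw [Nat.testBit_and]

theorem V_inj (C : ℕ) (D E : ℕ → ℕ) : ∀ n, (∀ t < n, D t < 2 ^ C) → (∀ t < n, E t < 2 ^ C) →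
    V C n D = V C n E → ∀ t < n, D t = E t
  | 0, _, _, _ => by intro t ht; omega
  | n + 1, h, h', he => by
    have h1 := V_lt C D n fun t ht => h t (by omega)
    have h2 := V_lt C E n fun t ht => h' t (by omega)
    rw [V_succ, V_succ] at he
    have hpos : 0 < 2 ^ (C * n) := by positivity
    have e1 : (2 ^ (C * n) * D n + V C n D) / 2 ^ (C * n) = D n := by
      rw [Nat.mul_add_div hpos, Nat.div_eq_of_lt h1, add_zero]
    have e2 : (2 ^ (C * n) * E n + V C n E) / 2 ^ (C * n) = E n := by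
      rw [Nat.mul_add_div hpos, Nat.div_eq_of_lt h2, add_zero]
    have e3 : D n = E n := by rw [← e1, ← e2, he]
    have e4 : V C n D = V C n E := by rw [e3] at he; omega
    have ih := V_inj C D E n (fun t ht => h t (by omega)) (fun t ht => h' t (by omega)) e4
    intro t ht
    rcases Nat.lt_succ_iff_lt_or_eq.1 ht with h5 | h5
    · exact ih t h5
    · rw [h5, e3]

/-- base-`2^C` expansion -/
theorem V_expand (C : ℕ) : ∀ (n W : ℕ), W < 2 ^ (C * n) →
    W = V C n (fun t => W / 2 ^ (C * t) % 2 ^ C)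
  | 0, W, h => by
    simp at h
    simp [V_zero, h]
  | n + 1, W, h => by
    have hpos : 0 < 2 ^ (C * n) := by positivity
    have h1 : W % 2 ^ (C * n) < 2 ^ (C * n) := Nat.mod_lt _ hpos
    have ih := V_expand C n (W % 2 ^ (C * n)) h1
    rw [V_succ]
    have h3 : 2 ^ (C * (n + 1)) = 2 ^ (C * n) * 2 ^ C := by rw [← pow_add]; ring_nf
    have h4 : W / 2 ^ (C * n) % 2 ^ C = W / 2 ^ (C * n) :=
      Nat.mod_eq_of_lt (Nat.div_lt_of_lt_mul (by rw [← h3]; exact h))
    have h5 : V C n (fun t => W / 2 ^ (C * t) % 2 ^ C) = W % 2 ^ (C * n) := by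
      rw [ih]
      refine V_congr fun t ht => ?_
      have h6 : C * t + C ≤ C * n := by
        calc C * t + C = C * (t + 1) := by ring
          _ ≤ C * n := Nat.mul_le_mul_left _ ht
      have h7 : 2 ^ C * 2 ^ (C * t) ∣ 2 ^ (C * n) := by
        rw [← pow_add]; exact pow_dvd_pow _ (by omega)
      have h8 : ∀ X : ℕ, X / 2 ^ (C * t) % 2 ^ C = X % (2 ^ (C * t) * 2 ^ C) / 2 ^ (C * t) := by
        intro X
        rw [Nat.mod_mul_right_div_self]
      rw [h8, h8, Nat.mod_mod_of_dvd]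
      rw [mul_comm]; exact h7
    rw [h4, h5]
    exact (Nat.div_add_mod W (2 ^ (C * n))).symm

theorem cod_eq_V (n B K : ℕ) (z : ℕ → ℕ) : cod n B K z = V (B * K) n z := rfl

theorem mul_V (C n c : ℕ) : c * V C n (fun _ => 1) = V C n (fun _ => c) := by
  unfold V
  rw [Finset.mul_sum]
  refine Finset.sum_congr rfl fun t _ => ?_
  ring

end DIG

open DIG in
theorem dig : StDig := by
  intro n B b W hb hB
  rw [cod_eq_V, mul_V, mul_one]
  have hbB : 2 ^ b ≤ 2 ^ B := Nat.pow_le_pow_right (by norm_num) hb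
  have hm : ∀ t < n, (fun _ : ℕ => 2 ^ b - 1) t < 2 ^ B := by
    intro t _
    have : 0 < 2 ^ b := by positivity
    show 2 ^ b - 1 < 2 ^ B
    omega
  constructor
  · intro h
    have h1 : V B n (fun _ => 2 ^ b - 1) < 2 ^ (B * n) := V_lt B _ n hm
    have h2 : W < 2 ^ (B * n) := by
      refine lt_of_le_of_lt ?_ h1
      conv_lhs => rw [← h]
      exact Nat.and_le_right
    have h3 := V_expand B n W h2
    have h4 : ∀ t < n, (fun t => W / 2 ^ (B * t) % 2 ^ B) t < 2 ^ B := by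
      intro t _
      exact Nat.mod_lt _ (by positivity)
    refine ⟨fun t => (W / 2 ^ (B * t) % 2 ^ B) % 2 ^ b, fun t _ => Nat.mod_lt _ (by positivity), ?_⟩
    have h5 := V_land B _ _ n h4 hm
    rw [← h3, h] at h5
    rw [cod_eq_V, mul_one]
    conv_lhs => rw [h5]
    refine V_congr fun t _ => ?_
    exact Nat.and_two_pow_sub_one_eq_mod _ _
  · rintro ⟨z, hz, rfl⟩
    rw [cod_eq_V, mul_one, V_land B _ _ n (fun t ht => lt_of_lt_of_le (hz t ht) hbB) hm]
    refine V_congr fun t ht => ?_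
    show z t &&& (2 ^ b - 1) = z t
    rw [Nat.and_two_pow_sub_one_eq_mod, Nat.mod_eq_of_lt (hz t ht)]

open DIG in
theorem digU : StDigU := by
  intro n B K z z' hK hz hz' h t ht
  rw [cod_eq_V, cod_eq_V] at h
  have hb : 2 ^ B ≤ 2 ^ (B * K) := Nat.pow_le_pow_right (by norm_num) (Nat.le_mul_of_pos_right _ hK)
  exact V_inj (B * K) z z' n (fun t ht => lt_of_lt_of_le (hz t ht) hb)
    (fun t ht => lt_of_lt_of_le (hz' t ht) hb) h t ht

open DIG in
theorem digS : StDigS := by
  intro n B z h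
  have h1 : cod n B 1 z ≡ ∑ t ∈ Finset.range n, z t [MOD 2 ^ B - 1] := by
    unfold cod
    have h2 : ∀ t, z t * 2 ^ (B * 1 * t) ≡ z t [MOD 2 ^ B - 1] := by
      intro t
      have h3 : 2 ^ B ≡ 1 [MOD 2 ^ B - 1] := by
        have : 1 ≤ 2 ^ B := Nat.one_le_two_pow
        exact ((Nat.modEq_iff_dvd' this).2 dvd_rfl).symm
      have h4 : 2 ^ (B * 1 * t) ≡ 1 [MOD 2 ^ B - 1] := by
        have h9 := h3.pow t
        rw [one_pow, ← pow_mul] at h9
        rw [mul_one]
        exact h9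
      simpa using h4.mul_left (z t)
    have h5 : ∀ m, ∑ t ∈ Finset.range m, z t * 2 ^ (B * 1 * t) ≡ ∑ t ∈ Finset.range m, z t
        [MOD 2 ^ B - 1] := by
      intro m
      induction m with
      | zero => simp [Nat.ModEq]
      | succ m ih =>
        rw [Finset.sum_range_succ, Finset.sum_range_succ]
        exact ih.add (h2 m)
    exact h5 n
  have h6 : cod n B 1 z % (2 ^ B - 1) = (∑ t ∈ Finset.range n, z t) % (2 ^ B - 1) := h1
  rw [h6, Nat.mod_eq_of_lt h]

end Crest.Agent.R323
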