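import Mathlib

/-!
# Row 323 (S0500): single-fold Diophantine representations — interface

Paper proof (see table r323_tasks and results.notes of row 323).

Curve `y² = x³ - 2x`, `P = (-1,1)`.  Points `k P` have `x = s u²/d²`, `s = (-1)^k`, `gcd(u,d)=1`,
`u⁴ - 2 d⁴ = s w²`, `y = ± u w / d³`.  `Ht k = u⁴ + 2 d⁴`.
-/

set_option autoImplicit false

namespace Crest.Agent.R323

/-! ## Elliptic part -/

def On (x y : ℚ) : Prop := y ^ 2 = x ^ 3 - 2 * x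

/-- the group of the curve, abstractly -/
structure CG (G : Type) [AddCommGroup G] (pt : ℚ → ℚ → G) : Prop where
  inj : ∀ x y x' y', On x y → On x' y' → pt x y = pt x' y' → x = x' ∧ y = y'
  ne0 : ∀ x y, On x y → pt x y ≠ 0
  neg : ∀ x y, On x y → - pt x y = pt x (-y)
  add : ∀ x y x' y' l, On x y → On x' y' → x ≠ x' → l * (x - x') = y - y' →
    pt x y + pt x' y' = pt (l ^ 2 - x - x') (l * (x - (l ^ 2 - x - x')) - y)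
  dbl : ∀ x y l, On x y → y ≠ 0 → l * (2 * y) = 3 * x ^ 2 - 2 →
    pt x y + pt x y = pt (l ^ 2 - 2 * x) (l * (x - (l ^ 2 - 2 * x)) - y)

/-- signed code: `u⁴ - 2 d⁴ = s w²`, positive, coprime -/
structure CS (s : ℤ) (u d w : ℕ) : Prop where
  s1 : s = 1 ∨ s = -1
  u0 : 0 < u
  d0 : 0 < d
  w0 : 0 < w
  cop : Nat.Coprime u d
  eq : (u : ℤ) ^ 4 - 2 * (d : ℤ) ^ 4 = s * (w : ℤ) ^ 2

def Code (u d w : ℕ) : Prop := CS 1 u d w ∨ CS (-1) u d w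

/-- the point `Q` is `(s u²/d², e u w/d³)` -/
def RepE {G : Type} (pt : ℚ → ℚ → G) (Q : G) (e s : ℤ) (u d w : ℕ) : Prop :=
  CS s u d w ∧ (e = 1 ∨ e = -1) ∧
    Q = pt ((s : ℚ) * (u : ℚ) ^ 2 / (d : ℚ) ^ 2) ((e : ℚ) * u * w / (d : ℚ) ^ 3)

/-- CURVE: from Mathlib's `WeierstrassCurve.Affine.Point` -/
def StCG : Prop := ∃ (G : Type) (i : AddCommGroup G) (pt : ℚ → ℚ → G), @CG G i pt

/-- ADDP: adding `P = (-1,1)` -/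
def StRep : Prop := ∀ (G : Type) [AddCommGroup G] (pt : ℚ → ℚ → G), CG G pt →
  ∀ (Q : G) (e s : ℤ) (u d w : ℕ), RepE pt Q e s u d w → (d : ℤ) ^ 2 + s * (u : ℤ) ^ 2 ≠ 0 →
    ∃ (e' : ℤ) (u' d' w' : ℕ), RepE pt (Q + pt (-1) 1) e' (-s) u' d' w' ∧
      (u' : ℤ) * |(d : ℤ) ^ 2 + s * (u : ℤ) ^ 2| = d' * |(w : ℤ) + s * e * u * d|

/-- DBLR: doubling -/
def StDblR : Prop := ∀ (G : Type) [AddCommGroup G] (pt : ℚ → ℚ → G), CG G pt →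
  ∀ (Q : G) (e s : ℤ) (u d w : ℕ), RepE pt Q e s u d w →
    ∃ e' : ℤ, RepE pt (Q + Q) e' 1 (u ^ 4 + 2 * d ^ 4) (2 * u * d * w)
      ((u : ℤ) ^ 8 - 12 * (u : ℤ) ^ 4 * (d : ℤ) ^ 4 + 4 * (d : ℤ) ^ 8).natAbs

/-- DESC: Lagrange's descent (elementary) -/
def StDesc : Prop := ∀ u d w : ℕ, CS 1 u d w → ∃ (s : ℤ) (g h f : ℕ), CS s g h f ∧
  u = g ^ 4 + 2 * h ^ 4 ∧ d = 2 * g * h * f

/-- CLASS: every code point is a multiple of `P` -/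
def StClass : Prop := StRep → StDblR → StDesc →
  ∀ (G : Type) [AddCommGroup G] (pt : ℚ → ℚ → G), CG G pt →
  ∀ (Q : G) (e s : ℤ) (u d w : ℕ), RepE pt Q e s u d w → ∃ k : ℤ, Q = k • pt (-1) 1

/-- PAR: parallelogram inequality for the height `u⁴ + 2 d⁴` -/
def StPar : Prop := ∀ (G : Type) [AddCommGroup G] (pt : ℚ → ℚ → G), CG G pt →
  ∀ (Q R : G) (e₁ s₁ e₂ s₂ e₃ s₃ e₄ s₄ : ℤ) (u₁ d₁ w₁ u₂ d₂ w₂ u₃ d₃ w₃ u₄ d₄ w₄ : ℕ),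
    RepE pt Q e₁ s₁ u₁ d₁ w₁ → RepE pt R e₂ s₂ u₂ d₂ w₂ →
    RepE pt (Q + R) e₃ s₃ u₃ d₃ w₃ → RepE pt (Q - R) e₄ s₄ u₄ d₄ w₄ →
    (u₃ ^ 4 + 2 * d₃ ^ 4) * (u₄ ^ 4 + 2 * d₄ ^ 4) ≤
      13 * ((u₁ ^ 4 + 2 * d₁ ^ 4) * (u₂ ^ 4 + 2 * d₂ ^ 4)) ^ 2

/-- the sequences -/
structure Eds (U D W : ℕ → ℕ) : Prop where
  zero : U 0 = 1 ∧ D 0 = 0 ∧ W 0 = 1
  one : U 1 = 1 ∧ D 1 = 1 ∧ W 1 = 1
  code : ∀ k, 1 ≤ k → CS ((-1) ^ k) (U k) (D k) (W k)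
  surj : ∀ u d w, Code u d w → ∃ k, 1 ≤ k ∧ U k = u ∧ D k = d ∧ W k = w
  dblU : ∀ k, U (2 * k) = U k ^ 4 + 2 * D k ^ 4
  dblD : ∀ k, D (2 * k) = 2 * U k * D k * W k
  dblW : ∀ k, W (2 * k) =
    ((U k : ℤ) ^ 8 - 12 * (U k : ℤ) ^ 4 * (D k : ℤ) ^ 4 + 4 * (D k : ℤ) ^ 8).natAbs
  /-- the neighbours of `2k` are `(|W ± U D| : U² + D²)` in lowest terms -/
  nbr : ∀ k, 1 ≤ k →
    ((U (2 * k + 1) * (U (2 * k) ^ 2 + D (2 * k) ^ 2) =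
        D (2 * k + 1) * (W (2 * k) + U (2 * k) * D (2 * k)) ∧
      (U (2 * k - 1) : ℤ) * (U (2 * k) ^ 2 + D (2 * k) ^ 2) =
        D (2 * k - 1) * |(W (2 * k) : ℤ) - U (2 * k) * D (2 * k)|) ∨
     (U (2 * k - 1) * (U (2 * k) ^ 2 + D (2 * k) ^ 2) =
        D (2 * k - 1) * (W (2 * k) + U (2 * k) * D (2 * k)) ∧
      (U (2 * k + 1) : ℤ) * (U (2 * k) ^ 2 + D (2 * k) ^ 2) =
        D (2 * k + 1) * |(W (2 * k) : ℤ) - U (2 * k) * D (2 * k)|))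
  par : ∀ m n, n ≤ m → (U (m + n) ^ 4 + 2 * D (m + n) ^ 4) * (U (m - n) ^ 4 + 2 * D (m - n) ^ 4) ≤
    13 * ((U m ^ 4 + 2 * D m ^ 4) * (U n ^ 4 + 2 * D n ^ 4)) ^ 2

/-- EDS: assembly -/
def StEds : Prop := StCG → StRep → StDblR → StDesc → StClass → StPar →
  ∃ U D W : ℕ → ℕ, Eds U D W

/-- QUAD: `log (u_k⁴ + 2 d_k⁴) = κ k² + O(1)` -/
def StQuad : Prop := ∀ U D W : ℕ → ℕ, Eds U D W → ∃ κ : ℝ, Real.log 3 ≤ κ ∧ κ ≤ 2 ∧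
  ∀ k : ℕ, κ * (k : ℝ) ^ 2 - Real.log 5 / 3 ≤ Real.log ((U k : ℝ) ^ 4 + 2 * (D k : ℝ) ^ 4) ∧
    Real.log ((U k : ℝ) ^ 4 + 2 * (D k : ℝ) ^ 4) ≤ κ * (k : ℝ) ^ 2

/-! ## Pell numbers, `a = 2` -/

def px (m : ℕ) : ℕ := Pell.xn (a := 2) one_lt_two m
def py (m : ℕ) : ℕ := Pell.yn (a := 2) one_lt_two m

/-- `m` is the Pell index of `h` -/
def Idx (h m : ℕ) : Prop := py m ≤ h ∧ h < py (m + 1)

/-- READ: the nearest multiple of `e₁ - e₂` to `e` is `k (e₁ - e₂)` -/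
def StRead : Prop := StQuad → ∀ U D W : ℕ → ℕ, Eds U D W → ∀ k : ℕ, 1 ≤ k → ∀ e e₁ e₂ : ℕ,
  Idx (U (4 * k) ^ 4 + 2 * D (4 * k) ^ 4) e →
  Idx (U (4 * k + 1) ^ 4 + 2 * D (4 * k + 1) ^ 4) e₁ →
  Idx (U (4 * k - 1) ^ 4 + 2 * D (4 * k - 1) ^ 4) e₂ →
    e₂ < e₁ ∧ 2 * |(e : ℤ) - k * (e₁ - e₂)| < (e₁ : ℤ) - e₂ ∧ k + 1 < px (e₁ - e₂)

/-- PELL3 -/
structure Pell3 : Prop where
  sol : ∀ x y : ℕ, x ^ 2 = 3 * y ^ 2 + 1 → ∃ m, x = px m ∧ y = py m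
  eqn : ∀ m, px m ^ 2 = 3 * py m ^ 2 + 1
  succ : ∀ m, px (m + 1) = 2 * px m + 3 * py m ∧ py (m + 1) = px m + 2 * py m
  mono : StrictMono py
  monox : StrictMono px
  /-- code of `m - n`, `n ≤ m` -/
  sub : ∀ m n, n ≤ m → (px (m - n) : ℤ) = px m * px n - 3 * py m * py n ∧
    (py (m - n) : ℤ) = py m * px n - px m * py n
  dbl : ∀ m, py (2 * m) = 2 * px m * py m
  dvd : ∀ m n, py m ∣ py n ↔ m ∣ n
  idx : ∀ h, ∃ m, Idx h m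
  idxu : ∀ h m m', Idx h m → Idx h m' → m = m'
  /-- `y(mk)/y(m) ≡ k mod (x(m) - 1)` -/
  quot : ∀ m k, 1 ≤ m → py (m * k) / py m ≡ k [MOD (px m - 1)]

/-! ## Pell numbers, general base -/

/-- `y_a(n)` (zero if `a < 2`) -/
def yv (a n : ℕ) : ℕ := if h : 1 < a then Pell.yn h n else 0
def xv (a n : ℕ) : ℕ := if h : 1 < a then Pell.xn h n else 0

structure PellG : Prop where
  eqn : ∀ a n, 2 ≤ a → xv a n ^ 2 = (a ^ 2 - 1) * yv a n ^ 2 + 1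
  /-- isolation -/
  iso : ∀ a n x y, 2 ≤ a → n + 1 < a → x ^ 2 = (a ^ 2 - 1) * y ^ 2 + 1 → y ≡ n [MOD (a - 1)] →
    y < a ^ (n + a - 2) → x = xv a n ∧ y = yv a n
  cong : ∀ a n, 2 ≤ a → yv a n ≡ n [MOD (a - 1)]
  up : ∀ a n, 2 ≤ a → yv a n ≤ (2 * a) ^ n
  low : ∀ a n, 2 ≤ a → a ^ n ≤ yv a (n + 1)
  /-- reduction mod `z` -/
  red : ∀ a z n, 2 ≤ a → yv (a + z) n ≡ yv a n [MOD z]
  redx : ∀ a z n, 2 ≤ a → xv (a + z) n ≡ xv a n [MOD z]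
  /-- `b^n ≡ x_a(n) - (a - b) y_a(n) mod (2ab - b² - 1)` -/
  pow : ∀ a b n : ℕ, 2 ≤ a → b < a → (2 * (a : ℤ) * b - b ^ 2 - 1) ∣
    ((xv a n : ℤ) - ((a : ℤ) - b) * yv a n - (b : ℤ) ^ n)

/-! ## Binomials, bits, digits -/

/-- CHOOSE -/
def StChooseF : Prop := ∀ n k : ℕ, n.choose k = ((2 ^ n + 2) ^ n / (2 ^ n + 1) ^ k) % (2 ^ n + 1)

/-- no common bits iff the binomial is odd -/
def StOdd : Prop := ∀ x y : ℕ, (x + y).choose x % 2 = 1 ↔ x &&& y = 0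

def StLandChar : Prop := ∀ a b c : ℕ, c = a &&& b ↔
  c ≤ a ∧ c ≤ b ∧ c &&& (a - c) = 0 ∧ c &&& (b - c) = 0 ∧ (a - c) &&& (b - c) = 0

/-- digit code with base `2^B` and stride `K` -/
def cod (n B K : ℕ) (z : ℕ → ℕ) : ℕ := ∑ t ∈ Finset.range n, z t * 2 ^ (B * K * t)

/-- EXTR: extraction of the diagonal digits of a product -/
def StExtr : Prop := ∀ (n B K₁ K₂ : ℕ) (a c : ℕ → ℕ), 1 ≤ K₁ → n * K₁ ≤ K₂ →
  (∀ s < n, ∀ t < n, a s * c t < 2 ^ B) →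
  (cod n B K₁ a * cod n B K₂ c) &&& ((2 ^ B - 1) * cod n B (K₁ + K₂) (fun _ => 1)) =
    cod n B (K₁ + K₂) (fun t => a t * c t)

/-- DIG: validity of digit codes -/
def StDig : Prop := ∀ n B b W : ℕ, b ≤ B → 1 ≤ B →
  (W &&& ((2 ^ b - 1) * cod n B 1 (fun _ => 1)) = W ↔
    ∃ z : ℕ → ℕ, (∀ t < n, z t < 2 ^ b) ∧ W = cod n B 1 z)

/-- DIGU: uniqueness of digits (any stride `K ≥ 1`) -/
def StDigU : Prop := ∀ (n B K : ℕ) (z z' : ℕ → ℕ), 1 ≤ K → (∀ t < n, z t < 2 ^ B) →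
  (∀ t < n, z' t < 2 ^ B) → cod n B K z = cod n B K z' → ∀ t < n, z t = z' t

/-- DIGS: digit sum -/
def StDigS : Prop := ∀ (n B : ℕ) (z : ℕ → ℕ), ∑ t ∈ Finset.range n, z t < 2 ^ B - 1 →
  cod n B 1 z % (2 ^ B - 1) = ∑ t ∈ Finset.range n, z t

/-- GEOM: closed forms of `∑ x^t`, `∑ t x^t` -/
def StGeomF : Prop := ∀ x n : ℕ, 2 ≤ x →
  ∑ t ∈ Finset.range n, x ^ t = (x ^ n - 1) / (x - 1) ∧
  ∑ t ∈ Finset.range n, t * x ^ t =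
    (n * x ^ n - x * ((x ^ n - 1) / (x - 1))) / (x - 1)

/-! ## Single-fold sets -/

/-- single-fold Diophantine predicates on `ℕ^α` -/
def SF {α : Type} (R : (α → ℕ) → Prop) : Prop :=
  ∃ (k : ℕ) (p : (α ⊕ Fin k → ℕ) → ℤ), IsPoly p ∧ ∀ v : α → ℕ,
    (R v ↔ ∃ t : Fin k → ℕ, p (Sum.elim v t) = 0) ∧
    ∀ t t' : Fin k → ℕ, p (Sum.elim v t) = 0 → p (Sum.elim v t') = 0 → t = t'

/-- functions with single-fold graph -/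
def SFn {α : Type} (f : (α → ℕ) → ℕ) : Prop :=
  SF (fun v : Option α → ℕ => v none = f (fun a => v (some a)))

/-- F: a single-fold function of exponential growth -/
def StF : Prop := ∃ f : ℕ → ℕ, SFn (fun v : Fin 1 → ℕ => f (v 0)) ∧ (∀ n, 2 ^ n ≤ f n) ∧
  ∃ c : ℕ, ∀ n, f n ≤ 2 ^ (c * (n ^ 2 + 1))

/-- FD: the single-fold definition of `n ↦ u_n⁴ + 2 d_n⁴` -/
def StFd : Prop := (∃ U D W : ℕ → ℕ, Eds U D W) → StQuad → StRead → Pell3 → StF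

def StYn : Prop := StF → PellG → SFn (fun v : Fin 2 → ℕ => yv (v 0) (v 1)) ∧
  SFn (fun v : Fin 2 → ℕ => xv (v 0) (v 1))

def SPow : Prop := SFn (fun v : Fin 2 → ℕ => v 0 ^ v 1)
def SChoose : Prop := SFn (fun v : Fin 2 → ℕ => (v 0).choose (v 1))
def SLand : Prop := SFn (fun v : Fin 2 → ℕ => v 0 &&& v 1)
/-- geometric sums -/
def SGeom : Prop := SFn (fun v : Fin 2 → ℕ => ∑ t ∈ Finset.range (v 1), (v 0) ^ t) ∧
  SFn (fun v : Fin 2 → ℕ => ∑ t ∈ Finset.range (v 1), t * (v 0) ^ t)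

def StPow : Prop := StF → PellG → (SFn (fun v : Fin 2 → ℕ => yv (v 0) (v 1)) ∧
  SFn (fun v : Fin 2 → ℕ => xv (v 0) (v 1))) → SPow
def StChoose : Prop := StChooseF → SPow → SChoose
def StLand : Prop := StOdd → StLandChar → SChoose → SLand
def StGeom : Prop := StGeomF → SPow → SGeom

/-- bounded universal quantifier -/
def SBQ : Prop := ∀ (α : Type) (R : (Option α → ℕ) → Prop), SF R →
  SF (fun v : Option α → ℕ => ∀ t < v none, R (fun o => o.elim t (fun a => v (some a))))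

def StBQ : Prop := StExtr → StDig → StDigU → StDigS → SPow → SLand → SGeom → SBQ

/-- partial recursive functions have single-fold graphs -/
def SPart : Prop := ∀ (n : ℕ) (f : List.Vector ℕ n →. ℕ), Nat.Partrec' f →
  SF (fun v : Option (Fin n) → ℕ => v none ∈ f (List.Vector.ofFn fun i => v (some i)))

def StPart : Prop := SBQ → SPow → SPart

/-- final statement (S0500) -/
def StFin : Prop := SPart → ∀ (n : ℕ) (S : Set (Fin n → ℕ)), (REPred fun a => a ∈ S) →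
  ∃ m : ℕ, 1 ≤ m ∧ ∃ P : MvPolynomial (Fin n ⊕ Fin m) ℤ, ∀ a : Fin n → ℕ,
    (a ∈ S → ∃! w : Fin m → ℕ, MvPolynomial.eval
      (Sum.elim (fun i => (a i : ℤ)) (fun j => (w j : ℤ))) P = 0) ∧
    (a ∉ S → ∀ w : Fin m → ℕ, MvPolynomial.eval
      (Sum.elim (fun i => (a i : ℤ)) (fun j => (w j : ℤ))) P ≠ 0)

end Crest.Agent.R323
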