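import Crest.Agent.R323.Defs

set_option autoImplicit false

namespace Crest.Agent.R323

namespace EDS

/-- height is fine; square-roots of a cross relation -/
theorem cop_eq {u d u' d' : ℕ} (h : Nat.Coprime u d) (h' : Nat.Coprime u' d')
    (hd : 0 < d) (hd' : 0 < d') (e : u ^ 2 * d' ^ 2 = u' ^ 2 * d ^ 2) : u = u' ∧ d = d' := by
  have e1 : u * d' = u' * d := by
    have : (u * d') ^ 2 = (u' * d) ^ 2 := by
      rw [mul_pow, mul_pow]; exact e
    exact Nat.pow_left_injective (n := 2) (by norm_num) this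
  have h1 : d ∣ d' := by
    have : d ∣ u * d' := ⟨u', by rw [e1]; ring⟩
    exact (Nat.Coprime.dvd_of_dvd_mul_left h.symm this)
  have h2 : d' ∣ d := by
    have : d' ∣ u' * d := ⟨u, by rw [← e1]; ring⟩
    exact (Nat.Coprime.dvd_of_dvd_mul_left h'.symm this)
  have h3 : d = d' := Nat.dvd_antisymm h1 h2
  subst h3
  exact ⟨Nat.eq_of_mul_eq_mul_right hd e1, rfl⟩

theorem on_of {s e : ℤ} {u d w : ℕ} (h : CS s u d w) (he : e = 1 ∨ e = -1) :
    On ((s : ℚ) * (u : ℚ) ^ 2 / (d : ℚ) ^ 2) ((e : ℚ) * u * w / (d : ℚ) ^ 3) := by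
  have hd : (d : ℚ) ≠ 0 := by
    have := h.d0
    positivity
  have hw : (u : ℚ) ^ 4 - 2 * (d : ℚ) ^ 4 = s * (w : ℚ) ^ 2 := by exact_mod_cast h.eq
  have hs : (s : ℚ) ^ 2 = 1 := by
    rcases h.s1 with h | h <;> simp [h]
  have he2 : (e : ℚ) ^ 2 = 1 := by
    rcases he with h | h <;> simp [h]
  unfold On
  have h1 : ((e : ℚ) * u * w / (d : ℚ) ^ 3) ^ 2 = (e : ℚ) ^ 2 * u ^ 2 * w ^ 2 / d ^ 6 := by
    rw [div_pow]; ring
  have h2 : ((s : ℚ) * (u : ℚ) ^ 2 / (d : ℚ) ^ 2) ^ 3 - 2 * ((s : ℚ) * (u : ℚ) ^ 2 / (d : ℚ) ^ 2)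
      = s * u ^ 2 * (s ^ 2 * u ^ 4 - 2 * d ^ 4) / d ^ 6 := by
    field_simp
  rw [h1, h2, he2, hs]
  congr 1
  have : (s : ℚ) * u ^ 2 * (1 * u ^ 4 - 2 * d ^ 4) = s ^ 2 * u ^ 2 * w ^ 2 := by
    have : (1 * (u:ℚ) ^ 4 - 2 * d ^ 4) = s * w ^ 2 := by rw [one_mul]; exact hw
    rw [this]; ring
  rw [this, hs]

variable {G : Type} [AddCommGroup G] {pt : ℚ → ℚ → G}

theorem uniq (hG : CG G pt) {Q : G} {e s e' s' : ℤ} {u d w u' d' w' : ℕ}
    (h : RepE pt Q e s u d w) (h' : RepE pt Q e' s' u' d' w') :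
    e = e' ∧ s = s' ∧ u = u' ∧ d = d' ∧ w = w' := by
  obtain ⟨hc, he, hq⟩ := h
  obtain ⟨hc', he', hq'⟩ := h'
  obtain ⟨hx, hy⟩ := hG.inj _ _ _ _ (on_of hc he) (on_of hc' he') (hq.symm.trans hq')
  have hd := hc.d0
  have hd' := hc'.d0
  have hu := hc.u0
  have hu' := hc'.u0
  have hw := hc.w0
  have hw' := hc'.w0
  have hdq : (0 : ℚ) < d := by exact_mod_cast hd
  have hdq' : (0 : ℚ) < d' := by exact_mod_cast hd'
  have huq : (0 : ℚ) < u := by exact_mod_cast hu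
  have huq' : (0 : ℚ) < u' := by exact_mod_cast hu'
  have hss : s = s' := by
    have p1 : (0 : ℚ) < (u : ℚ) ^ 2 / (d : ℚ) ^ 2 := by positivity
    have p2 : (0 : ℚ) < (u' : ℚ) ^ 2 / (d' : ℚ) ^ 2 := by positivity
    rw [mul_div_assoc, mul_div_assoc] at hx
    rcases hc.s1 with h | h <;> rcases hc'.s1 with h' | h' <;> subst h <;> subst h'
    · rfl
    · exfalso; push_cast at hx; linarith
    · exfalso; push_cast at hx; linarith
    · rfl
  subst hss
  have hsne : (s : ℚ) ≠ 0 := by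
    rcases hc.s1 with h | h <;> simp [h]
  have hx2 : u ^ 2 * d' ^ 2 = u' ^ 2 * d ^ 2 := by
    rw [mul_div_assoc, mul_div_assoc] at hx
    have := mul_left_cancel₀ hsne hx
    rw [div_eq_div_iff (by positivity) (by positivity)] at this
    exact_mod_cast this
  obtain ⟨e1, e2⟩ := cop_eq hc.cop hc'.cop hd hd' hx2
  subst e1; subst e2
  have hww : w = w' := by
    have h1 := hc.eq
    have h2 := hc'.eq
    have : s * (w : ℤ) ^ 2 = s * (w' : ℤ) ^ 2 := by rw [← h1, ← h2]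
    have hs0 : s ≠ 0 := by exact_mod_cast hsne
    have := mul_left_cancel₀ hs0 this
    have h3 : w ^ 2 = w' ^ 2 := by exact_mod_cast this
    exact Nat.pow_left_injective (n := 2) (by norm_num) h3
  subst hww
  refine ⟨?_, rfl, rfl, rfl, rfl⟩
  have hwq : (0 : ℚ) < w := by exact_mod_cast hw
  have h3 : (e : ℚ) = e' := by
    have h4 : (e : ℚ) * (u * w / (d : ℚ) ^ 3) = e' * (u * w / (d : ℚ) ^ 3) := by
      rw [← mul_div_assoc, ← mul_div_assoc, ← mul_assoc, ← mul_assoc]; exact hy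
    have h5 : (u * w / (d : ℚ) ^ 3) ≠ 0 := by positivity
    exact mul_right_cancel₀ h5 h4
  exact_mod_cast h3

theorem rneg (hG : CG G pt) {Q : G} {e s : ℤ} {u d w : ℕ}
    (h : RepE pt Q e s u d w) : RepE pt (-Q) (-e) s u d w := by
  obtain ⟨hc, he, hq⟩ := h
  refine ⟨hc, ?_, ?_⟩
  · rcases he with h | h <;> simp [h]
  · rw [hq, hG.neg _ _ (on_of hc he)]
    congr 1
    push_cast
    ring

omit [AddCommGroup G] in
theorem repP : RepE pt (pt (-1) 1) 1 (-1) 1 1 1 := by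
  refine ⟨⟨Or.inr rfl, by norm_num, by norm_num, by norm_num, by norm_num, by norm_num⟩,
    Or.inl rfl, ?_⟩
  norm_num

/-- doubling points -/
theorem pow2 (hG : CG G pt) (hD : StDblR) (j : ℕ) :
    ∃ (e s : ℤ) (u d w : ℕ), RepE pt (2 ^ j • pt (-1) 1) e s u d w := by
  induction j with
  | zero => exact ⟨1, -1, 1, 1, 1, by simpa using repP⟩
  | succ j ih =>
    obtain ⟨e, s, u, d, w, h⟩ := ih
    obtain ⟨e', h'⟩ := hD G pt hG _ e s u d w h
    have h2 : 2 ^ (j + 1) • pt (-1) 1 = 2 ^ j • pt (-1) 1 + 2 ^ j • pt (-1) 1 := by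
      rw [pow_succ, mul_two, add_nsmul]
    rw [h2]
    exact ⟨e', 1, _, _, _, h'⟩

/-- infinite order -/
theorem infOrder (hG : CG G pt) (hD : StDblR) (n : ℕ) (hn : 1 ≤ n) :
    n • pt (-1) 1 ≠ (0 : G) := by
  intro h0
  choose e s u d w h using pow2 hG hD
  have hmono : StrictMono u := by
    apply strictMono_nat_of_lt_succ
    intro j
    obtain ⟨e', h'⟩ := hD G pt hG _ _ _ _ _ _ (h j)
    have h2 : RepE pt (2 ^ (j + 1) • pt (-1) 1) e' 1 (u j ^ 4 + 2 * d j ^ 4)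
        (2 * u j * d j * w j)
        ((u j : ℤ) ^ 8 - 12 * (u j : ℤ) ^ 4 * (d j : ℤ) ^ 4 + 4 * (d j : ℤ) ^ 8).natAbs := by
      rw [pow_succ, mul_two, add_nsmul]
      exact h'
    obtain ⟨-, -, h3, -, -⟩ := uniq hG (h (j + 1)) h2
    rw [h3]
    have hu := (h j).1.u0
    have hd := (h j).1.d0
    have h4 : u j ≤ u j ^ 4 := Nat.le_self_pow (by norm_num) _
    have h5 : 0 < d j ^ 4 := by positivity
    omega
  -- pigeonhole
  have hfin : ∀ j, 2 ^ j • pt (-1) 1 = (2 ^ j % n) • pt (-1) 1 := by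
    intro j
    conv_lhs => rw [← Nat.div_add_mod (2 ^ j) n]
    rw [add_nsmul, mul_comm, mul_nsmul', h0, nsmul_zero, zero_add]
  have : ¬ Function.Injective (fun j : ℕ => (⟨2 ^ j % n, Nat.mod_lt _ hn⟩ : Fin n)) :=
    not_injective_infinite_finite _
  apply this
  intro i j hij
  have hij' : 2 ^ i % n = 2 ^ j % n := by
    simpa using congrArg Fin.val hij
  have h6 : 2 ^ i • pt (-1) 1 = 2 ^ j • pt (-1) 1 := by
    rw [hfin i, hfin j, hij']
  have h7 := h j
  rw [← h6] at h7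
  obtain ⟨-, -, h8, -, -⟩ := uniq hG (h i) h7
  exact hmono.injective h8

/-- multiples -/
theorem mult (hG : CG G pt) (hR : StRep) (hD : StDblR) (k : ℕ) (hk : 1 ≤ k) :
    ∃ (e : ℤ) (u d w : ℕ), RepE pt (k • pt (-1) 1) e ((-1) ^ k) u d w := by
  induction k, hk using Nat.le_induction with
  | base => exact ⟨1, 1, 1, 1, by simpa using repP⟩
  | succ k hk ih =>
    obtain ⟨e, u, d, w, h⟩ := ih
    rcases Nat.lt_or_ge 1 k with h1 | h1
    · have hne : (d : ℤ) ^ 2 + (-1) ^ k * (u : ℤ) ^ 2 ≠ 0 := by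
        intro h0
        have hud : (d : ℤ) ^ 2 = (u : ℤ) ^ 2 ∧ ((-1 : ℤ)) ^ k = -1 := by
          rcases h.1.s1 with h2 | h2
          · exfalso
            rw [h2] at h0
            have := h.1.u0
            have : (0 : ℤ) < (u : ℤ) ^ 2 := by positivity
            nlinarith [sq_nonneg (d : ℤ)]
          · rw [h2] at h0
            exact ⟨by linarith, h2⟩
        have hud' : d ^ 2 = u ^ 2 := by exact_mod_cast hud.1
        have hud2 : d = u := Nat.pow_left_injective (n := 2) (by norm_num) hud'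
        have hc := h.1.cop
        rw [hud2, Nat.coprime_self] at hc
        have hd1 : d = 1 := by rw [hud2]; exact hc
        have hw1 : w = 1 := by
          have := h.1.eq
          rw [hc, hd1, hud.2] at this
          have h3 : (w : ℤ) ^ 2 = 1 ^ 2 := by push_cast at this; linarith
          have h4 : w ^ 2 = 1 ^ 2 := by exact_mod_cast h3
          exact Nat.pow_left_injective (n := 2) (by norm_num) h4
        rw [hc, hd1, hw1, hud.2] at h
        have hP := repP (pt := pt)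
        rcases h.2.1 with he | he
        · have hQ := h.2.2
          rw [he] at hQ
          have hPP := hP.2.2
          have : k • pt (-1) 1 = pt (-1) 1 := by rw [hQ]; exact hPP.symm
          have h5 : (k - 1) • pt (-1) 1 = (0 : G) := by
            have h6 : (k - 1) • pt (-1) 1 + pt (-1) 1 = pt (-1) 1 := by
              rw [← succ_nsmul]
              have : k - 1 + 1 = k := by omega
              rw [this]; assumption
            simpa using h6
          exact infOrder hG hD (k - 1) (by omega) h5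
        · have hQ := (rneg hG h).2.2
          rw [he] at hQ
          have hPP := hP.2.2
          have h7 : -(k • pt (-1) 1) = pt (-1) 1 := by
            rw [hQ]; norm_num
          have h5 : (k + 1) • pt (-1) 1 = (0 : G) := by
            rw [succ_nsmul]
            nth_rewrite 2 [← h7]
            simp
          exact infOrder hG hD (k + 1) (by omega) h5
      obtain ⟨e', u', d', w', h', -⟩ := hR G pt hG _ _ _ _ _ _ h hne
      refine ⟨e', u', d', w', ?_⟩
      rw [succ_nsmul, pow_succ]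
      have : (-1 : ℤ) ^ k * -1 = -((-1) ^ k) := by ring
      rw [this]
      exact h'
    · have hk1 : k = 1 := by omega
      subst hk1
      obtain ⟨e', h'⟩ := hD G pt hG _ _ _ _ _ _ (repP (pt := pt))
      have h2 : (1 + 1) • pt (-1) 1 = pt (-1) 1 + pt (-1) 1 := by
        rw [succ_nsmul, one_nsmul]
      have h3 : (-1 : ℤ) ^ (1 + 1) = 1 := by norm_num
      rw [h2, h3]
      exact ⟨e', _, _, _, h'⟩

theorem dblBound (u d w H : ℕ) (s : ℤ) (h : CS s u d w) (hH : H = u ^ 4 + 2 * d ^ 4) :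
    (u ^ 4 + 2 * d ^ 4) ^ 4 + 2 * (2 * u * d * w) ^ 4 ≤ 13 * (H * H) ^ 2 := by
  have h1 : w ^ 2 ≤ H := by
    have := h.eq
    have h2 : (w : ℤ) ^ 2 ≤ (u : ℤ) ^ 4 + 2 * (d : ℤ) ^ 4 := by
      rcases h.s1 with hs | hs <;> rw [hs] at this
      · nlinarith [sq_nonneg ((d : ℤ) ^ 2)]
      · nlinarith [sq_nonneg ((u : ℤ) ^ 2)]
    rw [hH]
    exact_mod_cast h2
  have h2 : 8 * (u ^ 4 * d ^ 4) ≤ H ^ 2 := by
    rw [hH]
    have : (8 * (u ^ 4 * d ^ 4) : ℤ) ≤ (u ^ 4 + 2 * d ^ 4) ^ 2 := by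
      nlinarith [sq_nonneg ((u : ℤ) ^ 4 - 2 * (d : ℤ) ^ 4)]
    exact_mod_cast this
  have h3 : w ^ 4 ≤ H ^ 2 := by
    calc w ^ 4 = (w ^ 2) ^ 2 := by ring
      _ ≤ H ^ 2 := Nat.pow_le_pow_left h1 2
  have h4 : (8 * (u ^ 4 * d ^ 4)) * w ^ 4 ≤ H ^ 2 * H ^ 2 := Nat.mul_le_mul h2 h3
  calc (u ^ 4 + 2 * d ^ 4) ^ 4 + 2 * (2 * u * d * w) ^ 4
      = H ^ 4 + 4 * ((8 * (u ^ 4 * d ^ 4)) * w ^ 4) := by rw [hH]; ring
    _ ≤ H ^ 4 + 4 * (H ^ 2 * H ^ 2) := by omega
    _ ≤ 13 * (H * H) ^ 2 := by nlinarith [Nat.zero_le (H ^ 4)]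

end EDS

open EDS in
theorem eds : StEds := by
  intro hCG hR hD hDesc hCl hPar
  obtain ⟨G, i, pt, hG⟩ := hCG
  have hm : ∀ k : ℕ, ∃ (e : ℤ) (u d w : ℕ), 1 ≤ k →
      RepE pt (k • pt (-1) 1) e ((-1) ^ k) u d w := by
    intro k
    rcases Nat.lt_or_ge k 1 with h | h
    · exact ⟨0, 0, 0, 0, fun h' => by omega⟩
    · obtain ⟨e, u, d, w, h'⟩ := mult hG hR hD k h
      exact ⟨e, u, d, w, fun _ => h'⟩
  choose E U' D' W' hE using hm
  let U : ℕ → ℕ := fun k => if k = 0 then 1 else U' k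
  let D : ℕ → ℕ := fun k => if k = 0 then 0 else D' k
  let W : ℕ → ℕ := fun k => if k = 0 then 1 else W' k
  have hU0 : U 0 = 1 := rfl
  have hD0 : D 0 = 0 := rfl
  have hW0 : W 0 = 1 := rfl
  have hrep : ∀ k, 1 ≤ k → RepE pt (k • pt (-1) 1) (E k) ((-1) ^ k) (U k) (D k) (W k) := by
    intro k hk
    have hk0 : k ≠ 0 := by omega
    simp only [U, D, W, hk0, if_false]
    exact hE k hk
  have hdbl : ∀ k, U (2 * k) = U k ^ 4 + 2 * D k ^ 4 ∧ D (2 * k) = 2 * U k * D k * W k ∧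
      W (2 * k) =
        ((U k : ℤ) ^ 8 - 12 * (U k : ℤ) ^ 4 * (D k : ℤ) ^ 4 + 4 * (D k : ℤ) ^ 8).natAbs := by
    intro k
    rcases Nat.eq_zero_or_pos k with h0 | h1
    · subst h0
      simp only [Nat.mul_zero, hU0, hD0, hW0]
      norm_num
    · obtain ⟨e', h'⟩ := hD G pt hG _ _ _ _ _ _ (hrep k h1)
      have h2 := hrep (2 * k) (by omega)
      rw [two_mul, add_nsmul, ← two_mul] at h2
      obtain ⟨-, -, h3, h4, h5⟩ := uniq hG h2 h'
      exact ⟨h3, h4, h5⟩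
  refine ⟨U, D, W, ?_⟩
  refine ⟨⟨hU0, hD0, hW0⟩, ?_, ?_, ?_, fun k => (hdbl k).1, fun k => (hdbl k).2.1,
    fun k => (hdbl k).2.2, ?_, ?_⟩
  · have h1 := hrep 1 le_rfl
    rw [one_nsmul] at h1
    obtain ⟨-, -, h3, h4, h5⟩ := uniq hG h1 repP
    exact ⟨h3, h4, h5⟩
  · intro k hk
    exact (hrep k hk).1
  · intro u d w hc
    have key : ∀ s, CS s u d w → ∃ k, 1 ≤ k ∧ U k = u ∧ D k = d ∧ W k = w := by
      intro s hs
      have hQ : RepE pt (pt ((s : ℚ) * (u : ℚ) ^ 2 / (d : ℚ) ^ 2)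
          (((1 : ℤ) : ℚ) * u * w / (d : ℚ) ^ 3)) 1 s u d w := ⟨hs, Or.inl rfl, rfl⟩
      obtain ⟨k, hk⟩ := hCl hR hD hDesc G pt hG _ _ _ _ _ _ hQ
      rcases lt_trichotomy k 0 with h | h | h
      · obtain ⟨n, hn⟩ := Int.eq_ofNat_of_zero_le (show 0 ≤ -k by omega)
        have h2 := rneg hG hQ
        rw [hk] at h2
        have hkn : k = -(n : ℤ) := by omega
        rw [hkn, neg_smul, neg_neg, natCast_zsmul] at h2
        have hn1 : 1 ≤ n := by omega
        obtain ⟨-, -, h3, h4, h5⟩ := uniq hG (hrep n hn1) h2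
        exact ⟨n, hn1, h3, h4, h5⟩
      · exfalso
        rw [h, zero_smul] at hk
        exact hG.ne0 _ _ (on_of hs (Or.inl rfl)) hk
      · obtain ⟨n, hn⟩ := Int.eq_ofNat_of_zero_le (show 0 ≤ k by omega)
        rw [hk, hn] at hQ
        rw [natCast_zsmul] at hQ
        have hn1 : 1 ≤ n := by omega
        obtain ⟨-, -, h3, h4, h5⟩ := uniq hG (hrep n hn1) hQ
        exact ⟨n, hn1, h3, h4, h5⟩
    rcases hc with hc | hc
    · exact key 1 hc
    · exact key (-1) hc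
  · -- nbr
    intro k hk
    have h2 := hrep (2 * k) (by omega)
    have hs : (-1 : ℤ) ^ (2 * k) = 1 := by rw [pow_mul]; norm_num
    rw [hs] at h2
    have hneg := rneg hG h2
    have hpos : (D (2 * k) : ℤ) ^ 2 + 1 * (U (2 * k) : ℤ) ^ 2 ≠ 0 := by
      have := h2.1.u0
      positivity
    obtain ⟨e1, u1, d1, w1, r1, q1⟩ := hR G pt hG _ _ _ _ _ _ h2 hpos
    obtain ⟨e2, u2, d2, w2, r2, q2⟩ := hR G pt hG _ _ _ _ _ _ hneg hpos
    rw [← succ_nsmul] at r1
    obtain ⟨-, -, a1, a2, a3⟩ := uniq hG (hrep (2 * k + 1) (by omega)) r1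
    have r2' := rneg hG r2
    have hsub : -(-((2 * k) • pt (-1) 1) + pt (-1) 1) = (2 * k - 1) • pt (-1) 1 := by
      have : (2 * k) • pt (-1) 1 = (2 * k - 1) • pt (-1) 1 + pt (-1) 1 := by
        rw [← succ_nsmul]
        congr 1
        omega
      rw [this]
      abel
    rw [hsub] at r2'
    obtain ⟨-, -, b1, b2, b3⟩ := uniq hG (hrep (2 * k - 1) (by omega)) r2'
    rw [← a1, ← a2] at q1
    rw [← b1, ← b2] at q2
    have habs : |(D (2 * k) : ℤ) ^ 2 + 1 * (U (2 * k) : ℤ) ^ 2| =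
        (U (2 * k) : ℤ) ^ 2 + (D (2 * k) : ℤ) ^ 2 := by
      rw [abs_of_nonneg (by positivity)]; ring
    rw [habs] at q1 q2
    have hp : |(W (2 * k) : ℤ) + U (2 * k) * D (2 * k)| = W (2 * k) + U (2 * k) * D (2 * k) :=
      abs_of_nonneg (by positivity)
    rcases h2.2.1 with he | he
    · left
      rw [he] at q1 q2
      have c1 : (W (2 * k) : ℤ) + 1 * 1 * U (2 * k) * D (2 * k) =
        (W (2 * k) : ℤ) + U (2 * k) * D (2 * k) := by ring
      have c2 : (W (2 * k) : ℤ) + 1 * -1 * U (2 * k) * D (2 * k) =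
        (W (2 * k) : ℤ) - U (2 * k) * D (2 * k) := by ring
      rw [c1, hp] at q1
      rw [c2] at q2
      exact ⟨by exact_mod_cast q1, q2⟩
    · right
      rw [he] at q1 q2
      have c1 : (W (2 * k) : ℤ) + 1 * -1 * U (2 * k) * D (2 * k) =
        (W (2 * k) : ℤ) - U (2 * k) * D (2 * k) := by ring
      have c2 : (W (2 * k) : ℤ) + 1 * -(-1) * U (2 * k) * D (2 * k) =
        (W (2 * k) : ℤ) + U (2 * k) * D (2 * k) := by ring
      rw [c1] at q1
      rw [c2, hp] at q2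
      exact ⟨by exact_mod_cast q2, q1⟩
  · -- par
    intro m n hnm
    rcases Nat.eq_zero_or_pos n with h0 | h1
    · subst h0
      simp only [Nat.add_zero, Nat.sub_zero, hU0, hD0]
      have : (U m ^ 4 + 2 * D m ^ 4) * (U m ^ 4 + 2 * D m ^ 4) ≤
        13 * ((U m ^ 4 + 2 * D m ^ 4) * (1 ^ 4 + 2 * 0 ^ 4)) ^ 2 := by
        have : (1 ^ 4 + 2 * 0 ^ 4 : ℕ) = 1 := by norm_num
        rw [this, mul_one]
        nlinarith [Nat.zero_le ((U m ^ 4 + 2 * D m ^ 4) ^ 2)]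
      exact this
    · rcases Nat.eq_or_lt_of_le hnm with h2 | h2
      · subst h2
        have := dblBound (U n) (D n) (W n) _ _ (hrep n h1).1 rfl
        rw [← two_mul, (hdbl n).1, (hdbl n).2.1, Nat.sub_self, hU0, hD0]
        norm_num
        exact this
      · have r3 : RepE pt (m • pt (-1) 1 + n • pt (-1) 1) (E (m + n)) ((-1) ^ (m + n))
            (U (m + n)) (D (m + n)) (W (m + n)) := by
          rw [← add_nsmul]; exact hrep (m + n) (by omega)
        have r4 : RepE pt (m • pt (-1) 1 - n • pt (-1) 1) (E (m - n)) ((-1) ^ (m - n))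
            (U (m - n)) (D (m - n)) (W (m - n)) := by
          have : m • pt (-1) 1 - n • pt (-1) 1 = (m - n) • pt (-1) 1 := by
            have : m • pt (-1) 1 = (m - n) • pt (-1) 1 + n • pt (-1) 1 := by
              rw [← add_nsmul]; congr 1; omega
            rw [this]; abel
          rw [this]; exact hrep (m - n) (by omega)
        exact hPar G pt hG _ _ _ _ _ _ _ _ _ _ _ _ _ _ _ _ _ _ _ _ _ _
          (hrep m (by omega)) (hrep n h1) r3 r4

end Crest.Agent.R323
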