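import Crest.Agent.R323.DIG

set_option autoImplicit false

namespace Crest.Agent.R323

namespace EXTR

open DIG

theorem sum_fiber {ι : Type} (P : Finset ι) (w : ι → ℕ) (pos : ι → ℕ) (B N : ℕ)
    (h : ∀ p ∈ P, pos p < N) :
    ∑ p ∈ P, w p * 2 ^ (B * pos p) = V B N (fun j => ∑ p ∈ P with pos p = j, w p) := by
  unfold V
  rw [← Finset.sum_fiberwise_of_maps_to (s := P) (t := Finset.range N) (g := pos)
    (fun p hp => Finset.mem_range.2 (h p hp))]
  refine Finset.sum_congr rfl fun j _ => ?_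
  rw [Finset.sum_mul]
  refine Finset.sum_congr rfl fun p hp => ?_
  rw [(Finset.mem_filter.1 hp).2]

theorem sum_unique {ι : Type} (P : Finset ι) (w : ι → ℕ) (pos : ι → ℕ)
    (hinj : ∀ p ∈ P, ∀ q ∈ P, pos p = pos q → p = q) (p : ι) (hp : p ∈ P) :
    ∑ q ∈ P with pos q = pos p, w q = w p := by
  classical
  have : P.filter (fun q => pos q = pos p) = {p} := by
    ext q
    simp only [Finset.mem_filter, Finset.mem_singleton]
    constructor
    · rintro ⟨h1, h2⟩; exact hinj q h1 p hp h2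
    · rintro rfl; exact ⟨hp, rfl⟩
  rw [this, Finset.sum_singleton]

theorem sum_none {ι : Type} (P : Finset ι) (w : ι → ℕ) (pos : ι → ℕ) (j : ℕ)
    (h : ∀ p ∈ P, pos p ≠ j) : ∑ q ∈ P with pos q = j, w q = 0 := by
  have : P.filter (fun q => pos q = j) = ∅ := by
    rw [Finset.filter_eq_empty_iff]
    intro q hq; exact h q hq
  rw [this, Finset.sum_empty]

theorem inj {n K₁ K₂ : ℕ} (hK : 1 ≤ K₁) (hn : n * K₁ ≤ K₂) {s t s' t' : ℕ} (hs : s < n)
    (hs' : s' < n) (h : K₁ * s + K₂ * t = K₁ * s' + K₂ * t') : s = s' ∧ t = t' := by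
  have h1 : K₁ * s + K₁ ≤ K₂ := by
    calc K₁ * s + K₁ = (s + 1) * K₁ := by ring
      _ ≤ n * K₁ := Nat.mul_le_mul_right _ hs
      _ ≤ K₂ := hn
  have h2 : K₁ * s' + K₁ ≤ K₂ := by
    calc K₁ * s' + K₁ = (s' + 1) * K₁ := by ring
      _ ≤ n * K₁ := Nat.mul_le_mul_right _ hs'
      _ ≤ K₂ := hn
  have h3 : t = t' := by
    rcases lt_trichotomy t t' with h3 | h3 | h3
    · exfalso
      have : K₂ * (t + 1) ≤ K₂ * t' := Nat.mul_le_mul_left _ h3
      have h4 : K₂ * (t + 1) = K₂ * t + K₂ := by ring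
      omega
    · exact h3
    · exfalso
      have : K₂ * (t' + 1) ≤ K₂ * t := Nat.mul_le_mul_left _ h3
      have h4 : K₂ * (t' + 1) = K₂ * t' + K₂ := by ring
      omega
  subst h3
  refine ⟨?_, rfl⟩
  have h4 : K₁ * s = K₁ * s' := by omega
  exact Nat.eq_of_mul_eq_mul_left hK h4

end EXTR

open DIG EXTR in
theorem extr : StExtr := by
  intro n B K₁ K₂ a c hK hn hac
  classical
  set P := Finset.range n ×ˢ Finset.range n with hP
  set N := (K₁ + K₂) * n with hN
  set pos : ℕ × ℕ → ℕ := fun p => K₁ * p.1 + K₂ * p.2 with hpos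
  set pos' : ℕ → ℕ := fun t => (K₁ + K₂) * t with hpos'
  have hposN : ∀ p ∈ P, pos p < N := by
    rintro ⟨s, t⟩ hp
    rw [hP, Finset.mem_product, Finset.mem_range, Finset.mem_range] at hp
    obtain ⟨h1, h2⟩ := hp
    simp only at h1 h2
    show K₁ * s + K₂ * t < (K₁ + K₂) * n
    have h3 : K₁ * s < K₁ * n := Nat.mul_lt_mul_of_pos_left h1 hK
    have h4 : K₂ * t ≤ K₂ * n := Nat.mul_le_mul_left _ h2.le
    rw [add_mul]; omega
  have hposN' : ∀ t ∈ Finset.range n, pos' t < N := by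
    intro t ht
    rw [Finset.mem_range] at ht
    exact Nat.mul_lt_mul_of_pos_left ht (by omega)
  have hinj : ∀ p ∈ P, ∀ q ∈ P, pos p = pos q → p = q := by
    rintro ⟨s, t⟩ hp ⟨s', t'⟩ hq h
    rw [hP, Finset.mem_product, Finset.mem_range, Finset.mem_range] at hp hq
    obtain ⟨h1, h2⟩ := inj hK hn hp.1 hq.1 h
    simp only at h1 h2
    rw [h1, h2]
  have hinj' : ∀ p ∈ Finset.range n, ∀ q ∈ Finset.range n, pos' p = pos' q → p = q := by
    intro p _ q _ h
    exact Nat.eq_of_mul_eq_mul_left (show 0 < K₁ + K₂ by omega) h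
  have e1 : cod n B K₁ a * cod n B K₂ c = V B N (fun j => ∑ p ∈ P with pos p = j, a p.1 * c p.2) := by
    rw [← sum_fiber P (fun p => a p.1 * c p.2) pos B N hposN]
    unfold cod
    rw [Finset.sum_mul_sum, hP, Finset.sum_product]
    refine Finset.sum_congr rfl fun s _ => Finset.sum_congr rfl fun t _ => ?_
    simp only [hpos]
    rw [mul_add, pow_add, ← mul_assoc B K₁ s, ← mul_assoc B K₂ t]
    ring
  have e2 : (2 ^ B - 1) * cod n B (K₁ + K₂) (fun _ => 1) =
      V B N (fun j => ∑ t ∈ Finset.range n with pos' t = j, (2 ^ B - 1)) := by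
    rw [← sum_fiber (Finset.range n) (fun _ => 2 ^ B - 1) pos' B N hposN']
    unfold cod
    rw [Finset.mul_sum]
    refine Finset.sum_congr rfl fun t _ => ?_
    simp only [hpos']
    rw [one_mul, mul_assoc B]
  have e3 : cod n B (K₁ + K₂) (fun t => a t * c t) =
      V B N (fun j => ∑ t ∈ Finset.range n with pos' t = j, a t * c t) := by
    rw [← sum_fiber (Finset.range n) (fun t => a t * c t) pos' B N hposN']
    unfold cod
    refine Finset.sum_congr rfl fun t _ => ?_
    simp only [hpos']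
    rw [mul_assoc B]
  have hB : 0 < 2 ^ B := by positivity
  have b1 : ∀ j < N, (fun j => ∑ p ∈ P with pos p = j, a p.1 * c p.2) j < 2 ^ B := by
    intro j _
    show ∑ p ∈ P with pos p = j, a p.1 * c p.2 < 2 ^ B
    by_cases h : ∃ p ∈ P, pos p = j
    · obtain ⟨p, hp, rfl⟩ := h
      rw [sum_unique P (fun p => a p.1 * c p.2) pos hinj p hp]
      rw [hP, Finset.mem_product, Finset.mem_range, Finset.mem_range] at hp
      exact hac _ hp.1 _ hp.2
    · push Not at h
      rw [sum_none P _ pos j h]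
      exact hB
  have b2 : ∀ j < N, (fun j => ∑ t ∈ Finset.range n with pos' t = j, (2 ^ B - 1)) j < 2 ^ B := by
    intro j _
    show ∑ t ∈ Finset.range n with pos' t = j, (2 ^ B - 1) < 2 ^ B
    by_cases h : ∃ p ∈ Finset.range n, pos' p = j
    · obtain ⟨p, hp, rfl⟩ := h
      rw [sum_unique _ (fun _ => 2 ^ B - 1) pos' hinj' p hp]
      omega
    · push Not at h
      rw [sum_none _ (fun _ => 2 ^ B - 1) pos' j h]
      exact hB
  rw [e1, e2, e3, V_land B _ _ N b1 b2]
  refine V_congr fun j hj => ?_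
  show (∑ p ∈ P with pos p = j, a p.1 * c p.2) &&& (∑ t ∈ Finset.range n with pos' t = j, (2 ^ B - 1))
    = ∑ t ∈ Finset.range n with pos' t = j, a t * c t
  by_cases h : ∃ p ∈ Finset.range n, pos' p = j
  · obtain ⟨t, ht, rfl⟩ := h
    have ht' : t < n := Finset.mem_range.1 ht
    rw [sum_unique _ (fun _ => 2 ^ B - 1) pos' hinj' t ht,
      sum_unique _ (fun t => a t * c t) pos' hinj' t ht]
    have h1 : pos' t = pos (t, t) := by simp only [hpos, hpos']; ring
    have h2 : (t, t) ∈ P := by rw [hP, Finset.mem_product]; exact ⟨ht, ht⟩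
    rw [h1, sum_unique P (fun p => a p.1 * c p.2) pos hinj (t, t) h2,
      Nat.and_two_pow_sub_one_eq_mod, Nat.mod_eq_of_lt (hac t ht' t ht')]
  · push Not at h
    rw [sum_none _ (fun _ => 2 ^ B - 1) pos' j h, sum_none _ (fun t => a t * c t) pos' j h]
    simp

end Crest.Agent.R323
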