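import Crest.Agent.R323.SFLib

set_option autoImplicit false

namespace Crest.Agent.R323

open Classical in
/-- the Pell index -/
noncomputable def ix (h : ℕ) : ℕ := if H : ∃ m, Idx h m then H.choose else 0

noncomputable def PX (h : ℕ) : ℕ := px (ix h)
noncomputable def PY (h : ℕ) : ℕ := py (ix h)

namespace FD

lemma ix_spec (P : Pell3) (h : ℕ) : Idx h (ix h) := by
  unfold ix
  rw [dif_pos (P.idx h)]
  exact (P.idx h).choose_spec

lemma ix_eq (P : Pell3) {h m : ℕ} (hm : Idx h m) : ix h = m :=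
  P.idxu h _ _ (ix_spec P h) hm

lemma px0 : px 0 = 1 := by simp [px]
lemma py0 : py 0 = 0 := by simp [py]

lemma px_pos (P : Pell3) (m : ℕ) : 1 ≤ px m := by
  have := P.monox.monotone (Nat.zero_le m)
  rwa [px0] at this

lemma sfn_PY (P : Pell3) : SFn (fun v : Fin 1 → ℕ => PY (v 0)) := by
  refine SFn.of_rel (R := fun (v : Fin 1 → ℕ) y => ∃ X, X ^ 2 = 3 * y ^ 2 + 1 ∧ y ≤ v 0 ∧ v 0 < X + 2 * y) ?_ ?_
  · refine SF.ex (R := fun (v : Option (Fin 1) → ℕ) X => X ^ 2 = 3 * (v none) ^ 2 + 1 ∧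
      v none ≤ v (some 0) ∧ v (some 0) < X + 2 * v none) ?_ ?_
    · refine SF.and (SF.eq ((SFn.proj _).npow 2) (((SFn.const 3).mul ((SFn.proj _).npow 2)).add
        (SFn.const 1))) (SF.and (SF.le (SFn.proj _) (SFn.proj _))
        (SF.lt (SFn.proj _) ((SFn.proj _).add ((SFn.const 2).mul (SFn.proj _)))))
    · rintro v y y' ⟨h, _⟩ ⟨h', _⟩
      have : y ^ 2 = y' ^ 2 := by rw [h, h']
      exact Nat.pow_left_injective (n := 2) (by norm_num) this
  · intro v y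
    constructor
    · rintro ⟨X, h1, h2, h3⟩
      obtain ⟨m, rfl, rfl⟩ := P.sol X y h1
      have : Idx (v 0) m := ⟨h2, by rw [(P.succ m).2]; exact h3⟩
      unfold PY
      rw [ix_eq P this]
    · rintro rfl
      refine ⟨px (ix (v 0)), P.eqn _, (ix_spec P (v 0)).1, ?_⟩
      have := (ix_spec P (v 0)).2
      rw [(P.succ _).2] at this
      exact this

lemma sfn_PX (P : Pell3) : SFn (fun v : Fin 1 → ℕ => PX (v 0)) := by
  refine SFn.of_rel (R := fun (v : Fin 1 → ℕ) y => y ^ 2 = 3 * (PY (v 0)) ^ 2 + 1) ?_ ?_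
  · refine SF.eq ((SFn.proj _).npow 2) (((SFn.const 3).mul (SFn.npow ?_ 2)).add (SFn.const 1))
    exact SFn.comp1 (F := PY) (sfn_PY P) (SFn.proj _)
  · intro v y
    have h := P.eqn (ix (v 0))
    constructor
    · intro h'
      have : y ^ 2 = px (ix (v 0)) ^ 2 := by rw [h, h']; rfl
      exact Nat.pow_left_injective (n := 2) (by norm_num) this
    · rintro rfl
      exact h

lemma PYc {α : Type} (P : Pell3) {f : (α → ℕ) → ℕ} (hf : SFn f) : SFn (fun v => PY (f v)) :=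
  SFn.comp1 (F := PY) (sfn_PY P) hf

lemma PXc {α : Type} (P : Pell3) {f : (α → ℕ) → ℕ} (hf : SFn f) : SFn (fun v => PX (f v)) :=
  SFn.comp1 (F := PX) (sfn_PX P) hf

/-! doubling -/
def qu (u d : ℕ) : ℕ := u ^ 4 + 2 * d ^ 4
def qd (u d w : ℕ) : ℕ := 2 * u * d * w
def qw (u d : ℕ) : ℕ := (((u ^ 8 + 4 * d ^ 8 : ℕ) : ℤ) - (12 * u ^ 4 * d ^ 4 : ℕ)).natAbs

def u4 (u d w : ℕ) : ℕ := qu (qu u d) (qd u d w)
def d4 (u d w : ℕ) : ℕ := qd (qu u d) (qd u d w) (qw u d)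
def w4 (u d w : ℕ) : ℕ := qw (qu u d) (qd u d w)

def bb (u d w : ℕ) : ℕ := u4 u d w ^ 2 + d4 u d w ^ 2
def sa (u d w : ℕ) : ℕ := w4 u d w + u4 u d w * d4 u d w
def sb (u d w : ℕ) : ℕ := ((w4 u d w : ℤ) - (u4 u d w * d4 u d w : ℕ)).natAbs

def Ua (u d w : ℕ) : ℕ := sa u d w / Nat.gcd (sa u d w) (bb u d w)
def Da (u d w : ℕ) : ℕ := bb u d w / Nat.gcd (sa u d w) (bb u d w)
def Ub (u d w : ℕ) : ℕ := sb u d w / Nat.gcd (sb u d w) (bb u d w)
def Db (u d w : ℕ) : ℕ := bb u d w / Nat.gcd (sb u d w) (bb u d w)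

def hh (u d w : ℕ) : ℕ := qu (u4 u d w) (d4 u d w)
def ha (u d w : ℕ) : ℕ := qu (Ua u d w) (Da u d w)
def hb (u d w : ℕ) : ℕ := qu (Ub u d w) (Db u d w)

noncomputable def X0 (u d w : ℕ) : ℕ := PX (ha u d w) * PX (hb u d w) - 3 * PY (ha u d w) * PY (hb u d w)
noncomputable def Y0 (u d w : ℕ) : ℕ :=
  (((PY (ha u d w) * PX (hb u d w) : ℕ) : ℤ) - (PX (ha u d w) * PY (hb u d w) : ℕ)).natAbs

section
variable {α : Type} {u d w : (α → ℕ) → ℕ}

lemma s_qu (hu : SFn u) (hd : SFn d) : SFn (fun v => qu (u v) (d v)) :=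
  (hu.npow 4).add ((SFn.const 2).mul (hd.npow 4))
lemma s_qd (hu : SFn u) (hd : SFn d) (hw : SFn w) : SFn (fun v => qd (u v) (d v) (w v)) :=
  (((SFn.const 2).mul hu).mul hd).mul hw
lemma s_qw (hu : SFn u) (hd : SFn d) : SFn (fun v => qw (u v) (d v)) :=
  SFn.dist ((hu.npow 8).add ((SFn.const 4).mul (hd.npow 8)))
    (((SFn.const 12).mul (hu.npow 4)).mul (hd.npow 4))
lemma s_u4 (hu : SFn u) (hd : SFn d) (hw : SFn w) : SFn (fun v => u4 (u v) (d v) (w v)) :=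
  s_qu (s_qu hu hd) (s_qd hu hd hw)
lemma s_d4 (hu : SFn u) (hd : SFn d) (hw : SFn w) : SFn (fun v => d4 (u v) (d v) (w v)) :=
  s_qd (s_qu hu hd) (s_qd hu hd hw) (s_qw hu hd)
lemma s_w4 (hu : SFn u) (hd : SFn d) (hw : SFn w) : SFn (fun v => w4 (u v) (d v) (w v)) :=
  s_qw (s_qu hu hd) (s_qd hu hd hw)
lemma s_bb (hu : SFn u) (hd : SFn d) (hw : SFn w) : SFn (fun v => bb (u v) (d v) (w v)) :=
  ((s_u4 hu hd hw).npow 2).add ((s_d4 hu hd hw).npow 2)
lemma s_sa (hu : SFn u) (hd : SFn d) (hw : SFn w) : SFn (fun v => sa (u v) (d v) (w v)) :=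
  (s_w4 hu hd hw).add ((s_u4 hu hd hw).mul (s_d4 hu hd hw))
lemma s_sb (hu : SFn u) (hd : SFn d) (hw : SFn w) : SFn (fun v => sb (u v) (d v) (w v)) :=
  SFn.dist (s_w4 hu hd hw) ((s_u4 hu hd hw).mul (s_d4 hu hd hw))
lemma s_Ua (hu : SFn u) (hd : SFn d) (hw : SFn w) : SFn (fun v => Ua (u v) (d v) (w v)) :=
  (s_sa hu hd hw).div ((s_sa hu hd hw).gcd (s_bb hu hd hw))
lemma s_Da (hu : SFn u) (hd : SFn d) (hw : SFn w) : SFn (fun v => Da (u v) (d v) (w v)) :=
  (s_bb hu hd hw).div ((s_sa hu hd hw).gcd (s_bb hu hd hw))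
lemma s_Ub (hu : SFn u) (hd : SFn d) (hw : SFn w) : SFn (fun v => Ub (u v) (d v) (w v)) :=
  (s_sb hu hd hw).div ((s_sb hu hd hw).gcd (s_bb hu hd hw))
lemma s_Db (hu : SFn u) (hd : SFn d) (hw : SFn w) : SFn (fun v => Db (u v) (d v) (w v)) :=
  (s_bb hu hd hw).div ((s_sb hu hd hw).gcd (s_bb hu hd hw))
lemma s_hh (hu : SFn u) (hd : SFn d) (hw : SFn w) : SFn (fun v => hh (u v) (d v) (w v)) :=
  s_qu (s_u4 hu hd hw) (s_d4 hu hd hw)
lemma s_ha (hu : SFn u) (hd : SFn d) (hw : SFn w) : SFn (fun v => ha (u v) (d v) (w v)) :=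
  s_qu (s_Ua hu hd hw) (s_Da hu hd hw)
lemma s_hb (hu : SFn u) (hd : SFn d) (hw : SFn w) : SFn (fun v => hb (u v) (d v) (w v)) :=
  s_qu (s_Ub hu hd hw) (s_Db hu hd hw)
lemma s_X0 (P : Pell3) (hu : SFn u) (hd : SFn d) (hw : SFn w) :
    SFn (fun v => X0 (u v) (d v) (w v)) :=
  ((PXc P (s_ha hu hd hw)).mul (PXc P (s_hb hu hd hw))).sub
    (((SFn.const 3).mul (PYc P (s_ha hu hd hw))).mul (PYc P (s_hb hu hd hw)))
lemma s_Y0 (P : Pell3) (hu : SFn u) (hd : SFn d) (hw : SFn w) :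
    SFn (fun v => Y0 (u v) (d v) (w v)) :=
  SFn.dist ((PYc P (s_ha hu hd hw)).mul (PXc P (s_hb hu hd hw)))
    ((PXc P (s_ha hu hd hw)).mul (PYc P (s_hb hu hd hw)))

/-- `Code` is single-fold -/
lemma s_code (hu : SFn u) (hd : SFn d) (hw : SFn w) : SF (fun v => Code (u v) (d v) (w v)) := by
  have h1 : SF (fun v => ((0 < u v ∧ 0 < d v) ∧ 0 < w v ∧ Nat.Coprime (u v) (d v)) ∧
      ((u v ^ 4 = 2 * d v ^ 4 + w v ^ 2) ∨ (u v ^ 4 + w v ^ 2 = 2 * d v ^ 4 ∧ 0 < w v))) := by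
    refine SF.and (SF.and (SF.and (SF.lt (SFn.const 0) hu) (SF.lt (SFn.const 0) hd))
      (SF.and (SF.lt (SFn.const 0) hw) (SF.coprime hu hd))) ?_
    refine SF.or (SF.eq (hu.npow 4) (((SFn.const 2).mul (hd.npow 4)).add (hw.npow 2)))
      (SF.and (SF.eq ((hu.npow 4).add (hw.npow 2)) ((SFn.const 2).mul (hd.npow 4)))
        (SF.lt (SFn.const 0) hw)) ?_
    rintro v h1 ⟨h2, h3⟩
    have : 0 < w v ^ 2 := by positivity
    omega
  refine h1.congr fun v => ?_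
  constructor
  · rintro ⟨⟨⟨a, b⟩, c, e⟩, h | ⟨h, _⟩⟩
    · left
      refine ⟨Or.inl rfl, a, b, c, e, ?_⟩
      have : ((u v ^ 4 : ℕ) : ℤ) = ((2 * d v ^ 4 + w v ^ 2 : ℕ) : ℤ) := by rw [h]
      push_cast at this
      linarith
    · right
      refine ⟨Or.inr rfl, a, b, c, e, ?_⟩
      have : ((u v ^ 4 + w v ^ 2 : ℕ) : ℤ) = ((2 * d v ^ 4 : ℕ) : ℤ) := by rw [h]
      push_cast at this
      linarith
  · rintro (h | h)
    · refine ⟨⟨⟨h.u0, h.d0⟩, h.w0, h.cop⟩, Or.inl ?_⟩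
      have := h.eq
      zify; linarith
    · refine ⟨⟨⟨h.u0, h.d0⟩, h.w0, h.cop⟩, Or.inr ⟨?_, h.w0⟩⟩
      have := h.eq
      zify; linarith
end

/-- the defining relation of `(n, u, d, w)` -/
def Rel (n u d w : ℕ) : Prop :=
  Code u d w ∧ ∃ Y', (∃ X', X' ^ 2 = 3 * Y' ^ 2 + 1 ∧
    2 * (X' * PX (hh u d w) - 3 * Y' * PY (hh u d w)) *
      (((Y' * PX (hh u d w) : ℕ) : ℤ) - (X' * PY (hh u d w) : ℕ)).natAbs < Y0 u d w) ∧
    Y0 u d w ∣ Y' ∧ n = (Y' / Y0 u d w) % (X0 u d w - 1)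

lemma low_terms {U D s b : ℕ} (hb : 0 < b) (hD : 0 < D) (hc : Nat.Coprime U D)
    (h : U * b = D * s) : s / Nat.gcd s b = U ∧ b / Nat.gcd s b = D := by
  -- `U ∣ s`, `D ∣ b`
  have h1 : D ∣ b := by
    have : D ∣ U * b := ⟨s, h⟩
    exact (Nat.Coprime.dvd_of_dvd_mul_left hc.symm this)
  obtain ⟨g, rfl⟩ := h1
  have hs : s = U * g := by
    have : D * (U * g) = D * s := by rw [← h]; ring
    exact (Nat.eq_of_mul_eq_mul_left hD this).symm
  have hg : 0 < g := Nat.pos_of_mul_pos_left hb |> fun h => h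
  have hgcd : Nat.gcd s (D * g) = g := by
    rw [hs, Nat.gcd_mul_right, hc.gcd_eq_one, one_mul]
  rw [hgcd, hs]
  exact ⟨Nat.mul_div_cancel _ hg, Nat.mul_div_cancel _ hg⟩


lemma subabs (P : Pell3) (m n : ℕ) :
    px m * px n - 3 * py m * py n = px ((m : ℤ) - n).natAbs ∧
    (((py m * px n : ℕ) : ℤ) - (px m * py n : ℕ)).natAbs = py ((m : ℤ) - n).natAbs := by
  rcases le_total n m with h | h
  · have e : ((m : ℤ) - n).natAbs = m - n := by omega
    obtain ⟨h1, h2⟩ := P.sub m n h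
    rw [e]
    constructor
    · have : px m * px n = px (m - n) + 3 * py m * py n := by
        zify; rw [h1]; ring
      rw [this]; exact Nat.add_sub_cancel _ _
    · push_cast
      rw [← h2]; exact Int.natAbs_natCast _
  · have e : ((m : ℤ) - n).natAbs = n - m := by omega
    obtain ⟨h1, h2⟩ := P.sub n m h
    rw [e]
    constructor
    · have : px m * px n = px (n - m) + 3 * py m * py n := by
        zify; rw [h1]; ring
      rw [this]; exact Nat.add_sub_cancel _ _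
    · push_cast
      have : (py m : ℤ) * px n - px m * py n = -(py (n - m) : ℤ) := by rw [h2]; ring
      rw [this, Int.natAbs_neg]; exact Int.natAbs_natCast _

lemma core (P : Pell3) {M k e : ℕ} (h1 : 2 * |(e : ℤ) - k * M| < M) {X' Y' : ℕ}
    (hX : X' ^ 2 = 3 * Y' ^ 2 + 1) :
    (2 * (X' * px e - 3 * Y' * py e) * (((Y' * px e : ℕ) : ℤ) - (X' * py e : ℕ)).natAbs < py M ∧
      py M ∣ Y') ↔ (X' = px (M * k) ∧ Y' = py (M * k)) := by
  obtain ⟨m, rfl, rfl⟩ := P.sol X' Y' hX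
  obtain ⟨a1, a2⟩ := subabs P m e
  rw [a1, a2, ← P.dbl, P.dvd, P.mono.lt_iff_lt]
  constructor
  · rintro ⟨h2, c, rfl⟩
    have h3 : 2 * |((M * c : ℕ) : ℤ) - e| < M := by
      have : |((M * c : ℕ) : ℤ) - e| = ((((M * c : ℕ) : ℤ) - e).natAbs : ℤ) := (Int.natCast_natAbs _).symm
      rw [this]; exact_mod_cast h2
    have h4 : |(M : ℤ) * ((c : ℤ) - k)| < M := by
      have e1 : (M : ℤ) * ((c : ℤ) - k) = (((M * c : ℕ) : ℤ) - e) + ((e : ℤ) - k * M) := by
        push_cast; ring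
      rw [e1]
      have := abs_add_le (((M * c : ℕ) : ℤ) - e) ((e : ℤ) - k * M)
      linarith
    have hM : (0 : ℤ) < M := by
      have := abs_nonneg ((e : ℤ) - k * M); linarith
    have h5 : c = k := by
      rw [abs_mul, abs_of_pos hM] at h4
      have h6 : |(c : ℤ) - k| < 1 := by
        by_contra h
        push Not at h
        nlinarith
      have := Int.abs_lt_one_iff.1 h6
      omega
    rw [h5]; exact ⟨rfl, rfl⟩
  · rintro ⟨h2, h3⟩
    have hm : m = M * k := P.mono.injective h3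
    rw [hm]
    refine ⟨?_, dvd_mul_right _ _⟩
    have : |((M * k : ℕ) : ℤ) - e| = ((((M * k : ℕ) : ℤ) - e).natAbs : ℤ) := (Int.natCast_natAbs _).symm
    have h4 : 2 * |((M * k : ℕ) : ℤ) - e| < M := by
      rw [abs_sub_comm]; push_cast; rw [mul_comm (M : ℤ) k]; exact h1
    rw [this] at h4
    exact_mod_cast h4

variable {U D W : ℕ → ℕ}

lemma qu_eq (hE : Eds U D W) (k : ℕ) : qu (U k) (D k) = U (2 * k) := (hE.dblU k).symm
lemma qd_eq (hE : Eds U D W) (k : ℕ) : qd (U k) (D k) (W k) = D (2 * k) := (hE.dblD k).symm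
lemma qw_eq (hE : Eds U D W) (k : ℕ) : qw (U k) (D k) = W (2 * k) := by
  rw [hE.dblW k]; unfold qw; congr 1; push_cast; ring

lemma u4_eq (hE : Eds U D W) (k : ℕ) : u4 (U k) (D k) (W k) = U (4 * k) := by
  unfold u4; rw [qu_eq hE, qd_eq hE, qu_eq hE]; congr 1; ring
lemma d4_eq (hE : Eds U D W) (k : ℕ) : d4 (U k) (D k) (W k) = D (4 * k) := by
  unfold d4; rw [qu_eq hE, qd_eq hE, qw_eq hE, qd_eq hE]; congr 1; ring
lemma w4_eq (hE : Eds U D W) (k : ℕ) : w4 (U k) (D k) (W k) = W (4 * k) := by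
  unfold w4; rw [qu_eq hE, qd_eq hE, qw_eq hE]; congr 1; ring

lemma data (hE : Eds U D W) (hq : StQuad) (hr : StRead) (P : Pell3) (k : ℕ) (hk : 1 ≤ k) :
    ∃ M : ℕ, X0 (U k) (D k) (W k) = px M ∧ Y0 (U k) (D k) (W k) = py M ∧
      2 * |(ix (hh (U k) (D k) (W k)) : ℤ) - k * M| < M ∧ k + 1 < px M := by
  set e₁ := ix (qu (U (4 * k + 1)) (D (4 * k + 1))) with he1
  set e₂ := ix (qu (U (4 * k - 1)) (D (4 * k - 1))) with he2
  have hhh : hh (U k) (D k) (W k) = qu (U (4 * k)) (D (4 * k)) := by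
    unfold hh; rw [u4_eq hE, d4_eq hE]
  obtain ⟨r1, r2, r3⟩ := hr hq U D W hE k hk (ix (qu (U (4 * k)) (D (4 * k)))) e₁ e₂
    (ix_spec P _) (ix_spec P _) (ix_spec P _)
  have hM : ((e₁ - e₂ : ℕ) : ℤ) = (e₁ : ℤ) - e₂ := by omega
  obtain ⟨s1, s2⟩ := P.sub e₁ e₂ r1.le
  have n1 : px e₁ * px e₂ - 3 * py e₁ * py e₂ = px (e₁ - e₂) := by
    have : px e₁ * px e₂ = px (e₁ - e₂) + 3 * py e₁ * py e₂ := by
      zify; rw [s1]; ring
    rw [this]; exact Nat.add_sub_cancel _ _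
  have n1' : px e₂ * px e₁ - 3 * py e₂ * py e₁ = px (e₁ - e₂) := by
    rw [← n1]; congr 1 <;> ring
  have n2 : (((py e₁ * px e₂ : ℕ) : ℤ) - (px e₁ * py e₂ : ℕ)).natAbs = py (e₁ - e₂) := by
    push_cast
    rw [← s2]; exact Int.natAbs_natCast _
  have n2' : (((py e₂ * px e₁ : ℕ) : ℤ) - (px e₂ * py e₁ : ℕ)).natAbs = py (e₁ - e₂) := by
    push_cast
    have : (py e₂ : ℤ) * px e₁ - px e₂ * py e₁ = -(py (e₁ - e₂) : ℤ) := by rw [s2]; ring
    rw [this, Int.natAbs_neg]; exact Int.natAbs_natCast _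
  have hb0 : 0 < U (4 * k) ^ 2 + D (4 * k) ^ 2 := by
    have := (hE.code (4 * k) (by omega)).u0
    positivity
  have hbb : bb (U k) (D k) (W k) = U (4 * k) ^ 2 + D (4 * k) ^ 2 := by
    unfold bb; rw [u4_eq hE, d4_eq hE]
  have hsa : sa (U k) (D k) (W k) = W (4 * k) + U (4 * k) * D (4 * k) := by
    unfold sa; rw [u4_eq hE, d4_eq hE, w4_eq hE]
  have hsb : (sb (U k) (D k) (W k) : ℤ) = |(W (4 * k) : ℤ) - U (4 * k) * D (4 * k)| := by
    unfold sb; rw [u4_eq hE, d4_eq hE, w4_eq hE]; push_cast; rfl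
  have c1 := hE.code (4 * k + 1) (by omega)
  have c2 := hE.code (4 * k - 1) (by omega)
  have e4 : 2 * (2 * k) = 4 * k := by ring
  refine ⟨e₁ - e₂, ?_, ?_, ?_, r3⟩
  · rcases hE.nbr (2 * k) (by omega) with ⟨g1, g2⟩ | ⟨g1, g2⟩
    · rw [e4] at g1 g2
      have g2' : U (4 * k - 1) * bb (U k) (D k) (W k) = D (4 * k - 1) * sb (U k) (D k) (W k) := by
        zify; rw [hbb, hsb]; push_cast; exact g2
      have g1' : U (4 * k + 1) * bb (U k) (D k) (W k) = D (4 * k + 1) * sa (U k) (D k) (W k) := by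
        rw [hbb, hsa]; exact g1
      obtain ⟨t1, t2⟩ := low_terms (by rw [hbb]; exact hb0) c1.d0 c1.cop g1'
      obtain ⟨t3, t4⟩ := low_terms (by rw [hbb]; exact hb0) c2.d0 c2.cop g2'
      unfold X0 ha hb Ua Da Ub Db
      rw [t1, t2, t3, t4]
      exact n1
    · rw [e4] at g1 g2
      have g2' : U (4 * k + 1) * bb (U k) (D k) (W k) = D (4 * k + 1) * sb (U k) (D k) (W k) := by
        zify; rw [hbb, hsb]; push_cast; exact g2
      have g1' : U (4 * k - 1) * bb (U k) (D k) (W k) = D (4 * k - 1) * sa (U k) (D k) (W k) := by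
        rw [hbb, hsa]; exact g1
      obtain ⟨t1, t2⟩ := low_terms (by rw [hbb]; exact hb0) c2.d0 c2.cop g1'
      obtain ⟨t3, t4⟩ := low_terms (by rw [hbb]; exact hb0) c1.d0 c1.cop g2'
      unfold X0 ha hb Ua Da Ub Db
      rw [t1, t2, t3, t4]
      exact n1'
  · rcases hE.nbr (2 * k) (by omega) with ⟨g1, g2⟩ | ⟨g1, g2⟩
    · rw [e4] at g1 g2
      have g2' : U (4 * k - 1) * bb (U k) (D k) (W k) = D (4 * k - 1) * sb (U k) (D k) (W k) := by
        zify; rw [hbb, hsb]; push_cast; exact g2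
      have g1' : U (4 * k + 1) * bb (U k) (D k) (W k) = D (4 * k + 1) * sa (U k) (D k) (W k) := by
        rw [hbb, hsa]; exact g1
      obtain ⟨t1, t2⟩ := low_terms (by rw [hbb]; exact hb0) c1.d0 c1.cop g1'
      obtain ⟨t3, t4⟩ := low_terms (by rw [hbb]; exact hb0) c2.d0 c2.cop g2'
      unfold Y0 ha hb Ua Da Ub Db
      rw [t1, t2, t3, t4]
      exact n2
    · rw [e4] at g1 g2
      have g2' : U (4 * k + 1) * bb (U k) (D k) (W k) = D (4 * k + 1) * sb (U k) (D k) (W k) := by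
        zify; rw [hbb, hsb]; push_cast; exact g2
      have g1' : U (4 * k - 1) * bb (U k) (D k) (W k) = D (4 * k - 1) * sa (U k) (D k) (W k) := by
        rw [hbb, hsa]; exact g1
      obtain ⟨t1, t2⟩ := low_terms (by rw [hbb]; exact hb0) c2.d0 c2.cop g1'
      obtain ⟨t3, t4⟩ := low_terms (by rw [hbb]; exact hb0) c1.d0 c1.cop g2'
      unfold Y0 ha hb Ua Da Ub Db
      rw [t1, t2, t3, t4]
      exact n2'
  · rw [hhh, hM]; exact r2

lemma rel_iff (hE : Eds U D W) (hq : StQuad) (hr : StRead) (P : Pell3) (n u d w : ℕ) :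
    Rel n u d w ↔ 1 ≤ n ∧ u = U n ∧ d = D n ∧ w = W n := by
  constructor
  · rintro ⟨hc, Y', ⟨X', h1, h2⟩, h3, h4⟩
    obtain ⟨k, hk, rfl, rfl, rfl⟩ := hE.surj u d w hc
    obtain ⟨M, m1, m2, m3, m4⟩ := data hE hq hr P k hk
    rw [m2] at h2 h3 h4
    rw [m1] at h4
    have hM : 1 ≤ M := by
      have := abs_nonneg ((ix (hh (U k) (D k) (W k)) : ℤ) - k * M)
      omega
    obtain ⟨a1, a2⟩ := (core P m3 h1).1 ⟨h2, h3⟩
    rw [a2] at h4
    have h5 := P.quot M k hM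
    have h6 : k % (px M - 1) = k := Nat.mod_eq_of_lt (by omega)
    have h7 : n = k := by
      rw [h4, h5, h6]
    subst h7
    exact ⟨hk, rfl, rfl, rfl⟩
  · rintro ⟨hk, rfl, rfl, rfl⟩
    obtain ⟨M, m1, m2, m3, m4⟩ := data hE hq hr P n hk
    have hM : 1 ≤ M := by
      have := abs_nonneg ((ix (hh (U n) (D n) (W n)) : ℤ) - n * M)
      omega
    obtain ⟨a1, a2⟩ := (core P m3 (P.eqn (M * n))).2 ⟨rfl, rfl⟩
    refine ⟨?_, py (M * n), ⟨px (M * n), P.eqn _, ?_⟩, ?_, ?_⟩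
    · have := hE.code n hk
      rcases Nat.even_or_odd n with hn | hn
      · left; rw [hn.neg_one_pow] at this; exact this
      · right; rw [hn.neg_one_pow] at this; exact this
    · rw [m2]; exact a1
    · rw [m2]; exact a2
    · rw [m2, m1]
      have h5 := P.quot M n hM
      have h6 : n % (px M - 1) = n := Nat.mod_eq_of_lt (by omega)
      have h7 : py (M * n) / py M % (px M - 1) = n := by
        rw [h5, h6]
      exact h7.symm

lemma uniqY (hE : Eds U D W) (hq : StQuad) (hr : StRead) (P : Pell3) {u d w : ℕ}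
    (hc : Code u d w) {Y' Y'' : ℕ}
    (h : (∃ X', X' ^ 2 = 3 * Y' ^ 2 + 1 ∧
    2 * (X' * PX (hh u d w) - 3 * Y' * PY (hh u d w)) *
      (((Y' * PX (hh u d w) : ℕ) : ℤ) - (X' * PY (hh u d w) : ℕ)).natAbs < Y0 u d w) ∧
    Y0 u d w ∣ Y')
    (h' : (∃ X', X' ^ 2 = 3 * Y'' ^ 2 + 1 ∧
    2 * (X' * PX (hh u d w) - 3 * Y'' * PY (hh u d w)) *
      (((Y'' * PX (hh u d w) : ℕ) : ℤ) - (X' * PY (hh u d w) : ℕ)).natAbs < Y0 u d w) ∧
    Y0 u d w ∣ Y'') : Y' = Y'' := by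
  obtain ⟨k, hk, rfl, rfl, rfl⟩ := hE.surj u d w hc
  obtain ⟨M, m1, m2, m3, m4⟩ := data hE hq hr P k hk
  rw [m2] at h h'
  obtain ⟨⟨X', h1, h2⟩, h3⟩ := h
  obtain ⟨⟨X'', h1', h2'⟩, h3'⟩ := h'
  have a := (core P m3 h1).1 ⟨h2, h3⟩
  have b := (core P m3 h1').1 ⟨h2', h3'⟩
  rw [a.2, b.2]

lemma s_rel (hE : Eds U D W) (hq : StQuad) (hr : StRead) (P : Pell3) {α : Type}
    {n u d w : (α → ℕ) → ℕ} (hn : SFn n) (hu : SFn u) (hd : SFn d) (hw : SFn w) :
    SF (fun v => Rel (n v) (u v) (d v) (w v)) := by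
  have h1 : SF (fun v => ∃ Y', Code (u v) (d v) (w v) ∧ (∃ X', X' ^ 2 = 3 * Y' ^ 2 + 1 ∧
      2 * (X' * PX (hh (u v) (d v) (w v)) - 3 * Y' * PY (hh (u v) (d v) (w v))) *
      (((Y' * PX (hh (u v) (d v) (w v)) : ℕ) : ℤ) - (X' * PY (hh (u v) (d v) (w v)) : ℕ)).natAbs
        < Y0 (u v) (d v) (w v)) ∧
      Y0 (u v) (d v) (w v) ∣ Y' ∧ n v = (Y' / Y0 (u v) (d v) (w v)) % (X0 (u v) (d v) (w v) - 1)) := by
    refine SF.ex (R := fun v Y' => Code (u v) (d v) (w v) ∧ (∃ X', X' ^ 2 = 3 * Y' ^ 2 + 1 ∧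
      2 * (X' * PX (hh (u v) (d v) (w v)) - 3 * Y' * PY (hh (u v) (d v) (w v))) *
      (((Y' * PX (hh (u v) (d v) (w v)) : ℕ) : ℤ) - (X' * PY (hh (u v) (d v) (w v)) : ℕ)).natAbs
        < Y0 (u v) (d v) (w v)) ∧
      Y0 (u v) (d v) (w v) ∣ Y' ∧ n v = (Y' / Y0 (u v) (d v) (w v)) % (X0 (u v) (d v) (w v) - 1)) ?_ ?_
    · have hu' : SFn (fun v : Option α → ℕ => u (fun a => v (some a))) := hu.reindex some
      have hd' : SFn (fun v : Option α → ℕ => d (fun a => v (some a))) := hd.reindex some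
      have hw' : SFn (fun v : Option α → ℕ => w (fun a => v (some a))) := hw.reindex some
      have hn' : SFn (fun v : Option α → ℕ => n (fun a => v (some a))) := hn.reindex some
      refine SF.and (s_code hu' hd' hw') (SF.and ?_ (SF.and ?_ ?_))
      · refine SF.ex (R := fun (v : Option α → ℕ) X' => X' ^ 2 = 3 * v none ^ 2 + 1 ∧
          2 * (X' * PX (hh (u (fun a => v (some a))) (d (fun a => v (some a))) (w (fun a => v (some a)))) -
            3 * v none * PY (hh (u (fun a => v (some a))) (d (fun a => v (some a))) (w (fun a => v (some a))))) *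
          (((v none * PX (hh (u (fun a => v (some a))) (d (fun a => v (some a))) (w (fun a => v (some a)))) : ℕ) : ℤ) -
            (X' * PY (hh (u (fun a => v (some a))) (d (fun a => v (some a))) (w (fun a => v (some a)))) : ℕ)).natAbs
            < Y0 (u (fun a => v (some a))) (d (fun a => v (some a))) (w (fun a => v (some a)))) ?_ ?_
        · have hu2 := hu'.reindex (some : Option α → Option (Option α))
          have hd2 := hd'.reindex (some : Option α → Option (Option α))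
          have hw2 := hw'.reindex (some : Option α → Option (Option α))
          refine SF.and (SF.eq ((SFn.proj _).npow 2) (((SFn.const 3).mul ((SFn.proj _).npow 2)).add
            (SFn.const 1))) ?_
          have hp := PXc P (s_hh hu2 hd2 hw2)
          have hy := PYc P (s_hh hu2 hd2 hw2)
          exact SF.lt (((SFn.const 2).mul (((SFn.proj _).mul hp).sub
            (((SFn.const 3).mul (SFn.proj _)).mul hy))).mul
            (SFn.dist ((SFn.proj _).mul hp) ((SFn.proj _).mul hy))) (s_Y0 P hu2 hd2 hw2)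
        · rintro v y y' ⟨h, _⟩ ⟨h', _⟩
          have : y ^ 2 = y' ^ 2 := by rw [h, h']
          exact Nat.pow_left_injective (n := 2) (by norm_num) this
      · exact SF.dvd (s_Y0 P hu' hd' hw') (SFn.proj _)
      · exact SF.eq hn' (((SFn.proj _).div (s_Y0 P hu' hd' hw')).mod ((s_X0 P hu' hd' hw').pred))
    · rintro v y y' ⟨h1, h2, h3, h4⟩ ⟨_, h2', h3', h4'⟩
      exact uniqY hE hq hr P h1 ⟨h2, h3⟩ ⟨h2', h3'⟩
  refine h1.congr fun v => ?_
  unfold Rel
  constructor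
  · rintro ⟨Y', h1, h2, h3, h4⟩; exact ⟨h1, Y', h2, h3, h4⟩
  · rintro ⟨h1, Y', h2, h3, h4⟩; exact ⟨Y', h1, h2, h3, h4⟩

end FD

open FD in
theorem fd : StFd := by
  rintro ⟨U, D, W, hE⟩ hq hr P
  refine ⟨fun n => 2 * (U n ^ 4 + 2 * D n ^ 4), ?_, ?_, ?_⟩
  · -- single-fold graph
    have h1 : SF (fun v : Option (Fin 1) → ℕ => ∃ t : Fin 3 → ℕ,
        Rel (v (some 0)) (t 0) (t 1) (t 2) ∧ v none = 2 * (t 0 ^ 4 + 2 * t 1 ^ 4)) := by
      refine SF.exN (R := fun (v : Option (Fin 1) → ℕ) (t : Fin 3 → ℕ) =>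
        Rel (v (some 0)) (t 0) (t 1) (t 2) ∧ v none = 2 * (t 0 ^ 4 + 2 * t 1 ^ 4)) ?_ ?_
      · refine SF.and (s_rel hE hq hr P (SFn.proj _) (SFn.proj _) (SFn.proj _) (SFn.proj _)) ?_
        exact SF.eq (SFn.proj _) ((SFn.const 2).mul (((SFn.proj _).npow 4).add
          ((SFn.const 2).mul ((SFn.proj _).npow 4))))
      · rintro v t t' ⟨h, _⟩ ⟨h', _⟩
        rw [rel_iff hE hq hr P] at h h'
        funext i
        fin_cases i
        · exact h.2.1.trans h'.2.1.symm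
        · exact h.2.2.1.trans h'.2.2.1.symm
        · exact h.2.2.2.trans h'.2.2.2.symm
    have h2 : SF (fun v : Option (Fin 1) → ℕ => v (some 0) = 0 ∧ v none = 2) :=
      SF.and (SF.eq (SFn.proj _) (SFn.const _)) (SF.eq (SFn.proj _) (SFn.const _))
    have h3 := SF.or h2 h1 (by
      rintro v ⟨h, _⟩ ⟨t, ht, _⟩
      rw [rel_iff hE hq hr P] at ht
      omega)
    refine h3.congr fun v => ?_
    show _ ↔ v none = 2 * (U (v (some 0)) ^ 4 + 2 * D (v (some 0)) ^ 4)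
    rcases Nat.eq_zero_or_pos (v (some 0)) with h | h
    · constructor
      · rintro (⟨_, h'⟩ | ⟨t, ht, _⟩)
        · rw [h', h, hE.zero.1, hE.zero.2.1]; norm_num
        · rw [rel_iff hE hq hr P] at ht
          omega
      · intro h'
        left
        refine ⟨h, ?_⟩
        rw [h', h, hE.zero.1, hE.zero.2.1]; norm_num
    · constructor
      · rintro (⟨h', _⟩ | ⟨t, ht, ht'⟩)
        · omega
        · rw [rel_iff hE hq hr P] at ht
          rw [ht', ht.2.1, ht.2.2.1]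
      · intro h'
        right
        refine ⟨![U (v (some 0)), D (v (some 0)), W (v (some 0))], ?_, ?_⟩
        · rw [rel_iff hE hq hr P]
          exact ⟨h, rfl, rfl, rfl⟩
        · exact h'
  · intro n
    obtain ⟨κ, k1, k2, k3⟩ := hq U D W hE
    have h1 := (k3 n).1
    set H : ℝ := (U n : ℝ) ^ 4 + 2 * (D n : ℝ) ^ 4 with hH
    have hHpos : 0 < H := by
      rcases Nat.eq_zero_or_pos n with h | h
      · rw [hH, h, hE.zero.1, hE.zero.2.1]; norm_num
      · have := (hE.code n h).u0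
        have : (0 : ℝ) < U n := by exact_mod_cast this
        positivity
    have hl3 : Real.log 2 ≤ Real.log 3 := Real.log_le_log (by norm_num) (by norm_num)
    have hl5 : Real.log 5 / 3 ≤ Real.log 2 := by
      have : Real.log 5 ≤ Real.log (2 ^ 3) := Real.log_le_log (by norm_num) (by norm_num)
      rw [Real.log_pow] at this
      push_cast at this; linarith
    have hl2 : 0 < Real.log 2 := Real.log_pos (by norm_num)
    have h2 : (n : ℝ) * Real.log 2 ≤ Real.log (2 * H) := by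
      rw [Real.log_mul (by norm_num) hHpos.ne']
      have hn : (n : ℝ) ≤ (n : ℝ) ^ 2 := by
        have : n ≤ n ^ 2 := Nat.le_self_pow (by norm_num) n
        exact_mod_cast this
      nlinarith
    have h3 : ((2 ^ n : ℕ) : ℝ) ≤ ((2 * (U n ^ 4 + 2 * D n ^ 4) : ℕ) : ℝ) := by
      push_cast
      rw [← Real.log_le_log_iff (by positivity) (by positivity), Real.log_pow]
      exact h2
    exact_mod_cast h3
  · obtain ⟨κ, k1, k2, k3⟩ := hq U D W hE
    refine ⟨3, fun n => ?_⟩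
    have h1 := (k3 n).2
    set H : ℝ := (U n : ℝ) ^ 4 + 2 * (D n : ℝ) ^ 4 with hH
    have hHpos : 0 < H := by
      rcases Nat.eq_zero_or_pos n with h | h
      · rw [hH, h, hE.zero.1, hE.zero.2.1]; norm_num
      · have := (hE.code n h).u0
        have : (0 : ℝ) < U n := by exact_mod_cast this
        positivity
    have hl2 : (2 : ℝ) ≤ 3 * Real.log 2 := by
      have := Real.log_two_gt_d9
      linarith
    have h3 : ((2 * (U n ^ 4 + 2 * D n ^ 4) : ℕ) : ℝ) ≤ ((2 ^ (3 * (n ^ 2 + 1)) : ℕ) : ℝ) := by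
      push_cast
      rw [← Real.log_le_log_iff (by positivity) (by positivity), Real.log_pow,
        Real.log_mul (by norm_num) hHpos.ne']
      push_cast
      have hn : (0 : ℝ) ≤ (n : ℝ) ^ 2 := by positivity
      nlinarith
    exact_mod_cast h3

end Crest.Agent.R323
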