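import Crest.Agent.R323.SFLib

set_option autoImplicit false

namespace Crest.Agent.R323

namespace FIN

open MvPolynomial

/-- polynomial functions come from polynomials -/
lemma exists_mv {α : Type} {p : (α → ℕ) → ℤ} (hp : IsPoly p) :
    ∃ P : MvPolynomial α ℤ, ∀ x : α → ℕ, MvPolynomial.eval (fun a => (x a : ℤ)) P = p x := by
  induction hp with
  | proj i => exact ⟨X i, fun x => by simp⟩
  | const n => exact ⟨C n, fun x => by simp⟩
  | sub _ _ h1 h2 =>
    obtain ⟨P, hP⟩ := h1
    obtain ⟨Q, hQ⟩ := h2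
    exact ⟨P - Q, fun x => by simp [hP, hQ]⟩
  | mul _ _ h1 h2 =>
    obtain ⟨P, hP⟩ := h1
    obtain ⟨Q, hQ⟩ := h2
    exact ⟨P * Q, fun x => by simp [hP, hQ]⟩

end FIN

open FIN MvPolynomial in
theorem fin : StFin := by
  intro hP n S hS
  -- the partial function on vectors
  have hg : Partrec (fun v : List.Vector ℕ n =>
      (Part.assert (v.get ∈ S) fun _ => Part.some 0 : Part ℕ)) := by
    have h1 : Partrec (fun v : List.Vector ℕ n =>
        (Part.assert (v.get ∈ S) fun _ => Part.some () : Part Unit)) :=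
      Partrec.comp (f := fun a : Fin n → ℕ => Part.assert (a ∈ S) fun _ => Part.some ()) hS
        (g := fun v : List.Vector ℕ n => v.get) (Primrec.vector_get'.to_comp)
    have h2 := h1.map (f := fun v : List.Vector ℕ n =>
        (Part.assert (v.get ∈ S) fun _ => Part.some () : Part Unit)) (g := fun _ _ => (0 : ℕ))
        ((Computable.const 0).to₂)
    refine h2.of_eq fun v => ?_
    apply Part.ext
    intro b
    simp only [Part.mem_map_iff, Part.mem_assert_iff, Part.mem_some_iff]
    constructor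
    · rintro ⟨_, ⟨h, _⟩, hb⟩; exact ⟨h, hb.symm⟩
    · rintro ⟨h, hb⟩; exact ⟨(), ⟨h, trivial⟩, hb.symm⟩
  have h1 := hP n _ (Nat.Partrec'.part_iff.mpr hg)
  have h2 : SF (fun v : Fin n → ℕ => v ∈ S) := by
    have h3 := SF.ex (R := fun (v : Fin n → ℕ) y => y ∈ (Part.assert
      ((List.Vector.ofFn v).get ∈ S) fun _ => Part.some 0 : Part ℕ)) h1
      (fun v y y' hy hy' => Part.mem_unique hy hy')
    refine h3.congr fun v => ?_
    simp only [Part.mem_assert_iff, Part.mem_some_iff]
    have h4 : (List.Vector.ofFn v).get = v := by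
      funext i; simp
    rw [h4]
    constructor
    · rintro ⟨_, h, _⟩; exact h
    · intro h; exact ⟨0, h, rfl⟩
  obtain ⟨k, p, hp, hv⟩ := h2
  obtain ⟨P, hPp⟩ := exists_mv hp
  refine ⟨k + 1, by omega, (rename (Sum.map id Fin.castSucc) P) ^ 2 + X (Sum.inr (Fin.last k)) ^ 2, ?_⟩
  intro a
  have key : ∀ w : Fin (k + 1) → ℕ, (MvPolynomial.eval
      (Sum.elim (fun i => (a i : ℤ)) (fun j => (w j : ℤ)))
      ((rename (Sum.map id Fin.castSucc) P) ^ 2 + X (Sum.inr (Fin.last k)) ^ 2) = 0) ↔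
      (p (Sum.elim a (fun j => w (Fin.castSucc j))) = 0 ∧ w (Fin.last k) = 0) := by
    intro w
    rw [map_add, map_pow, map_pow, eval_rename, eval_X]
    have e1 : (Sum.elim (fun i => (a i : ℤ)) (fun j => (w j : ℤ)) ∘ Sum.map id Fin.castSucc) =
        fun x => ((Sum.elim a (fun j => w (Fin.castSucc j)) x : ℕ) : ℤ) := by
      funext x
      rcases x with x | x <;> rfl
    rw [e1, hPp]
    simp only [Sum.elim_inr]
    constructor
    · intro h
      have h1 := sq_nonneg (p (Sum.elim a (fun j => w (Fin.castSucc j))))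
      have h2 := sq_nonneg ((w (Fin.last k) : ℕ) : ℤ)
      have e1 : p (Sum.elim a (fun j => w (Fin.castSucc j))) ^ 2 = 0 := by linarith
      have e2 : ((w (Fin.last k) : ℕ) : ℤ) ^ 2 = 0 := by linarith
      exact ⟨by simpa using e1, by simpa using e2⟩
    · rintro ⟨h1, h2⟩
      rw [h1, h2]; norm_num
  constructor
  · intro ha
    obtain ⟨t, ht⟩ := ((hv a).1).1 ha
    refine ⟨Fin.snoc (α := fun _ => ℕ) t 0, (key _).2 ⟨?_, by simp⟩, ?_⟩
    · have : (fun j => (Fin.snoc (α := fun _ => ℕ) t 0 : Fin (k + 1) → ℕ) (Fin.castSucc j)) = t := by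
        funext j; simp
      rw [this]; exact ht
    · intro w hw
      obtain ⟨h1, h2⟩ := (key w).1 hw
      have h3 := (hv a).2 _ _ ht h1
      funext j
      refine Fin.lastCases ?_ (fun i => ?_) j
      · rw [h2]; simp
      · rw [h3]; simp
  · intro ha w hw
    obtain ⟨h1, _⟩ := (key w).1 hw
    exact ha (((hv a).1).2 ⟨_, h1⟩)

end Crest.Agent.R323
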