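import Crest.Agent.R323.Defs

set_option autoImplicit false

namespace Crest.Agent.R323

theorem geomF : StGeomF := by
  intro x n hx
  have h1 : ∑ t ∈ Finset.range n, x ^ t = (x ^ n - 1) / (x - 1) := Nat.geomSum_eq hx n
  refine ⟨h1, ?_⟩
  have h2 : (x - 1) * ∑ t ∈ Finset.range n, x ^ t = x ^ n - 1 := by
    rw [h1]
    exact Nat.mul_div_cancel' (by simpa using Nat.sub_dvd_pow_sub_pow x 1 n)
  rw [← h1]
  have h3 : (∑ t ∈ Finset.range n, t * x ^ t) * (x - 1) + x * ∑ t ∈ Finset.range n, x ^ t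
      = n * x ^ n := by
    clear h1 h2
    obtain ⟨y, rfl⟩ : ∃ y, x = y + 1 := ⟨x - 1, by omega⟩
    simp only [Nat.add_sub_cancel]
    induction n with
    | zero => simp
    | succ n ih =>
      rw [Finset.sum_range_succ, Finset.sum_range_succ]
      rw [pow_succ]
      have : (∑ x ∈ Finset.range n, x * (y + 1) ^ x + n * (y + 1) ^ n) * y +
        (y + 1) * (∑ x ∈ Finset.range n, (y + 1) ^ x + (y + 1) ^ n) =
        ((∑ x ∈ Finset.range n, x * (y + 1) ^ x) * y + (y + 1) * ∑ x ∈ Finset.range n, (y + 1) ^ x)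
        + n * (y + 1) ^ n * y + (y + 1) * (y + 1) ^ n := by ring
      rw [this, ih]
      ring
  have h4 : n * x ^ n - x * ∑ t ∈ Finset.range n, x ^ t =
      (∑ t ∈ Finset.range n, t * x ^ t) * (x - 1) := by omega
  rw [h4, Nat.mul_div_cancel _ (by omega)]

end Crest.Agent.R323
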