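import Crest.Agent.R323.Defs

set_option autoImplicit false

namespace Crest.Agent.R323

namespace PAR

theorem on_rep (s e : ℤ) (u d w : ℕ) (h : CS s u d w) (he : e = 1 ∨ e = -1) :
    On ((s : ℚ) * (u : ℚ) ^ 2 / (d : ℚ) ^ 2) ((e : ℚ) * u * w / (d : ℚ) ^ 3) := by
  have hd : (d : ℚ) ≠ 0 := by exact_mod_cast h.d0.ne'
  have he2 : (e : ℚ) ^ 2 = 1 := by rcases he with rfl | rfl <;> norm_num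
  have hs2 : (s : ℚ) ^ 2 = 1 := by rcases h.s1 with hs | hs <;> rw [hs] <;> norm_num
  have heq : (u : ℚ) ^ 4 - 2 * (d : ℚ) ^ 4 = s * (w : ℚ) ^ 2 := by exact_mod_cast h.eq
  unfold On
  field_simp
  linear_combination (u : ℚ) ^ 2 * w ^ 2 * he2 - (u : ℚ) ^ 2 * s * heq
    - ((u : ℚ) ^ 6 * s + (u : ℚ) ^ 2 * w ^ 2) * hs2

/-- sum and product of the `x`-coordinates of `Q+R`, `Q-R` -/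
theorem sumprod {G : Type} [AddCommGroup G] (pt : ℚ → ℚ → G) (hG : CG G pt)
    (x₁ y₁ x₂ y₂ x₃ y₃ x₄ y₄ : ℚ) (h₁ : On x₁ y₁) (h₂ : On x₂ y₂) (h₃ : On x₃ y₃) (h₄ : On x₄ y₄)
    (e₃ : pt x₁ y₁ + pt x₂ y₂ = pt x₃ y₃) (e₄ : pt x₁ y₁ - pt x₂ y₂ = pt x₄ y₄) :
    x₁ - x₂ ≠ 0 ∧ (x₃ + x₄) * (x₁ - x₂) ^ 2 = 2 * (x₁ + x₂) * (x₁ * x₂ - 2) ∧
      (x₃ * x₄) * (x₁ - x₂) ^ 2 = (x₁ * x₂ + 2) ^ 2 := by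
  have hne : x₁ ≠ x₂ := by
    rintro rfl
    have hy : (y₁ - y₂) * (y₁ + y₂) = 0 := by
      unfold On at h₁ h₂
      linear_combination h₁ - h₂
    rcases mul_eq_zero.1 hy with h | h
    · have : y₁ = y₂ := by linarith
      subst this
      exact hG.ne0 x₄ y₄ h₄ (by rw [← e₄]; abel)
    · have : y₂ = -y₁ := by linarith
      subst this
      refine hG.ne0 x₃ y₃ h₃ ?_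
      rw [← e₃, ← hG.neg x₁ y₁ h₁]
      abel
  have hd : x₁ - x₂ ≠ 0 := sub_ne_zero.2 hne
  have h₂' : On x₂ (-y₂) := by
    unfold On at h₂ ⊢
    rw [neg_sq]
    exact h₂
  have a₃ := hG.add x₁ y₁ x₂ y₂ ((y₁ - y₂) / (x₁ - x₂)) h₁ h₂ hne (by field_simp)
  have a₄ := hG.add x₁ y₁ x₂ (-y₂) ((y₁ + y₂) / (x₁ - x₂)) h₁ h₂' hne (by field_simp; ring)
  rw [e₃] at a₃
  rw [← hG.neg x₂ y₂ h₂, ← sub_eq_add_neg, e₄] at a₄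
  -- the new points are on the curve
  have on3 : ∀ (x y x' y' : ℚ), On x y → On x' y' → x - x' ≠ 0 → ∀ l, l * (x - x') = y - y' →
      On (l ^ 2 - x - x') (l * (x - (l ^ 2 - x - x')) - y) := by
    intro x y x' y' h h' hx l hl
    unfold On at h h' ⊢
    -- y' = y - l (x - x')
    have hy' : y' = y - l * (x - x') := by linarith
    subst hy'
    -- (x - x') * (x^2 + x x' + x'^2 - 2) = y^2 - y'^2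
    have key : x ^ 2 + x * x' + x' ^ 2 - 2 = l * (2 * y - l * (x - x')) := by
      have : (x - x') * (x ^ 2 + x * x' + x' ^ 2 - 2 - l * (2 * y - l * (x - x'))) = 0 := by
        linear_combination h' - h
      rcases mul_eq_zero.1 this with h0 | h0
      · exact absurd h0 hx
      · linarith
    have : (l * (x - (l ^ 2 - x - x')) - y) ^ 2 -
        ((l ^ 2 - x - x') ^ 3 - 2 * (l ^ 2 - x - x')) = 0 := by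
      linear_combination h - (l ^ 2 - 2 * x - x') * key
    linarith
  obtain ⟨b₃, -⟩ := hG.inj _ _ _ _ h₃ (on3 _ _ _ _ h₁ h₂ hd _ (by field_simp)) a₃
  obtain ⟨b₄, -⟩ := hG.inj _ _ _ _ h₄ (on3 _ _ _ _ h₁ h₂' hd _ (by field_simp; ring)) a₄
  unfold On at h₁ h₂
  have c₃ : x₃ * (x₁ - x₂) ^ 2 = (y₁ - y₂) ^ 2 - (x₁ + x₂) * (x₁ - x₂) ^ 2 := by
    rw [b₃]; field_simp; ring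
  have c₄ : x₄ * (x₁ - x₂) ^ 2 = (y₁ + y₂) ^ 2 - (x₁ + x₂) * (x₁ - x₂) ^ 2 := by
    rw [b₄]; field_simp; ring
  refine ⟨hd, by linear_combination c₃ + c₄ + 2 * h₁ + 2 * h₂, ?_⟩
  have hsq : (x₁ - x₂) ^ 2 ≠ 0 := pow_ne_zero _ hd
  have : (x₁ - x₂) ^ 2 * ((x₃ * x₄) * (x₁ - x₂) ^ 2 - (x₁ * x₂ + 2) ^ 2) = 0 := by
    have e1 : (x₃ * (x₁ - x₂) ^ 2) * (x₄ * (x₁ - x₂) ^ 2) =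
      ((y₁ - y₂) ^ 2 - (x₁ + x₂) * (x₁ - x₂) ^ 2) * ((y₁ + y₂) ^ 2 - (x₁ + x₂) * (x₁ - x₂) ^ 2) := by
      rw [c₃, c₄]
    have e2 : ((y₁ - y₂) ^ 2 - (x₁ + x₂) * (x₁ - x₂) ^ 2) *
        ((y₁ + y₂) ^ 2 - (x₁ + x₂) * (x₁ - x₂) ^ 2) =
        (y₁ ^ 2 - y₂ ^ 2) ^ 2 - 2 * (y₁ ^ 2 + y₂ ^ 2) * (x₁ + x₂) * (x₁ - x₂) ^ 2 +
          (x₁ + x₂) ^ 2 * (x₁ - x₂) ^ 4 := by ring
    have e3 : (x₁ - x₂) ^ 2 * ((x₃ * x₄) * (x₁ - x₂) ^ 2) =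
        (x₃ * (x₁ - x₂) ^ 2) * (x₄ * (x₁ - x₂) ^ 2) := by ring
    rw [mul_sub, e3, e1, e2, h₁, h₂]
    ring
  rcases mul_eq_zero.1 this with h | h
  · exact absurd h hsq
  · linarith

theorem cop3 (u₃ d₃ u₄ d₄ : ℕ) (h₃ : Nat.Coprime u₃ d₃) (h₄ : Nat.Coprime u₄ d₄) :
    Nat.Coprime (Nat.gcd (u₃ ^ 2 * u₄ ^ 2) (u₃ ^ 2 * d₄ ^ 2 + u₄ ^ 2 * d₃ ^ 2))
      (d₃ ^ 2 * d₄ ^ 2) := by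
  rw [Nat.coprime_iff_gcd_eq_one]
  by_contra hne
  obtain ⟨p, hp, hpd⟩ := Nat.exists_prime_and_dvd hne
  have hB : p ∣ d₃ ^ 2 * d₄ ^ 2 := hpd.trans (Nat.gcd_dvd_right _ _)
  have hA : p ∣ u₃ ^ 2 * u₄ ^ 2 := (hpd.trans (Nat.gcd_dvd_left _ _)).trans (Nat.gcd_dvd_left _ _)
  have hC : p ∣ u₃ ^ 2 * d₄ ^ 2 + u₄ ^ 2 * d₃ ^ 2 :=
    (hpd.trans (Nat.gcd_dvd_left _ _)).trans (Nat.gcd_dvd_right _ _)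
  have n₃ : ¬ (p ∣ u₃ ∧ p ∣ d₃) := by
    rintro ⟨a, b⟩
    exact hp.one_lt.ne' (Nat.dvd_one.1 (h₃ ▸ Nat.dvd_gcd a b))
  have n₄ : ¬ (p ∣ u₄ ∧ p ∣ d₄) := by
    rintro ⟨a, b⟩
    exact hp.one_lt.ne' (Nat.dvd_one.1 (h₄ ▸ Nat.dvd_gcd a b))
  have hA' : p ∣ u₃ ∨ p ∣ u₄ := by
    rcases (Nat.Prime.dvd_mul hp).1 hA with h | h
    · exact Or.inl (hp.dvd_of_dvd_pow h)
    · exact Or.inr (hp.dvd_of_dvd_pow h)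
  have hB' : p ∣ d₃ ∨ p ∣ d₄ := by
    rcases (Nat.Prime.dvd_mul hp).1 hB with h | h
    · exact Or.inl (hp.dvd_of_dvd_pow h)
    · exact Or.inr (hp.dvd_of_dvd_pow h)
  rcases hA' with a | a
  · have hd4 : p ∣ d₄ := by
      rcases hB' with b | b
      · exact absurd ⟨a, b⟩ n₃
      · exact b
    have : p ∣ u₄ ^ 2 * d₃ ^ 2 :=
      (Nat.dvd_add_right (Dvd.dvd.mul_right (Dvd.dvd.pow a two_ne_zero) _)).1 hC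
    rcases (Nat.Prime.dvd_mul hp).1 this with h | h
    · exact n₄ ⟨hp.dvd_of_dvd_pow h, hd4⟩
    · exact n₃ ⟨a, hp.dvd_of_dvd_pow h⟩
  · have hd3 : p ∣ d₃ := by
      rcases hB' with b | b
      · exact b
      · exact absurd ⟨a, b⟩ n₄
    have : p ∣ u₃ ^ 2 * d₄ ^ 2 :=
      (Nat.dvd_add_left (Dvd.dvd.mul_right (Dvd.dvd.pow a two_ne_zero) _)).1 hC
    rcases (Nat.Prime.dvd_mul hp).1 this with h | h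
    · exact n₃ ⟨hp.dvd_of_dvd_pow h, hd3⟩
    · exact n₄ ⟨a, hp.dvd_of_dvd_pow h⟩

/-- lowest terms -/
theorem low (A B C M N S : ℕ) (hcop : Nat.Coprime (Nat.gcd A C) B) (hM : 0 < M) (hB : 0 < B)
    (h₁ : M * A = N * B) (h₂ : M * C = S * B) : A ≤ N ∧ B ≤ M ∧ C ≤ S := by
  have hdvd : B ∣ M := by
    have : B ∣ M * Nat.gcd A C := by
      rw [← Nat.gcd_mul_left]
      exact Nat.dvd_gcd (h₁ ▸ Dvd.intro_left _ rfl) (h₂ ▸ Dvd.intro_left _ rfl)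
    exact hcop.symm.dvd_of_dvd_mul_right this
  obtain ⟨k, rfl⟩ := hdvd
  have hk : 1 ≤ k := Nat.pos_of_ne_zero (by rintro rfl; simp at hM)
  have e₁ : N = k * A := by
    have : B * (k * A) = B * N := by linarith [h₁]
    exact (Nat.eq_of_mul_eq_mul_left hB this).symm
  have e₂ : S = k * C := by
    have : B * (k * C) = B * S := by linarith [h₂]
    exact (Nat.eq_of_mul_eq_mul_left hB this).symm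
  refine ⟨?_, ?_, ?_⟩
  · rw [e₁]; exact Nat.le_mul_of_pos_left _ hk
  · exact Nat.le_mul_of_pos_right _ hk
  · rw [e₂]; exact Nat.le_mul_of_pos_left _ hk

theorem bounds (s₁ s₂ u₁ d₁ u₂ d₂ : ℤ) (h₁ : s₁ ^ 2 = 1) (h₂ : s₂ ^ 2 = 1) :
    (s₁ * s₂ * u₁ ^ 2 * u₂ ^ 2 + 2 * d₁ ^ 2 * d₂ ^ 2) ^ 2 ≤
      (u₁ ^ 4 + 2 * d₁ ^ 4) * (u₂ ^ 4 + 2 * d₂ ^ 4) ∧
    (s₁ * s₂ * u₁ ^ 2 * u₂ ^ 2 - 2 * d₁ ^ 2 * d₂ ^ 2) ^ 2 ≤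
      (u₁ ^ 4 + 2 * d₁ ^ 4) * (u₂ ^ 4 + 2 * d₂ ^ 4) ∧
    (s₁ * u₁ ^ 2 * d₂ ^ 2 - s₂ * u₂ ^ 2 * d₁ ^ 2) ^ 2 ≤
      (u₁ ^ 4 + 2 * d₁ ^ 4) * (u₂ ^ 4 + 2 * d₂ ^ 4) ∧
    (s₁ * u₁ ^ 2 * d₂ ^ 2 + s₂ * u₂ ^ 2 * d₁ ^ 2) ^ 2 ≤
      (u₁ ^ 4 + 2 * d₁ ^ 4) * (u₂ ^ 4 + 2 * d₂ ^ 4) := by
  have h12 : (s₁ * s₂) ^ 2 = 1 := by rw [mul_pow, h₁, h₂, one_mul]
  refine ⟨?_, ?_, ?_, ?_⟩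
  · have : (u₁ ^ 4 + 2 * d₁ ^ 4) * (u₂ ^ 4 + 2 * d₂ ^ 4) -
        (s₁ * s₂ * u₁ ^ 2 * u₂ ^ 2 + 2 * d₁ ^ 2 * d₂ ^ 2) ^ 2 =
        2 * (u₁ ^ 2 * d₂ ^ 2 - s₁ * s₂ * d₁ ^ 2 * u₂ ^ 2) ^ 2 := by
      linear_combination (-(u₁ ^ 4 * u₂ ^ 4) - 2 * d₁ ^ 4 * u₂ ^ 4) * h12
    nlinarith [sq_nonneg (u₁ ^ 2 * d₂ ^ 2 - s₁ * s₂ * d₁ ^ 2 * u₂ ^ 2)]
  · have : (u₁ ^ 4 + 2 * d₁ ^ 4) * (u₂ ^ 4 + 2 * d₂ ^ 4) -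
        (s₁ * s₂ * u₁ ^ 2 * u₂ ^ 2 - 2 * d₁ ^ 2 * d₂ ^ 2) ^ 2 =
        2 * (u₁ ^ 2 * d₂ ^ 2 + s₁ * s₂ * d₁ ^ 2 * u₂ ^ 2) ^ 2 := by
      linear_combination (-(u₁ ^ 4 * u₂ ^ 4) - 2 * d₁ ^ 4 * u₂ ^ 4) * h12
    nlinarith [sq_nonneg (u₁ ^ 2 * d₂ ^ 2 + s₁ * s₂ * d₁ ^ 2 * u₂ ^ 2)]
  · have : (u₁ ^ 4 + 2 * d₁ ^ 4) * (u₂ ^ 4 + 2 * d₂ ^ 4) -
        (s₁ * u₁ ^ 2 * d₂ ^ 2 - s₂ * u₂ ^ 2 * d₁ ^ 2) ^ 2 =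
        (s₁ * u₁ ^ 2 * d₂ ^ 2 + s₂ * u₂ ^ 2 * d₁ ^ 2) ^ 2 + u₁ ^ 4 * u₂ ^ 4 +
          4 * (d₁ ^ 4 * d₂ ^ 4) := by
      linear_combination (-(2 * u₁ ^ 4 * d₂ ^ 4)) * h₁ - (2 * d₁ ^ 4 * u₂ ^ 4) * h₂
    have p1 : (0 : ℤ) ≤ u₁ ^ 4 * u₂ ^ 4 := by positivity
    have p2 : (0 : ℤ) ≤ d₁ ^ 4 * d₂ ^ 4 := by positivity
    nlinarith [sq_nonneg (s₁ * u₁ ^ 2 * d₂ ^ 2 + s₂ * u₂ ^ 2 * d₁ ^ 2)]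
  · have : (u₁ ^ 4 + 2 * d₁ ^ 4) * (u₂ ^ 4 + 2 * d₂ ^ 4) -
        (s₁ * u₁ ^ 2 * d₂ ^ 2 + s₂ * u₂ ^ 2 * d₁ ^ 2) ^ 2 =
        (s₁ * u₁ ^ 2 * d₂ ^ 2 - s₂ * u₂ ^ 2 * d₁ ^ 2) ^ 2 + u₁ ^ 4 * u₂ ^ 4 +
          4 * (d₁ ^ 4 * d₂ ^ 4) := by
      linear_combination (-(2 * u₁ ^ 4 * d₂ ^ 4)) * h₁ - (2 * d₁ ^ 4 * u₂ ^ 4) * h₂
    have p1 : (0 : ℤ) ≤ u₁ ^ 4 * u₂ ^ 4 := by positivity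
    have p2 : (0 : ℤ) ≤ d₁ ^ 4 * d₂ ^ 4 := by positivity
    nlinarith [sq_nonneg (s₁ * u₁ ^ 2 * d₂ ^ 2 - s₂ * u₂ ^ 2 * d₁ ^ 2)]

end PAR

open PAR in
theorem par : StPar := by
  intro G _ pt hG Q R e₁ s₁ e₂ s₂ e₃ s₃ e₄ s₄ u₁ d₁ w₁ u₂ d₂ w₂ u₃ d₃ w₃ u₄ d₄ w₄
    ⟨c₁, he₁, q₁⟩ ⟨c₂, he₂, q₂⟩ ⟨c₃, he₃, q₃⟩ ⟨c₄, he₄, q₄⟩
  have o₁ := on_rep s₁ e₁ u₁ d₁ w₁ c₁ he₁
  have o₂ := on_rep s₂ e₂ u₂ d₂ w₂ c₂ he₂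
  have o₃ := on_rep s₃ e₃ u₃ d₃ w₃ c₃ he₃
  have o₄ := on_rep s₄ e₄ u₄ d₄ w₄ c₄ he₄
  rw [q₁, q₂] at q₃ q₄
  obtain ⟨hd, hsum, hprod⟩ := sumprod pt hG _ _ _ _ _ _ _ _ o₁ o₂ o₃ o₄ q₃ q₄
  have z₁ : (d₁ : ℚ) ≠ 0 := by exact_mod_cast c₁.d0.ne'
  have z₂ : (d₂ : ℚ) ≠ 0 := by exact_mod_cast c₂.d0.ne'
  have z₃ : (d₃ : ℚ) ≠ 0 := by exact_mod_cast c₃.d0.ne'
  have z₄ : (d₄ : ℚ) ≠ 0 := by exact_mod_cast c₄.d0.ne'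
  have sq1 : ∀ s : ℤ, s = 1 ∨ s = -1 → s ^ 2 = 1 := by
    rintro s (rfl | rfl) <;> norm_num
  set M : ℤ := s₁ * (u₁ : ℤ) ^ 2 * (d₂ : ℤ) ^ 2 - s₂ * (u₂ : ℤ) ^ 2 * (d₁ : ℤ) ^ 2 with hM
  set P : ℤ := s₁ * (u₁ : ℤ) ^ 2 * (d₂ : ℤ) ^ 2 + s₂ * (u₂ : ℤ) ^ 2 * (d₁ : ℤ) ^ 2 with hP
  set N : ℤ := s₁ * s₂ * (u₁ : ℤ) ^ 2 * (u₂ : ℤ) ^ 2 + 2 * (d₁ : ℤ) ^ 2 * (d₂ : ℤ) ^ 2 with hN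
  set T : ℤ := s₁ * s₂ * (u₁ : ℤ) ^ 2 * (u₂ : ℤ) ^ 2 - 2 * (d₁ : ℤ) ^ 2 * (d₂ : ℤ) ^ 2 with hT
  have hMq : (s₁ : ℚ) * (u₁ : ℚ) ^ 2 / (d₁ : ℚ) ^ 2 - (s₂ : ℚ) * (u₂ : ℚ) ^ 2 / (d₂ : ℚ) ^ 2 =
      (M : ℚ) / ((d₁ : ℚ) ^ 2 * (d₂ : ℚ) ^ 2) := by
    rw [hM]; push_cast; field_simp
  have hPq : (s₁ : ℚ) * (u₁ : ℚ) ^ 2 / (d₁ : ℚ) ^ 2 + (s₂ : ℚ) * (u₂ : ℚ) ^ 2 / (d₂ : ℚ) ^ 2 =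
      (P : ℚ) / ((d₁ : ℚ) ^ 2 * (d₂ : ℚ) ^ 2) := by
    rw [hP]; push_cast; field_simp
  have hNq : (s₁ : ℚ) * (u₁ : ℚ) ^ 2 / (d₁ : ℚ) ^ 2 * ((s₂ : ℚ) * (u₂ : ℚ) ^ 2 / (d₂ : ℚ) ^ 2) + 2 =
      (N : ℚ) / ((d₁ : ℚ) ^ 2 * (d₂ : ℚ) ^ 2) := by
    rw [hN]; push_cast; field_simp
  have hTq : (s₁ : ℚ) * (u₁ : ℚ) ^ 2 / (d₁ : ℚ) ^ 2 * ((s₂ : ℚ) * (u₂ : ℚ) ^ 2 / (d₂ : ℚ) ^ 2) - 2 =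
      (T : ℚ) / ((d₁ : ℚ) ^ 2 * (d₂ : ℚ) ^ 2) := by
    rw [hT]; push_cast; field_simp
  have hM0 : M ≠ 0 := by
    intro h0
    apply hd
    rw [hMq, h0]
    simp
  rw [hMq] at hsum hprod
  rw [mul_assoc, hPq, hTq] at hsum
  rw [hNq] at hprod
  -- integer identities
  have i₁ : (M : ℚ) ^ 2 * (s₃ * s₄ * (u₃ : ℚ) ^ 2 * (u₄ : ℚ) ^ 2) =
      (N : ℚ) ^ 2 * ((d₃ : ℚ) ^ 2 * (d₄ : ℚ) ^ 2) := by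
    field_simp at hprod
    linear_combination hprod
  have i₂ : (M : ℚ) ^ 2 * (s₃ * (u₃ : ℚ) ^ 2 * (d₄ : ℚ) ^ 2 + s₄ * (u₄ : ℚ) ^ 2 * (d₃ : ℚ) ^ 2) =
      2 * P * T * ((d₃ : ℚ) ^ 2 * (d₄ : ℚ) ^ 2) := by
    field_simp at hsum
    linear_combination hsum
  have j₁ : M ^ 2 * (s₃ * s₄ * (u₃ : ℤ) ^ 2 * (u₄ : ℤ) ^ 2) =
      N ^ 2 * ((d₃ : ℤ) ^ 2 * (d₄ : ℤ) ^ 2) := by exact_mod_cast i₁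
  have j₂ : M ^ 2 * (s₃ * (u₃ : ℤ) ^ 2 * (d₄ : ℤ) ^ 2 + s₄ * (u₄ : ℤ) ^ 2 * (d₃ : ℤ) ^ 2) =
      2 * P * T * ((d₃ : ℤ) ^ 2 * (d₄ : ℤ) ^ 2) := by exact_mod_cast i₂
  have M2 : 0 < M ^ 2 := by positivity
  have pu₃ : 0 < (u₃ : ℤ) ^ 2 := by have := c₃.u0; positivity
  have pu₄ : 0 < (u₄ : ℤ) ^ 2 := by have := c₄.u0; positivity
  have pd₃ : 0 < (d₃ : ℤ) ^ 2 := by have := c₃.d0; positivity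
  have pd₄ : 0 < (d₄ : ℤ) ^ 2 := by have := c₄.d0; positivity
  have hs : s₃ * s₄ = 1 := by
    have hcase : s₃ * s₄ = 1 ∨ s₃ * s₄ = -1 := by
      rcases c₃.s1 with h | h <;> rcases c₄.s1 with h' | h' <;> rw [h, h'] <;> norm_num
    rcases hcase with h | h
    · exact h
    · exfalso
      rw [h] at j₁
      have a : 0 < M ^ 2 * ((u₃ : ℤ) ^ 2 * (u₄ : ℤ) ^ 2) := by positivity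
      have b : 0 ≤ N ^ 2 * ((d₃ : ℤ) ^ 2 * (d₄ : ℤ) ^ 2) := by positivity
      nlinarith
  have hs43 : s₄ = s₃ := by
    rcases c₃.s1 with h | h <;> rcases c₄.s1 with h' | h' <;> rw [h, h'] at hs ⊢ <;>
      norm_num at hs
  -- natural-number identities
  have k₁ : M.natAbs ^ 2 * (u₃ ^ 2 * u₄ ^ 2) = N.natAbs ^ 2 * (d₃ ^ 2 * d₄ ^ 2) := by
    zify
    rw [sq_abs, sq_abs]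
    rw [hs] at j₁
    linarith [j₁]
  have k₂ : M.natAbs ^ 2 * (u₃ ^ 2 * d₄ ^ 2 + u₄ ^ 2 * d₃ ^ 2) =
      (2 * P * T).natAbs * (d₃ ^ 2 * d₄ ^ 2) := by
    have h := congrArg Int.natAbs j₂
    rw [hs43, show s₃ * (u₃ : ℤ) ^ 2 * (d₄ : ℤ) ^ 2 + s₃ * (u₄ : ℤ) ^ 2 * (d₃ : ℤ) ^ 2 =
      s₃ * (((u₃ ^ 2 * d₄ ^ 2 + u₄ ^ 2 * d₃ ^ 2 : ℕ)) : ℤ) by push_cast; ring] at h
    have hs3 : s₃.natAbs = 1 := by rcases c₃.s1 with h | h <;> rw [h] <;> rfl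
    rw [show ((d₃ : ℤ) ^ 2 * (d₄ : ℤ) ^ 2) = ((d₃ ^ 2 * d₄ ^ 2 : ℕ) : ℤ) by push_cast; ring,
      Int.natAbs_mul, Int.natAbs_mul, Int.natAbs_mul (2 * P * T), hs3, one_mul, Int.natAbs_natCast,
      Int.natAbs_natCast, Int.natAbs_pow] at h
    exact h
  obtain ⟨l₁, l₂, l₃⟩ := low _ _ _ _ _ _ (cop3 u₃ d₃ u₄ d₄ c₃.cop c₄.cop)
    (by have : 0 < M.natAbs := Int.natAbs_pos.2 hM0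
        positivity)
    (by have := c₃.d0; have := c₄.d0; positivity) k₁ k₂
  obtain ⟨b₁, b₂, b₃, b₄⟩ := bounds s₁ s₂ u₁ d₁ u₂ d₂ (sq1 _ c₁.s1) (sq1 _ c₂.s1)
  zify at l₁ l₂ l₃
  rw [sq_abs] at l₁ l₂
  zify
  set H : ℤ := ((u₁ : ℤ) ^ 4 + 2 * (d₁ : ℤ) ^ 4) * ((u₂ : ℤ) ^ 4 + 2 * (d₂ : ℤ) ^ 4) with hH
  have hA : (u₃ : ℤ) ^ 2 * (u₄ : ℤ) ^ 2 ≤ H := l₁.trans b₁
  have hB : (d₃ : ℤ) ^ 2 * (d₄ : ℤ) ^ 2 ≤ H := l₂.trans b₃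
  have hC : ((u₃ : ℤ) ^ 2 * (d₄ : ℤ) ^ 2 + (u₄ : ℤ) ^ 2 * (d₃ : ℤ) ^ 2) ^ 2 ≤ 4 * H ^ 2 := by
    have h0 : (0 : ℤ) ≤ (u₃ : ℤ) ^ 2 * (d₄ : ℤ) ^ 2 + (u₄ : ℤ) ^ 2 * (d₃ : ℤ) ^ 2 := by positivity
    calc ((u₃ : ℤ) ^ 2 * (d₄ : ℤ) ^ 2 + (u₄ : ℤ) ^ 2 * (d₃ : ℤ) ^ 2) ^ 2
        ≤ |2 * P * T| ^ 2 := pow_le_pow_left₀ h0 l₃ 2
      _ = 4 * (P ^ 2 * T ^ 2) := by rw [sq_abs]; ring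
      _ ≤ 4 * (H * H) := by
          have := mul_le_mul b₄ b₂ (sq_nonneg _) ((sq_nonneg _).trans b₄)
          linarith
      _ = 4 * H ^ 2 := by ring
  have hH0 : 0 ≤ H := (sq_nonneg _).trans b₁
  have hA2 : ((u₃ : ℤ) ^ 2 * (u₄ : ℤ) ^ 2) ^ 2 ≤ H ^ 2 := pow_le_pow_left₀ (by positivity) hA 2
  have hB2 : ((d₃ : ℤ) ^ 2 * (d₄ : ℤ) ^ 2) ^ 2 ≤ H ^ 2 := pow_le_pow_left₀ (by positivity) hB 2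
  have hAB : (0 : ℤ) ≤ ((u₃ : ℤ) ^ 2 * (u₄ : ℤ) ^ 2) * ((d₃ : ℤ) ^ 2 * (d₄ : ℤ) ^ 2) := by
    positivity
  nlinarith

end Crest.Agent.R323
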