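import Crest.Agent.R323.Defs

set_option autoImplicit false

namespace Crest.Agent.R323

namespace PELL3

theorem px_zero : px 0 = 1 := rfl
theorem py_zero : py 0 = 0 := rfl

theorem px_succ (m : ℕ) : px (m + 1) = px m * 2 + 3 * py m := rfl
theorem py_succ (m : ℕ) : py (m + 1) = px m + py m * 2 := rfl

theorem px_pos (m : ℕ) : 0 < px m := by
  induction m with
  | zero => rw [px_zero]; norm_num
  | succ m ih => rw [px_succ]; omega

theorem eqn (m : ℕ) : px m ^ 2 = 3 * py m ^ 2 + 1 := by
  induction m with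
  | zero => rw [px_zero, py_zero]; norm_num
  | succ m ih =>
    rw [px_succ, py_succ]
    nlinarith [ih]

theorem px_add (m n : ℕ) : px (m + n) = px m * px n + 3 * py m * py n := by
  induction n with
  | zero => rw [Nat.add_zero, px_zero, py_zero]; ring
  | succ n ih =>
    have hy : py (m + n) = px m * py n + py m * px n := Pell.yn_add _ m n
    rw [← Nat.add_assoc, px_succ, px_succ, py_succ, ih, hy]
    ring

theorem py_add (m n : ℕ) : py (m + n) = px m * py n + py m * px n := Pell.yn_add _ m n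

theorem mono : StrictMono py := Pell.strictMono_y _
theorem monox : StrictMono px := Pell.strictMono_x _

theorem sub (m n : ℕ) (h : n ≤ m) : (px (m - n) : ℤ) = px m * px n - 3 * py m * py n ∧
    (py (m - n) : ℤ) = py m * px n - px m * py n := by
  obtain ⟨k, rfl⟩ := Nat.exists_eq_add_of_le h
  have e : n + k - n = k := by omega
  rw [e, px_add, py_add]
  have h1 : (px n : ℤ) ^ 2 = 3 * (py n : ℤ) ^ 2 + 1 := by exact_mod_cast eqn n
  push_cast
  constructor
  · linear_combination (-(px k : ℤ)) * h1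
  · linear_combination (-(py k : ℤ)) * h1

theorem dbl (m : ℕ) : py (2 * m) = 2 * px m * py m := by
  rw [two_mul, py_add]; ring

theorem dvd (m n : ℕ) : py m ∣ py n ↔ m ∣ n := Pell.y_dvd_iff _ m n

theorem sol (x y : ℕ) (h : x ^ 2 = 3 * y ^ 2 + 1) : ∃ m, x = px m ∧ y = py m := by
  have h2 : x * x - 3 * y * y = 1 := by
    have : x * x = 3 * y * y + 1 := by nlinarith [h]
    omega
  exact Pell.eq_pell (a := 2) one_lt_two h2

theorem idx (h : ℕ) : ∃ m, Idx h m := by
  classical
  have hex : ∃ m, h < py (m + 1) := ⟨h, lt_of_lt_of_le (Nat.lt_succ_self h)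
    (Pell.yn_ge_n (a := 2) one_lt_two (h + 1))⟩
  refine ⟨Nat.find hex, ?_, Nat.find_spec hex⟩
  rcases hn : Nat.find hex with _ | k
  · rw [py_zero]; exact Nat.zero_le _
  · have := Nat.find_min hex (m := k) (by omega)
    exact not_lt.mp this

theorem idxu (h m m' : ℕ) (h1 : Idx h m) (h2 : Idx h m') : m = m' := by
  obtain ⟨a1, b1⟩ := h1
  obtain ⟨a2, b2⟩ := h2
  have c1 : m < m' + 1 := mono.lt_iff_lt.mp (lt_of_le_of_lt a1 b2)
  have c2 : m' < m + 1 := mono.lt_iff_lt.mp (lt_of_le_of_lt a2 b1)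
  omega

theorem quot_aux (m k : ℕ) : ∃ q, py (m * k) = py m * q ∧ q ≡ k [MOD px m - 1] ∧
    px (m * k) ≡ 1 [MOD px m - 1] := by
  obtain ⟨N, hN⟩ : ∃ N, px m = N + 1 := ⟨px m - 1, by have := px_pos m; omega⟩
  have hN' : px m - 1 = N := by omega
  rw [hN']
  have hx1 : px m ≡ 1 [MOD N] := by
    rw [hN]
    exact (Nat.modEq_iff_dvd' (by omega)).mpr ⟨1, by omega⟩ |>.symm
  have hy2 : 3 * py m ^ 2 = N * (N + 2) := by
    have := eqn m
    rw [hN] at this
    nlinarith [this]
  induction k with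
  | zero => exact ⟨0, by rw [Nat.mul_zero, py_zero, Nat.mul_zero], rfl, by
      rw [Nat.mul_zero, px_zero]⟩
  | succ k ih =>
    obtain ⟨q, h1, h2, h3⟩ := ih
    refine ⟨px (m * k) + q * px m, ?_, ?_, ?_⟩
    · rw [Nat.mul_succ, py_add, h1]; ring
    · have := (h3.add (h2.mul hx1))
      simpa [Nat.add_comm] using this
    · rw [Nat.mul_succ, px_add, h1]
      have e : 3 * (py m * q) * py m = N * ((N + 2) * q) := by
        calc 3 * (py m * q) * py m = (3 * py m ^ 2) * q := by ring
          _ = N * ((N + 2) * q) := by rw [hy2]; ring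
      rw [e]
      have h4 : N * ((N + 2) * q) ≡ 0 [MOD N] := (Nat.modEq_zero_iff_dvd.mpr ⟨_, rfl⟩)
      have := (h3.mul hx1).add h4
      simpa using this

theorem quot (m k : ℕ) (hm : 1 ≤ m) : py (m * k) / py m ≡ k [MOD (px m - 1)] := by
  obtain ⟨q, h1, h2, -⟩ := quot_aux m k
  have hp : 0 < py m := by
    have := mono (show 0 < m from hm)
    rwa [py_zero] at this
  rw [h1, Nat.mul_div_cancel_left _ hp]
  exact h2

end PELL3

theorem pell3 : Pell3 where
  sol := PELL3.sol
  eqn := PELL3.eqn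
  succ m := ⟨by rw [PELL3.px_succ]; ring, by rw [PELL3.py_succ]; ring⟩
  mono := PELL3.mono
  monox := PELL3.monox
  sub := PELL3.sub
  dbl := PELL3.dbl
  dvd := PELL3.dvd
  idx := PELL3.idx
  idxu := PELL3.idxu
  quot := PELL3.quot

end Crest.Agent.R323
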