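import Crest.Agent.R323.Defs

set_option autoImplicit false

namespace Crest.Agent.R323

namespace PELLG

lemma yv_eq (a n : ℕ) (h : 2 ≤ a) : yv a n = Pell.yn (a := a) h n := by
  unfold yv; rw [dif_pos]

lemma xv_eq (a n : ℕ) (h : 2 ≤ a) : xv a n = Pell.xn (a := a) h n := by
  unfold xv; rw [dif_pos]

lemma low (a n : ℕ) (h : 2 ≤ a) : a ^ n ≤ yv a (n + 1) := by
  rw [yv_eq a _ h, Pell.yn_succ]
  exact (Pell.xn_ge_a_pow h n).trans (Nat.le_add_right _ _)

lemma mono (a : ℕ) (h : 2 ≤ a) : StrictMono (yv a) := by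
  intro m n hmn
  rw [yv_eq a _ h, yv_eq a _ h]
  exact Pell.strictMono_y h hmn

lemma cong (a n : ℕ) (h : 2 ≤ a) : yv a n ≡ n [MOD (a - 1)] := by
  rw [yv_eq a _ h]
  exact Pell.yn_modEq_a_sub_one h n

lemma yss (a n : ℕ) (h : 2 ≤ a) : yv a (n + 2) + yv a n = 2 * a * yv a (n + 1) := by
  rw [yv_eq a _ h, yv_eq a _ h, yv_eq a _ h]
  exact Pell.yn_succ_succ h n

lemma xss (a n : ℕ) (h : 2 ≤ a) : xv a (n + 2) + xv a n = 2 * a * xv a (n + 1) := by
  rw [xv_eq a _ h, xv_eq a _ h, xv_eq a _ h]
  exact Pell.xn_succ_succ h n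

end PELLG

open PELLG in
theorem pellG : PellG where
  eqn := by
    intro a n h
    rw [yv_eq a _ h, xv_eq a _ h]
    have h1 : Pell.xn (a := a) h n * Pell.xn (a := a) h n -
      (a * a - 1) * Pell.yn (a := a) h n * Pell.yn (a := a) h n = 1 := Pell.pell_eq h n
    rw [sq, sq, sq, ← mul_assoc]
    omega
  iso := by
    intro a n x y h hn hxy hc hy
    have h1 : x * x - (a * a - 1) * y * y = 1 := by
      rw [sq, sq, sq, ← mul_assoc] at hxy
      omega
    obtain ⟨j, hxj, hyj⟩ := Pell.eq_pell (a := a) h h1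
    rw [← xv_eq a _ h] at hxj
    rw [← yv_eq a _ h] at hyj
    have hj : j = n := by
      by_contra hne
      have h2 : j ≡ n [MOD (a - 1)] := by
        have h3 := cong a j h
        rw [← hyj] at h3
        exact h3.symm.trans hc
      have h3 : n + (a - 1) ≤ j := by
        unfold Nat.ModEq at h2
        rw [Nat.mod_eq_of_lt (show n < a - 1 by omega)] at h2
        have h4 := Nat.div_add_mod j (a - 1)
        rw [h2] at h4
        rcases Nat.eq_zero_or_pos (j / (a - 1)) with h5 | h5
        · rw [h5] at h4; omega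
        · have : (a - 1) * 1 ≤ (a - 1) * (j / (a - 1)) := Nat.mul_le_mul_left _ h5
          omega
      have h5 : yv a (n + (a - 1)) ≤ yv a j := (mono a h).monotone h3
      have h6 := low a (n + a - 2) h
      have h7 : n + a - 2 + 1 = n + (a - 1) := by omega
      rw [h7] at h6
      omega
    subst hj
    exact ⟨hxj, hyj⟩
  cong := cong
  up := by
    intro a n h
    have key : yv a n ≤ (2 * a) ^ n ∧ yv a (n + 1) ≤ (2 * a) ^ (n + 1) := by
      induction n with
      | zero =>
        rw [yv_eq a _ h, yv_eq a _ h]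
        simp
        omega
      | succ n ih =>
        refine ⟨ih.2, ?_⟩
        have h9 := yss a n h
        calc yv a (n + 1 + 1) ≤ 2 * a * yv a (n + 1) := by
              rw [← h9]; exact Nat.le_add_right _ _
          _ ≤ 2 * a * (2 * a) ^ (n + 1) := Nat.mul_le_mul_left _ ih.2
          _ = (2 * a) ^ (n + 1 + 1) := by ring
    exact key.1
  low := low
  red := by
    intro a z n h
    have key : yv (a + z) n ≡ yv a n [MOD z] ∧ yv (a + z) (n + 1) ≡ yv a (n + 1) [MOD z] := by
      induction n with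
      | zero =>
        rw [yv_eq a _ h, yv_eq a _ h, yv_eq (a + z) _ (by omega), yv_eq (a + z) _ (by omega)]
        simp
        exact ⟨Nat.ModEq.refl _, Nat.ModEq.refl _⟩
      | succ n ih =>
        refine ⟨ih.2, ?_⟩
        apply Nat.ModEq.add_right_cancel ih.1
        rw [yss a n h, yss (a + z) n (by omega)]
        apply Nat.ModEq.mul _ ih.2
        apply Nat.ModEq.mul_left
        have : a + z ≡ a + 0 [MOD z] := Nat.ModEq.add_left a (by simp [Nat.ModEq])
        simpa using this
    exact key.1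
  redx := by
    intro a z n h
    have hz : a + z ≡ a [MOD z] := by
      have : a + z ≡ a + 0 [MOD z] := Nat.ModEq.add_left a (by simp [Nat.ModEq])
      simpa using this
    have key : xv (a + z) n ≡ xv a n [MOD z] ∧ xv (a + z) (n + 1) ≡ xv a (n + 1) [MOD z] := by
      induction n with
      | zero =>
        rw [xv_eq a _ h, xv_eq a _ h, xv_eq (a + z) _ (by omega), xv_eq (a + z) _ (by omega)]
        rw [Pell.xn_zero, Pell.xn_zero, Pell.xn_one, Pell.xn_one]
        exact ⟨Nat.ModEq.refl _, hz⟩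
      | succ n ih =>
        refine ⟨ih.2, ?_⟩
        apply Nat.ModEq.add_right_cancel ih.1
        rw [xss a n h, xss (a + z) n (by omega)]
        apply Nat.ModEq.mul _ ih.2
        exact Nat.ModEq.mul_left _ hz
    exact key.1
  pow := by
    intro a b n h _
    have h1 := Pell.x_sub_y_dvd_pow (a := a) h b n
    rw [yv_eq a _ h, xv_eq a _ h]
    have h2 : ((Pell.xn (a := a) h n : ℤ) - ((a : ℤ) - b) * Pell.yn (a := a) h n - (b : ℤ) ^ n) =
      -(Pell.yz (a := a) h n * ((a : ℤ) - b) + ((b ^ n : ℕ) : ℤ) - Pell.xz (a := a) h n) := by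
      unfold Pell.yz Pell.xz
      push_cast
      ring
    rw [h2, dvd_neg, sq]
    exact h1

end Crest.Agent.R323
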