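import Crest.Agent.R323.SFLib

set_option autoImplicit false

namespace Crest.Agent.R323

namespace POW

def PA (b n : ℕ) : ℕ := yv (b + n + 3) (n + 2)
def PM (b n : ℕ) : ℕ := 2 * PA b n * b - (b * b + 1)
def PF (b n : ℕ) : ℕ :=
  (xv (PA b n) n + (PM b n - 1) * ((PA b n - b) * yv (PA b n) n)) % PM b n

theorem PA_gt (hG : PellG) (b n : ℕ) : b < PA b n ∧ b ^ n < PA b n := by
  have h := hG.low (b + n + 3) (n + 1) (by omega)
  have h1 : (b + n + 3) ≤ (b + n + 3) ^ (n + 1) := Nat.le_self_pow (by omega) _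
  have h2 : b ^ n < (b + n + 3) ^ (n + 1) := by
    calc b ^ n ≤ (b + n + 3) ^ n := Nat.pow_le_pow_left (by omega) n
      _ < (b + n + 3) ^ (n + 1) := Nat.pow_lt_pow_right (by omega) (by omega)
  unfold PA
  constructor
  · exact lt_of_lt_of_le (by omega) (h1.trans h)
  · exact lt_of_lt_of_le h2 h

theorem PF_eq (hG : PellG) (b n : ℕ) (hb : 1 ≤ b) : b ^ n = PF b n := by
  obtain ⟨h1, h2⟩ := PA_gt hG b n
  set A := PA b n with hA
  have hA2 : 2 ≤ A := by omega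
  have hM : b * b + 1 ≤ 2 * A * b := by nlinarith
  have hMA : A ≤ PM b n := by
    unfold PM
    rw [← hA]
    have : A + (b * b + 1) ≤ 2 * A * b := by nlinarith
    omega
  have hMz : ((PM b n : ℕ) : ℤ) = 2 * (A : ℤ) * b - b ^ 2 - 1 := by
    unfold PM
    rw [← hA, Nat.cast_sub hM]
    push_cast
    ring
  have hp := hG.pow A b n hA2 h1
  rw [← hMz] at hp
  have hlt : b ^ n < PM b n := lt_of_lt_of_le h2 hMA
  have key : (xv A n + (PM b n - 1) * ((A - b) * yv A n)) ≡ b ^ n [MOD PM b n] := by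
    apply Nat.ModEq.symm
    rw [Nat.modEq_iff_dvd]
    have e1 : ((PM b n - 1 : ℕ) : ℤ) = (PM b n : ℤ) - 1 := by
      rw [Nat.cast_sub (by omega)]; simp
    have e2 : ((A - b : ℕ) : ℤ) = (A : ℤ) - b := by rw [Nat.cast_sub h1.le]
    have e3 : ((xv A n + (PM b n - 1) * ((A - b) * yv A n) : ℕ) : ℤ) - ((b ^ n : ℕ) : ℤ) =
        ((xv A n : ℤ) - ((A : ℤ) - b) * yv A n - (b : ℤ) ^ n) +
          (PM b n : ℤ) * (((A : ℤ) - b) * yv A n) := by
      rw [Nat.cast_add, Nat.cast_mul, Nat.cast_mul, e1, e2, Nat.cast_pow]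
      ring
    rw [e3]
    exact dvd_add hp (dvd_mul_right _ _)
  unfold PF
  rw [← hA]
  have h3 : (xv A n + (PM b n - 1) * ((A - b) * yv A n)) % PM b n = b ^ n % PM b n := key
  rw [h3, Nat.mod_eq_of_lt hlt]

end POW

theorem pow : StPow := by
  intro _ hG hyx
  obtain ⟨hy, hx⟩ := hyx
  have v0 : SFn (fun v : Fin 2 → ℕ => v 0) := SFn.proj 0
  have v1 : SFn (fun v : Fin 2 → ℕ => v 1) := SFn.proj 1
  have hA : SFn (fun v : Fin 2 → ℕ => POW.PA (v 0) (v 1)) :=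
    SFn.comp2 (F := yv) hy ((v0.add v1).add (SFn.const 3)) (v1.add (SFn.const 2))
  have hM : SFn (fun v : Fin 2 → ℕ => POW.PM (v 0) (v 1)) :=
    (((SFn.const 2).mul hA).mul v0).sub ((v0.mul v0).add (SFn.const 1))
  have hF : SFn (fun v : Fin 2 → ℕ => POW.PF (v 0) (v 1)) :=
    ((SFn.comp2 (F := xv) hx hA v1).add
      ((hM.sub (SFn.const 1)).mul ((hA.sub v0).mul (SFn.comp2 (F := yv) hy hA v1)))).mod hM
  have h : SFn (fun v : Fin 2 → ℕ => if v 0 = 0 then (if v 1 = 0 then 1 else 0)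
      else POW.PF (v 0) (v 1)) :=
    SFn.ite_eq v0 (SFn.const 0) (SFn.ite_eq v1 (SFn.const 0) (SFn.const 1) (SFn.const 0)) hF
  refine h.congr fun v => ?_
  by_cases h0 : v 0 = 0
  · rw [if_pos h0, h0]
    by_cases h1 : v 1 = 0
    · rw [if_pos h1, h1]; rfl
    · rw [if_neg h1, zero_pow h1]
  · rw [if_neg h0]
    exact (POW.PF_eq hG _ _ (Nat.one_le_iff_ne_zero.mpr h0)).symm

end Crest.Agent.R323
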