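import Crest.Agent.R323.Defs

set_option autoImplicit false

namespace Crest.Agent.R323

namespace QUAD

open Filter Topology

/-- the height, as a real number -/
noncomputable def Ht (U D : ℕ → ℕ) (k : ℕ) : ℝ := (U k : ℝ) ^ 4 + 2 * (D k : ℝ) ^ 4

noncomputable def lh (U D : ℕ → ℕ) (k : ℕ) : ℝ := Real.log (Ht U D k)

variable {U D W : ℕ → ℕ}

theorem U_pos (h : Eds U D W) (k : ℕ) : 1 ≤ U k := by
  rcases Nat.eq_zero_or_pos k with rfl | hk
  · rw [h.zero.1]
  · exact (h.code k hk).u0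

theorem Ht_one_le (h : Eds U D W) (k : ℕ) : 1 ≤ Ht U D k := by
  have h1 : (1 : ℝ) ≤ (U k : ℝ) := by exact_mod_cast U_pos h k
  have h2 : (1 : ℝ) ≤ (U k : ℝ) ^ 4 := one_le_pow₀ h1
  have h3 : (0 : ℝ) ≤ 2 * (D k : ℝ) ^ 4 := by positivity
  unfold Ht; linarith

theorem Ht_pos (h : Eds U D W) (k : ℕ) : 0 < Ht U D k := lt_of_lt_of_le one_pos (Ht_one_le h k)

theorem W_sq_le (h : Eds U D W) (k : ℕ) : (W k : ℝ) ^ 2 ≤ Ht U D k := by
  rcases Nat.eq_zero_or_pos k with rfl | hk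
  · obtain ⟨h1, h2, h3⟩ := h.zero
    unfold Ht; rw [h1, h2, h3]; norm_num
  · have hc := h.code k hk
    have e : ((U k : ℝ)) ^ 4 - 2 * (D k : ℝ) ^ 4 = (((-1) ^ k : ℤ) : ℝ) * (W k : ℝ) ^ 2 := by
      have := congrArg (fun z : ℤ => (z : ℝ)) hc.eq
      push_cast at this
      push_cast
      exact this
    have hU : (0 : ℝ) ≤ (U k : ℝ) ^ 4 := by positivity
    have hD : (0 : ℝ) ≤ (D k : ℝ) ^ 4 := by positivity
    unfold Ht
    rcases hc.s1 with hs | hs
    · rw [hs] at e; push_cast at e; linarith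
    · rw [hs] at e; push_cast at e; linarith

theorem Ht_two (h : Eds U D W) (k : ℕ) :
    Ht U D (2 * k) = Ht U D k ^ 4 + 32 * ((U k : ℝ) ^ 4 * (D k : ℝ) ^ 4 * (W k : ℝ) ^ 4) := by
  have e1 := h.dblU k
  have e2 := h.dblD k
  unfold Ht
  rw [e1, e2]
  push_cast
  ring

theorem Ht_two_ge (h : Eds U D W) (k : ℕ) : Ht U D k ^ 4 ≤ Ht U D (2 * k) := by
  rw [Ht_two h k]
  have : (0 : ℝ) ≤ 32 * ((U k : ℝ) ^ 4 * (D k : ℝ) ^ 4 * (W k : ℝ) ^ 4) := by positivity
  linarith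

theorem Ht_two_le (h : Eds U D W) (k : ℕ) : Ht U D (2 * k) ≤ 5 * Ht U D k ^ 4 := by
  rw [Ht_two h k]
  have hw : (W k : ℝ) ^ 4 ≤ Ht U D k ^ 2 := by
    have h1 := W_sq_le h k
    have h0 : (0 : ℝ) ≤ (W k : ℝ) ^ 2 := by positivity
    calc (W k : ℝ) ^ 4 = ((W k : ℝ) ^ 2) ^ 2 := by ring
      _ ≤ Ht U D k ^ 2 := by gcongr
  have hud : 8 * ((U k : ℝ) ^ 4 * (D k : ℝ) ^ 4) ≤ Ht U D k ^ 2 := by
    unfold Ht
    nlinarith [sq_nonneg ((U k : ℝ) ^ 4 - 2 * (D k : ℝ) ^ 4)]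
  have hud0 : 0 ≤ (U k : ℝ) ^ 4 * (D k : ℝ) ^ 4 := by positivity
  have h4 : 8 * ((U k : ℝ) ^ 4 * (D k : ℝ) ^ 4) * (W k : ℝ) ^ 4 ≤ Ht U D k ^ 2 * Ht U D k ^ 2 := by
    gcongr
  nlinarith

theorem lh_nonneg (h : Eds U D W) (k : ℕ) : 0 ≤ lh U D k := Real.log_nonneg (Ht_one_le h k)

theorem lh_two_ge (h : Eds U D W) (k : ℕ) : 4 * lh U D k ≤ lh U D (2 * k) := by
  have h1 := Real.log_le_log (pow_pos (Ht_pos h k) 4) (Ht_two_ge h k)
  rw [Real.log_pow] at h1
  unfold lh; push_cast at h1; linarith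

theorem lh_two_le (h : Eds U D W) (k : ℕ) : lh U D (2 * k) ≤ 4 * lh U D k + Real.log 5 := by
  have h1 := Real.log_le_log (Ht_pos h (2 * k)) (Ht_two_le h k)
  rw [Real.log_mul (by norm_num) (pow_pos (Ht_pos h k) 4).ne', Real.log_pow] at h1
  unfold lh; push_cast at h1; linarith

theorem lh_par (h : Eds U D W) (m n : ℕ) (hn : n ≤ m) :
    lh U D (m + n) + lh U D (m - n) ≤ 2 * lh U D m + 2 * lh U D n + Real.log 13 := by
  have h0 := h.par m n hn
  have h1 : Ht U D (m + n) * Ht U D (m - n) ≤ 13 * (Ht U D m * Ht U D n) ^ 2 := by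
    unfold Ht
    exact_mod_cast h0
  have h2 := Real.log_le_log (mul_pos (Ht_pos h _) (Ht_pos h _)) h1
  rw [Real.log_mul (Ht_pos h _).ne' (Ht_pos h _).ne',
    Real.log_mul (by norm_num) (pow_pos (mul_pos (Ht_pos h _) (Ht_pos h _)) 2).ne',
    Real.log_pow, Real.log_mul (Ht_pos h _).ne' (Ht_pos h _).ne'] at h2
  unfold lh; push_cast at h2; linarith

/-- the approximations of the canonical height -/
noncomputable def ap (U D : ℕ → ℕ) (k j : ℕ) : ℝ := lh U D (2 ^ j * k) / 4 ^ j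

theorem ap_zero (k : ℕ) : ap U D k 0 = lh U D k := by simp [ap]

theorem ap_mono (h : Eds U D W) (k : ℕ) : Monotone (ap U D k) := by
  refine monotone_nat_of_le_succ fun j => ?_
  unfold ap
  have h1 := lh_two_ge h (2 ^ j * k)
  have e : 2 * (2 ^ j * k) = 2 ^ (j + 1) * k := by ring
  rw [e] at h1
  rw [div_le_div_iff₀ (by positivity) (by positivity)]
  have : (4 : ℝ) ^ (j + 1) = 4 * 4 ^ j := by ring
  rw [this]
  have h4 : (0 : ℝ) < 4 ^ j := by positivity
  nlinarith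

theorem ap_le (h : Eds U D W) (k j : ℕ) :
    ap U D k j ≤ lh U D k + Real.log 5 / 3 * (1 - 1 / 4 ^ j) := by
  induction j with
  | zero => simp [ap]
  | succ j ih =>
    have h1 := lh_two_le h (2 ^ j * k)
    have e : 2 * (2 ^ j * k) = 2 ^ (j + 1) * k := by ring
    rw [e] at h1
    have h2 : ap U D k (j + 1) ≤ ap U D k j + Real.log 5 / 4 ^ (j + 1) := by
      unfold ap
      have h4 : (0 : ℝ) < 4 ^ j := by positivity
      have e4 : (4 : ℝ) ^ (j + 1) = 4 * 4 ^ j := by ring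
      rw [e4]
      rw [show lh U D (2 ^ j * k) / 4 ^ j + Real.log 5 / (4 * 4 ^ j) =
        (4 * lh U D (2 ^ j * k) + Real.log 5) / (4 * 4 ^ j) by field_simp]
      gcongr
    have e5 : Real.log 5 / 3 * (1 - 1 / 4 ^ (j + 1)) =
        Real.log 5 / 3 * (1 - 1 / 4 ^ j) + Real.log 5 / 4 ^ (j + 1) := by
      rw [pow_succ]; field_simp; ring
    rw [e5]; linarith

theorem ap_le' (h : Eds U D W) (k j : ℕ) : ap U D k j ≤ lh U D k + Real.log 5 / 3 := by
  refine (ap_le h k j).trans ?_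
  have h5 : 0 ≤ Real.log 5 := Real.log_nonneg (by norm_num)
  have h4 : (0 : ℝ) ≤ 1 / 4 ^ j := by positivity
  nlinarith [mul_nonneg (div_nonneg h5 (by norm_num : (0:ℝ) ≤ 3)) h4]

noncomputable def HH (U D : ℕ → ℕ) (k : ℕ) : ℝ := ⨆ j, ap U D k j

theorem bdd (h : Eds U D W) (k : ℕ) : BddAbove (Set.range (ap U D k)) :=
  ⟨_, by rintro _ ⟨j, rfl⟩; exact ap_le' h k j⟩

theorem tend (h : Eds U D W) (k : ℕ) : Tendsto (ap U D k) atTop (𝓝 (HH U D k)) :=
  tendsto_atTop_ciSup (ap_mono h k) (bdd h k)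

theorem le_HH (h : Eds U D W) (k : ℕ) : lh U D k ≤ HH U D k := by
  have := le_ciSup (bdd h k) 0
  rwa [ap_zero] at this

theorem HH_le (h : Eds U D W) (k : ℕ) : HH U D k ≤ lh U D k + Real.log 5 / 3 :=
  ciSup_le fun j => ap_le' h k j

theorem HH_zero (h : Eds U D W) : HH U D 0 = 0 := by
  have h0 : ∀ j, ap U D 0 j = 0 := by
    intro j
    unfold ap lh Ht
    rw [Nat.mul_zero, h.zero.1, h.zero.2.1]
    simp
  unfold HH
  simp [h0]

theorem HH_two (h : Eds U D W) (k : ℕ) : HH U D (2 * k) = 4 * HH U D k := by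
  have h1 : Tendsto (fun j => ap U D (2 * k) j) atTop (𝓝 (HH U D (2 * k))) := tend h _
  have h2 : Tendsto (fun j => 4 * ap U D k (j + 1)) atTop (𝓝 (4 * HH U D k)) :=
    ((tendsto_add_atTop_iff_nat 1).2 (tend h k)).const_mul 4
  refine tendsto_nhds_unique h1 (h2.congr fun j => ?_)
  unfold ap
  have e : 2 ^ j * (2 * k) = 2 ^ (j + 1) * k := by ring
  have e4 : (4 : ℝ) ^ (j + 1) = 4 * 4 ^ j := by ring
  rw [e, e4]
  have h4 : (4 : ℝ) ^ j ≠ 0 := by positivity
  field_simp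

theorem HH_par_le (h : Eds U D W) (m n : ℕ) (hn : n ≤ m) :
    HH U D (m + n) + HH U D (m - n) ≤ 2 * HH U D m + 2 * HH U D n := by
  have h1 : Tendsto (fun j => ap U D (m + n) j + ap U D (m - n) j) atTop
      (𝓝 (HH U D (m + n) + HH U D (m - n))) := (tend h _).add (tend h _)
  have h3 : Tendsto (fun j : ℕ => Real.log 13 * (1 / 4 : ℝ) ^ j) atTop (𝓝 (Real.log 13 * 0)) :=
    (tendsto_pow_atTop_nhds_zero_of_lt_one (by norm_num) (by norm_num)).const_mul _
  have h2 : Tendsto (fun j => 2 * ap U D m j + 2 * ap U D n j + Real.log 13 * (1 / 4 : ℝ) ^ j)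
      atTop (𝓝 (2 * HH U D m + 2 * HH U D n + Real.log 13 * 0)) :=
    (((tend h m).const_mul 2).add ((tend h n).const_mul 2)).add h3
  rw [mul_zero, add_zero] at h2
  refine le_of_tendsto_of_tendsto' h1 h2 fun j => ?_
  have hp := lh_par h (2 ^ j * m) (2 ^ j * n) (Nat.mul_le_mul_left _ hn)
  rw [← Nat.mul_add, ← Nat.mul_sub] at hp
  unfold ap
  have h4 : (0 : ℝ) < 4 ^ j := by positivity
  rw [one_div, inv_pow, ← div_eq_mul_inv, ← add_div, mul_div_assoc', mul_div_assoc', ← add_div,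
    ← add_div]
  gcongr

theorem HH_par (h : Eds U D W) (m n : ℕ) (hn : n ≤ m) :
    HH U D (m + n) + HH U D (m - n) = 2 * HH U D m + 2 * HH U D n := by
  refine le_antisymm (HH_par_le h m n hn) ?_
  have h1 := HH_par_le h (m + n) (m - n) (by omega)
  have e1 : m + n + (m - n) = 2 * m := by omega
  have e2 : m + n - (m - n) = 2 * n := by omega
  rw [e1, e2, HH_two h, HH_two h] at h1
  linarith

theorem HH_eq (h : Eds U D W) (k : ℕ) : HH U D k = HH U D 1 * (k : ℝ) ^ 2 := by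
  induction k using Nat.strong_induction_on with
  | _ k ih =>
    rcases k with _ | _ | k
    · rw [HH_zero h]; simp
    · simp
    · have h1 := HH_par h (k + 1) 1 (by omega)
      have e1 := ih (k + 1) (by omega)
      have e2 := ih k (by omega)
      rw [Nat.add_sub_cancel, e1, e2] at h1
      push_cast at h1 ⊢
      have : k + 1 + 1 = k + 2 := rfl
      linarith

end QUAD

open QUAD in
theorem quad : StQuad := by
  intro U D W h
  refine ⟨HH U D 1, ?_, ?_, fun k => ?_⟩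
  · have h1 := le_HH h 1
    have e : lh U D 1 = Real.log 3 := by
      unfold lh Ht
      rw [h.one.1, h.one.2.1]; norm_num
    rw [← e]; exact h1
  · have h1 := HH_le h 1
    have e : lh U D 1 = Real.log 3 := by
      unfold lh Ht
      rw [h.one.1, h.one.2.1]; norm_num
    rw [e] at h1
    refine h1.trans ?_
    have h2 : 3 * Real.log 3 + Real.log 5 ≤ 6 := by
      have e3 : 3 * Real.log 3 + Real.log 5 = Real.log 135 := by
        rw [show (135 : ℝ) = 3 ^ 3 * 5 by norm_num, Real.log_mul (by norm_num) (by norm_num),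
          Real.log_pow]
        norm_num
      rw [e3, Real.log_le_iff_le_exp (by norm_num)]
      have h3 : (2.7 : ℝ) ≤ Real.exp 1 := by
        have := Real.exp_one_gt_d9; linarith
      have h4 : Real.exp 6 = Real.exp 1 ^ 6 := by
        rw [← Real.exp_nat_mul]; norm_num
      rw [h4]
      calc (135 : ℝ) ≤ 2.7 ^ 6 := by norm_num
        _ ≤ Real.exp 1 ^ 6 := by gcongr
    linarith
  · have h1 := le_HH h k
    have h2 := HH_le h k
    rw [HH_eq h k] at h1 h2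
    unfold lh Ht at h1 h2
    exact ⟨by linarith, h1⟩

end Crest.Agent.R323
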