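import Crest.Agent.R323.Defs

set_option autoImplicit false

namespace Crest.Agent.R323

namespace READ

lemma px0 : px 0 = 1 := by simp [px]
lemma py0 : py 0 = 0 := by simp [py]

lemma pxs (m : ℕ) : px (m + 1) = 2 * px m + 3 * py m := by
  have h : px (m + 1) = px m * 2 + (2 * 2 - 1) * py m := rfl
  rw [h]; ring

lemma pys (m : ℕ) : py (m + 1) = px m + 2 * py m := by
  have := Pell.yn_succ (a := 2) one_lt_two m
  unfold px py
  rw [this]; ring

noncomputable def al : ℝ := 2 + Real.sqrt 3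

lemma s3 : Real.sqrt 3 * Real.sqrt 3 = 3 := Real.mul_self_sqrt (by norm_num)
lemma s3lt : Real.sqrt 3 < 2 := by
  rw [Real.sqrt_lt' (by norm_num)]; norm_num
lemma s3gt : 3 / 2 < Real.sqrt 3 := by
  rw [Real.lt_sqrt (by norm_num)]; norm_num
lemma s3lt' : Real.sqrt 3 < 7 / 4 := by
  rw [Real.sqrt_lt' (by norm_num)]; norm_num

lemma al_pos : 0 < al := by unfold al; have := Real.sqrt_nonneg 3; linarith

lemma key1 (m : ℕ) : (px m : ℝ) + py m * Real.sqrt 3 = al ^ m := by
  induction m with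
  | zero => simp [px0, py0]
  | succ m ih =>
    rw [pxs, pys, pow_succ, ← ih]
    push_cast
    unfold al
    linear_combination -(py m : ℝ) * s3

lemma key2 (m : ℕ) : (px m : ℝ) - py m * Real.sqrt 3 = (2 - Real.sqrt 3) ^ m := by
  induction m with
  | zero => simp [px0, py0]
  | succ m ih =>
    rw [pxs, pys, pow_succ, ← ih]
    push_cast
    linear_combination -(py m : ℝ) * s3

lemma up (m : ℕ) : 3 * (py m : ℝ) ≤ al ^ m := by
  have h1 := key1 m
  have h2 := key2 m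
  have h3 : 0 ≤ (2 - Real.sqrt 3) ^ m := pow_nonneg (by linarith [s3lt]) m
  have h4 : (0 : ℝ) ≤ py m := Nat.cast_nonneg _
  nlinarith [s3gt]

lemma low (m : ℕ) : al ^ m ≤ (py (m + 1) : ℝ) := by
  rw [← key1, pys]
  push_cast
  have h4 : (0 : ℝ) ≤ py m := Nat.cast_nonneg _
  nlinarith [s3lt]

noncomputable def L : ℝ := Real.log al

lemma L_pos : 0 < L := Real.log_pos (by unfold al; linarith [s3gt])

lemma log3 : (1 : ℝ) ≤ Real.log 3 := by
  rw [Real.le_log_iff_exp_le (by norm_num)]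
  have := Real.exp_one_lt_d9
  linarith

lemma log2lt : Real.log 2 < 0.7 := by
  have := Real.log_two_lt_d9
  linarith

lemma log5 : Real.log 5 / 3 ≤ 0.7 := by
  have h1 : Real.log 5 ≤ Real.log (2 ^ 3) := Real.log_le_log (by norm_num) (by norm_num)
  rw [Real.log_pow] at h1
  have := log2lt
  push_cast at h1
  linarith

lemma L_le : L ≤ 1.4 := by
  have h1 : L ≤ Real.log (2 ^ 2) := Real.log_le_log al_pos (by unfold al; linarith [s3lt])
  rw [Real.log_pow] at h1
  have := log2lt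
  push_cast at h1
  linarith

/-- the location of the index -/
lemma idx (h m : ℕ) (h1 : 1 ≤ h) (hm : Idx h m) :
    L * (m - 1) ≤ Real.log h ∧ Real.log h < L * (m + 1) - 1 := by
  have hh : (0 : ℝ) < h := by exact_mod_cast h1
  constructor
  · rcases m with _ | m
    · have : 0 ≤ Real.log h := Real.log_nonneg (by exact_mod_cast h1)
      have := L_pos
      push_cast
      linarith
    · have h2 : al ^ m ≤ (h : ℝ) := (low m).trans (by exact_mod_cast hm.1)
      have h3 := Real.log_le_log (pow_pos al_pos m) h2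
      rw [Real.log_pow] at h3
      push_cast
      unfold L
      linarith
  · have h2 : 3 * (h : ℝ) < al ^ (m + 1) := by
      have : (h : ℝ) < py (m + 1) := by exact_mod_cast hm.2
      linarith [up (m + 1)]
    have h3 := Real.log_lt_log (by positivity) h2
    rw [Real.log_pow, Real.log_mul (by norm_num) hh.ne'] at h3
    have := log3
    push_cast at h3
    unfold L
    linarith

end READ

open READ in
theorem read : StRead := by
  intro hquad U D W hE k hk e e₁ e₂ he he₁ he₂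
  obtain ⟨κ, hκ1, hκ2, hκ⟩ := hquad U D W hE
  have hk' : (1 : ℝ) ≤ k := by exact_mod_cast hk
  have hUpos : ∀ j, 1 ≤ U j := by
    intro j
    rcases Nat.eq_zero_or_pos j with h | h
    · rw [h, hE.zero.1]
    · exact (hE.code j h).u0
  have hpos : ∀ j, 1 ≤ U j ^ 4 + 2 * D j ^ 4 := by
    intro j
    have := Nat.one_le_pow 4 (U j) (hUpos j)
    omega
  obtain ⟨a1, a2⟩ := idx _ _ (hpos _) he
  obtain ⟨b1, b2⟩ := idx _ _ (hpos _) he₁
  obtain ⟨c1, c2⟩ := idx _ _ (hpos _) he₂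
  obtain ⟨d1, d2⟩ := hκ (4 * k)
  obtain ⟨f1, f2⟩ := hκ (4 * k + 1)
  obtain ⟨g1, g2⟩ := hκ (4 * k - 1)
  have hc : ((4 * k - 1 : ℕ) : ℝ) = 4 * k - 1 := by
    rw [Nat.cast_sub (by omega)]; push_cast; ring
  rw [hc] at g1 g2
  push_cast at a1 a2 b1 b2 c1 c2 d1 d2 f1 f2 g1 g2
  have h5 := log5
  have hL := L_pos
  have hL' := L_le
  have h3 := log3
  have hκk : (k : ℝ) ≤ κ * k := by
    have := mul_le_mul_of_nonneg_right (h3.trans hκ1) (by linarith : (0 : ℝ) ≤ k)
    linarith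
  -- estimates
  have A1 : L * ((e₁ : ℝ) - e₂) < 16 * κ * k + 2.6 := by linarith
  have A2 : 16 * κ * k - 2.6 < L * ((e₁ : ℝ) - e₂) := by linarith
  have A3 : L * (e : ℝ) < 16 * κ * k ^ 2 + 1.5 := by linarith
  have A4 : 16 * κ * k ^ 2 - 1.2 < L * (e : ℝ) := by linarith
  have B0 : 0 < L * ((e₁ : ℝ) - e₂) := by linarith
  have hlt : (e₂ : ℝ) < e₁ := by
    by_contra h
    push Not at h
    nlinarith
  have hlt' : e₂ < e₁ := by exact_mod_cast hlt
  have B1 : k * (L * ((e₁ : ℝ) - e₂)) ≤ k * (16 * κ * k + 2.6) :=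
    mul_le_mul_of_nonneg_left A1.le (by linarith)
  have B2 : k * (16 * κ * k - 2.6) ≤ k * (L * ((e₁ : ℝ) - e₂)) :=
    mul_le_mul_of_nonneg_left A2.le (by linarith)
  have C1 : 2 * (L * ((e : ℝ) - k * (e₁ - e₂))) < L * ((e₁ : ℝ) - e₂) := by linarith
  have C2 : -(L * ((e₁ : ℝ) - e₂)) < 2 * (L * ((e : ℝ) - k * (e₁ - e₂))) := by linarith
  have E1 : 2 * ((e : ℝ) - k * (e₁ - e₂)) < ((e₁ : ℝ) - e₂) := by
    apply lt_of_mul_lt_mul_left _ hL.le
    linarith
  have E2 : -((e₁ : ℝ) - e₂) < 2 * ((e : ℝ) - k * (e₁ - e₂)) := by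
    apply lt_of_mul_lt_mul_left _ hL.le
    linarith
  have E1' : 2 * ((e : ℤ) - k * (e₁ - e₂)) < ((e₁ : ℤ) - e₂) := by exact_mod_cast E1
  have E2' : -((e₁ : ℤ) - e₂) < 2 * ((e : ℤ) - k * (e₁ - e₂)) := by exact_mod_cast E2
  refine ⟨hlt', ?_, ?_⟩
  · have : |2 * ((e : ℤ) - k * (e₁ - e₂))| < (e₁ : ℤ) - e₂ := abs_lt.mpr ⟨E2', E1'⟩
    rwa [abs_mul, abs_two] at this
  · have hkn : k < e₁ - e₂ := by
      have h7 : (k : ℝ) < (e₁ : ℝ) - e₂ := by
        apply lt_of_mul_lt_mul_left _ hL.le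
        have : L * k ≤ 1.4 * k := mul_le_mul_of_nonneg_right hL' (by linarith)
        linarith
      have h8 : (k : ℤ) < (e₁ : ℤ) - e₂ := by exact_mod_cast h7
      omega
    have := Pell.n_lt_xn (a := 2) one_lt_two (e₁ - e₂)
    unfold px
    omega

end Crest.Agent.R323
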