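import Crest.Agent.R323.Defs

set_option autoImplicit false

namespace Crest.Agent.R323

namespace REP

/-- `u² = 2 d²` impossible for coprime positive naturals -/
lemma ne_two_sq (u d : ℕ) (hc : Nat.Coprime u d) : u ^ 2 ≠ 2 * d ^ 2 := by
  intro h
  have h2 : 2 ∣ u := by
    have : 2 ∣ u ^ 2 := ⟨d ^ 2, h⟩
    exact Nat.prime_two.dvd_of_dvd_pow this
  obtain ⟨v, rfl⟩ := h2
  have h3 : 2 ∣ d := by
    have : 2 ∣ d ^ 2 := ⟨v ^ 2, by nlinarith⟩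
    exact Nat.prime_two.dvd_of_dvd_pow this
  have := Nat.dvd_gcd (Dvd.intro v rfl) h3
  rw [hc] at this
  omega

lemma ne_two_pow4 (u d : ℕ) (hc : Nat.Coprime u d) : u ^ 4 ≠ 2 * d ^ 4 := by
  intro h
  have := ne_two_sq (u ^ 2) (d ^ 2) (Nat.Coprime.pow 2 2 hc)
  exact this (by rw [← pow_mul, ← pow_mul]; exact h)

end REP

open REP in
theorem rep : StRep := by
  intro G _ pt hG Q e s u d w hQ hM
  obtain ⟨hc, he, hQ⟩ := hQ
  obtain ⟨hs, hu, hd, hw, hcop, heq⟩ := hc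
  have hs2 : s * s = 1 := by rcases hs with h | h <;> rw [h] <;> norm_num
  have he2 : e * e = 1 := by rcases he with h | h <;> rw [h] <;> norm_num
  have hdz : (d : ℤ) ≠ 0 := by exact_mod_cast hd.ne'
  have hdq : (d : ℚ) ≠ 0 := by exact_mod_cast hd.ne'
  have hs2q : (s : ℚ) * s = 1 := by exact_mod_cast hs2
  have he2q : (e : ℚ) * e = 1 := by exact_mod_cast he2
  have heqq : (u : ℚ) ^ 4 - 2 * (d : ℚ) ^ 4 = s * (w : ℚ) ^ 2 := by exact_mod_cast heq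
  -- N ≠ 0
  have hN : (w : ℤ) + s * e * u * d ≠ 0 := by
    intro h
    have h1 : (w : ℤ) ^ 2 = (u : ℤ) ^ 2 * (d : ℤ) ^ 2 := by
      have : (w : ℤ) = - (s * e * u * d) := by linarith
      rw [this]
      linear_combination (u : ℤ) ^ 2 * (d : ℤ) ^ 2 * (e * e) * hs2 + (u : ℤ) ^ 2 * (d : ℤ) ^ 2 * he2
    rcases hs with h2 | h2
    · have h3 : ((u : ℤ) ^ 2 - 2 * (d : ℤ) ^ 2) * ((u : ℤ) ^ 2 + (d : ℤ) ^ 2) = 0 := by
        rw [h2, h1] at heq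
        linear_combination heq
      rcases mul_eq_zero.mp h3 with h4 | h4
      · have h5 : (u : ℤ) ^ 2 = 2 * (d : ℤ) ^ 2 := by linarith
        exact ne_two_sq u d hcop (by exact_mod_cast h5)
      · have : 0 < (d : ℤ) ^ 2 := by positivity
        have : 0 ≤ (u : ℤ) ^ 2 := by positivity
        linarith
    · have h3 : ((u : ℤ) ^ 2 - (d : ℤ) ^ 2) * ((u : ℤ) ^ 2 + 2 * (d : ℤ) ^ 2) = 0 := by
        rw [h2, h1] at heq
        linear_combination heq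
      rcases mul_eq_zero.mp h3 with h4 | h4
      · apply hM
        rw [h2]
        linarith
      · have : 0 < (d : ℤ) ^ 2 := by positivity
        have : 0 ≤ (u : ℤ) ^ 2 := by positivity
        linarith
  set M : ℤ := (d : ℤ) ^ 2 + s * (u : ℤ) ^ 2 with hMdef
  set N : ℤ := (w : ℤ) + s * e * u * d with hNdef
  have hMq : (M : ℚ) = (d : ℚ) ^ 2 + s * (u : ℚ) ^ 2 := by rw [hMdef]; push_cast; ring
  have hNq : (N : ℚ) = (w : ℚ) + s * e * u * d := by rw [hNdef]; push_cast; ring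
  have hMq0 : (M : ℚ) ≠ 0 := by exact_mod_cast hM
  have hNq0 : (N : ℚ) ≠ 0 := by exact_mod_cast hN
  -- lowest terms
  obtain ⟨u', d', hu', hd', hcop', hprop⟩ : ∃ u' d' : ℕ, 0 < u' ∧ 0 < d' ∧ Nat.Coprime u' d' ∧
      (u' : ℤ) * |M| = d' * |N| := by
    have hMn : 0 < M.natAbs := Int.natAbs_pos.mpr hM
    have hNn : 0 < N.natAbs := Int.natAbs_pos.mpr hN
    have hg : 0 < Nat.gcd N.natAbs M.natAbs := Nat.gcd_pos_of_pos_left _ hNn
    obtain ⟨a, b, hab, ha, hb⟩ := Nat.exists_coprime N.natAbs M.natAbs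
    refine ⟨a, b, ?_, ?_, hab, ?_⟩
    · rcases Nat.eq_zero_or_pos a with h | h
      · rw [h, zero_mul] at ha; omega
      · exact h
    · rcases Nat.eq_zero_or_pos b with h | h
      · rw [h, zero_mul] at hb; omega
      · exact h
    · have h1 : (a : ℤ) * (M.natAbs : ℤ) = b * (N.natAbs : ℤ) := by
        have : a * M.natAbs = b * N.natAbs := by
          calc a * M.natAbs = a * (b * N.natAbs.gcd M.natAbs) := by rw [← hb]
            _ = b * (a * N.natAbs.gcd M.natAbs) := by ring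
            _ = b * N.natAbs := by rw [← ha]
        exact_mod_cast this
      rwa [Int.natCast_natAbs, Int.natCast_natAbs] at h1
  have hd'q : (d' : ℚ) ≠ 0 := by exact_mod_cast hd'.ne'
  have hu'q : (u' : ℚ) ≠ 0 := by exact_mod_cast hu'.ne'
  have hprop2 : (u' : ℚ) ^ 2 * (M : ℚ) ^ 2 = (d' : ℚ) ^ 2 * (N : ℚ) ^ 2 := by
    have h1 : ((u' : ℤ) * |M|) ^ 2 = (d' * |N|) ^ 2 := by rw [hprop]
    rw [mul_pow, mul_pow, sq_abs, sq_abs] at h1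
    exact_mod_cast h1
  have hNM : (N : ℚ) ^ 2 / (M : ℚ) ^ 2 = (u' : ℚ) ^ 2 / (d' : ℚ) ^ 2 := by
    rw [div_eq_div_iff (pow_ne_zero 2 hMq0) (pow_ne_zero 2 hd'q)]
    linear_combination -hprop2
  -- the points
  set x : ℚ := (s : ℚ) * (u : ℚ) ^ 2 / (d : ℚ) ^ 2 with hx
  set y : ℚ := (e : ℚ) * u * w / (d : ℚ) ^ 3 with hy
  have hxd : x * (d : ℚ) ^ 2 = s * (u : ℚ) ^ 2 := by rw [hx]; field_simp
  have hyd : y * (d : ℚ) ^ 3 = e * u * w := by rw [hy]; field_simp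
  have hxy : On x y := by
    unfold On
    have h6 : (d : ℚ) ^ 6 ≠ 0 := pow_ne_zero 6 hdq
    apply mul_right_cancel₀ h6
    have h1 : y ^ 2 * (d : ℚ) ^ 6 = (u : ℚ) ^ 2 * (w : ℚ) ^ 2 := by
      calc y ^ 2 * (d : ℚ) ^ 6 = (y * (d : ℚ) ^ 3) ^ 2 := by ring
        _ = ((e : ℚ) * u * w) ^ 2 := by rw [hyd]
        _ = (u : ℚ) ^ 2 * (w : ℚ) ^ 2 := by linear_combination (u : ℚ) ^ 2 * (w : ℚ) ^ 2 * he2q
    have h2 : (x ^ 3 - 2 * x) * (d : ℚ) ^ 6 = (u : ℚ) ^ 2 * (w : ℚ) ^ 2 := by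
      calc (x ^ 3 - 2 * x) * (d : ℚ) ^ 6
          = (x * (d : ℚ) ^ 2) ^ 3 - 2 * (x * (d : ℚ) ^ 2) * (d : ℚ) ^ 4 := by ring
        _ = (s * (u : ℚ) ^ 2) ^ 3 - 2 * (s * (u : ℚ) ^ 2) * (d : ℚ) ^ 4 := by rw [hxd]
        _ = (u : ℚ) ^ 2 * (w : ℚ) ^ 2 := by
            linear_combination (s : ℚ) * (u : ℚ) ^ 2 * heqq +
              ((u : ℚ) ^ 2 * (w : ℚ) ^ 2 + (s : ℚ) * (u : ℚ) ^ 6) * hs2q
    rw [h1, h2]
  have hP : On (-1) 1 := by unfold On; norm_num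
  have hx1d : (x + 1) * (d : ℚ) ^ 2 = M := by
    rw [hMq]; linear_combination hxd
  have hx1 : x + 1 ≠ 0 := by
    intro h
    rw [h, zero_mul] at hx1d
    exact hMq0 hx1d.symm
  have hxne : x ≠ -1 := fun h => hx1 (by rw [h]; norm_num)
  set l : ℚ := (y - 1) / (x + 1) with hl
  have hl1 : l * (x + 1) = y - 1 := by rw [hl]; field_simp
  have hadd := hG.add x y (-1) 1 l hxy hP hxne (by rw [← hl1]; ring)
  set x3 : ℚ := l ^ 2 - x - -1 with hx3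
  set y3 : ℚ := l * (x - x3) - y with hy3
  have hx3val : x3 = -(s : ℚ) * ((N : ℚ) ^ 2 / (M : ℚ) ^ 2) := by
    have h1 : l * (M : ℚ) * d = e * u * w - (d : ℚ) ^ 3 := by
      calc l * (M : ℚ) * d = l * (x + 1) * (d : ℚ) ^ 3 := by rw [← hx1d]; ring
        _ = (y - 1) * (d : ℚ) ^ 3 := by rw [hl1]
        _ = e * u * w - (d : ℚ) ^ 3 := by linear_combination hyd
    rw [mul_div_assoc', eq_div_iff (pow_ne_zero 2 hMq0)]
    apply mul_right_cancel₀ (pow_ne_zero 2 hdq)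
    have h2 : x3 * (M : ℚ) ^ 2 * (d : ℚ) ^ 2 =
        (l * (M : ℚ) * d) ^ 2 - (x * (d : ℚ) ^ 2) * (M : ℚ) ^ 2 + (M : ℚ) ^ 2 * (d : ℚ) ^ 2 := by
      rw [hx3]; ring
    rw [h2, h1, hxd, hMq, hNq]
    have hww : (w : ℚ) ^ 2 = s * ((u : ℚ) ^ 4 - 2 * (d : ℚ) ^ 4) := by
      rw [heqq]; linear_combination -(w : ℚ) ^ 2 * hs2q
    rcases hs with h | h
    · rcases he with h' | h' <;> subst h <;> subst h' <;> push_cast at hww ⊢ <;>
        linear_combination ((u : ℚ) ^ 2 + (d : ℚ) ^ 2) * hww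
    · rcases he with h' | h' <;> subst h <;> subst h' <;> push_cast at hww ⊢ <;>
        linear_combination ((u : ℚ) ^ 2 - (d : ℚ) ^ 2) * hww
  have hx3v : x3 = -(s : ℚ) * ((u' : ℚ) ^ 2 / (d' : ℚ) ^ 2) := by rw [hx3val, hNM]
  have hx3d : x3 * (d' : ℚ) ^ 2 = -(s : ℚ) * (u' : ℚ) ^ 2 := by rw [hx3v]; field_simp
  have hon3 : y3 ^ 2 = x3 ^ 3 - 2 * x3 := by
    apply mul_left_cancel₀ hx1
    have hy1 : y = l * (x + 1) + 1 := by linarith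
    unfold On at hxy
    rw [hy1] at hxy
    rw [hy3, hy1, hx3]
    linear_combination (l ^ 2 - x + 2) * hxy
  -- K
  have hK : ((-s * ((u' : ℤ) ^ 4 - 2 * (d' : ℤ) ^ 4) : ℤ) : ℚ) = (y3 * (d' : ℚ) ^ 3 / u') ^ 2 := by
    push_cast
    rw [div_pow, eq_div_iff (pow_ne_zero 2 hu'q)]
    have h1 : (y3 * (d' : ℚ) ^ 3) ^ 2 =
        (x3 * (d' : ℚ) ^ 2) ^ 3 - 2 * (x3 * (d' : ℚ) ^ 2) * (d' : ℚ) ^ 4 := by
      rw [mul_pow, hon3]; ring
    rw [h1, hx3d]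
    linear_combination (s : ℚ) * (u' : ℚ) ^ 6 * hs2q
  obtain ⟨m, hm⟩ : IsSquare (-s * ((u' : ℤ) ^ 4 - 2 * (d' : ℤ) ^ 4)) := by
    rw [← Rat.isSquare_intCast_iff, hK]
    exact ⟨_, pow_two _⟩
  have hm0 : m ≠ 0 := by
    rintro rfl
    have h1 : (u' : ℤ) ^ 4 - 2 * (d' : ℤ) ^ 4 = 0 := by
      have h2 : s * (-s * ((u' : ℤ) ^ 4 - 2 * (d' : ℤ) ^ 4)) = 0 := by rw [hm]; ring
      linear_combination -h2 - ((u' : ℤ) ^ 4 - 2 * (d' : ℤ) ^ 4) * hs2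
    exact ne_two_pow4 u' d' hcop' (by exact_mod_cast (by linarith : (u' : ℤ) ^ 4 = 2 * (d' : ℤ) ^ 4))
  have hwn : ((m.natAbs : ℕ) : ℤ) ^ 2 = m * m := by rw [Int.natCast_natAbs, sq_abs, sq]
  have hcs : CS (-s) u' d' m.natAbs := by
    refine ⟨?_, hu', hd', Int.natAbs_pos.mpr hm0, hcop', ?_⟩
    · rcases hs with h | h
      · right; rw [h]
      · left; rw [h]; norm_num
    · rw [hwn, ← hm]
      linear_combination -((u' : ℤ) ^ 4 - 2 * (d' : ℤ) ^ 4) * hs2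
  have hsq : (y3 * (d' : ℚ) ^ 3) ^ 2 = ((u' : ℚ) * (m.natAbs : ℚ)) ^ 2 := by
    have h1 : ((m.natAbs : ℕ) : ℚ) ^ 2 = (y3 * (d' : ℚ) ^ 3 / u') ^ 2 := by
      have h0 : ((m.natAbs : ℕ) : ℚ) = (((m.natAbs : ℕ) : ℤ) : ℚ) := (Int.cast_natCast _).symm
      rw [← hK, hm, h0, ← Int.cast_pow, hwn]
    rw [mul_pow (u' : ℚ), h1]
    field_simp
  rcases sq_eq_sq_iff_eq_or_eq_neg.mp hsq with h | h
  · refine ⟨1, u', d', m.natAbs, ⟨hcs, Or.inl rfl, ?_⟩, hprop⟩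
    rw [hQ, hadd, hx3v]
    congr 1
    · push_cast; ring
    · rw [eq_div_iff (pow_ne_zero 3 hd'q), h]; push_cast; ring
  · refine ⟨-1, u', d', m.natAbs, ⟨hcs, Or.inr rfl, ?_⟩, hprop⟩
    rw [hQ, hadd, hx3v]
    congr 1
    · push_cast; ring
    · rw [eq_div_iff (pow_ne_zero 3 hd'q), h]; push_cast; ring

end Crest.Agent.R323
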