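import Crest.Agent.R323.SFLib

/-! YN: `y_a(n)`, `x_a(n)` are single-fold. -/

set_option autoImplicit false

namespace Crest.Agent.R323

namespace YN

theorem ex_G : ∃ G : ℕ, ∀ g ≥ G, g ^ 9 < 2 ^ g := by
  have h := tendsto_pow_const_div_const_pow_of_one_lt 9 (r := (2 : ℝ)) (by norm_num)
  have h2 := (h.eventually (gt_mem_nhds (show (0 : ℝ) < 1 by norm_num)))
  obtain ⟨G, hG⟩ := Filter.eventually_atTop.1 h2
  refine ⟨G, fun g hg => ?_⟩
  have h3 := hG g hg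
  rw [div_lt_one (by positivity)] at h3
  exact_mod_cast h3

theorem two_mul_le_two_pow (a : ℕ) (ha : 1 ≤ a) : 2 * a ≤ 2 ^ a := by
  induction a, ha using Nat.le_induction with
  | base => norm_num
  | succ a ha ih =>
    rw [pow_succ]; omega

/-- all bounds -/
theorem bounds (f : ℕ → ℕ) (hlow : ∀ n, 2 ^ n ≤ f n) (c : ℕ)
    (hup : ∀ n, f n ≤ 2 ^ (c * (n ^ 2 + 1))) (G : ℕ) (hG : ∀ g ≥ G, g ^ 9 < 2 ^ g)
    (a n g A r : ℕ) (ha : 2 ≤ a) (hg : g = (a + n + (G + c + 3)) ^ 2) (hA : A = a + f g)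
    (hr : r = n * (a + c * (g ^ 2 + 1) + 2)) :
    n + 1 < A ∧ (2 * A) ^ n ≤ f r ∧ f r < A ^ (n + A - 2) ∧ a * (2 * a) ^ n + 1 < f g := by
  have hgn : a + n + (G + c + 3) ≤ g := by
    rw [hg]; nlinarith
  have hgn2 : a * n + a + 2 ≤ g := by
    rw [hg]; nlinarith
  have hZ : 2 ^ g ≤ f g := hlow g
  have hgZ : g < 2 ^ g := Nat.lt_two_pow_self
  have hr4 : r ≤ g ^ 4 := by
    have h1 : a + c * (g ^ 2 + 1) + 2 ≤ g ^ 3 := by
      have hc : c + 3 ≤ g := by omega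
      have h2 : c * (g ^ 2 + 1) ≤ (g - 3) * (g ^ 2 + 1) := Nat.mul_le_mul_right _ (by omega)
      obtain ⟨t, rfl⟩ : ∃ t, g = t + 3 := ⟨g - 3, by omega⟩
      have h3 : t + 3 - 3 = t := by omega
      rw [h3] at h2
      have ha' : a ≤ t + 3 := by omega
      nlinarith
    rw [hr]
    calc n * (a + c * (g ^ 2 + 1) + 2) ≤ g * g ^ 3 := Nat.mul_le_mul (by omega) h1
      _ = g ^ 4 := by ring
  have hcr : c * (r ^ 2 + 1) < 2 ^ g := by
    refine lt_of_le_of_lt ?_ (hG g (by omega))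
    have h1 : r ^ 2 ≤ g ^ 8 := by
      calc r ^ 2 ≤ (g ^ 4) ^ 2 := Nat.pow_le_pow_left hr4 2
        _ = g ^ 8 := by ring
    have h2 : c + 1 ≤ g := by omega
    have h3 : c ≤ g ^ 8 := le_trans (by omega) (Nat.le_self_pow (by norm_num) g)
    calc c * (r ^ 2 + 1) ≤ c * (g ^ 8 + 1) := Nat.mul_le_mul_left _ (by omega)
      _ = c * g ^ 8 + c := by ring
      _ ≤ c * g ^ 8 + g ^ 8 := by omega
      _ = (c + 1) * g ^ 8 := by ring
      _ ≤ g * g ^ 8 := Nat.mul_le_mul_right _ h2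
      _ = g ^ 9 := by ring
  refine ⟨?_, ?_, ?_, ?_⟩
  · rw [hA]; omega
  · refine le_trans ?_ (hlow r)
    have h1 : 2 * A ≤ 2 ^ (a + c * (g ^ 2 + 1) + 2) := by
      have h2 : a ≤ 2 ^ a := Nat.lt_two_pow_self.le
      have h3 : f g ≤ 2 ^ (c * (g ^ 2 + 1)) := hup g
      have h4 : 2 ^ a ≤ 2 ^ (a + c * (g ^ 2 + 1)) := Nat.pow_le_pow_right (by norm_num) (by omega)
      have h5 : 2 ^ (c * (g ^ 2 + 1)) ≤ 2 ^ (a + c * (g ^ 2 + 1)) :=
        Nat.pow_le_pow_right (by norm_num) (by omega)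
      rw [pow_add _ _ 2, hA]
      omega
    calc (2 * A) ^ n ≤ (2 ^ (a + c * (g ^ 2 + 1) + 2)) ^ n := Nat.pow_le_pow_left h1 n
      _ = 2 ^ r := by rw [← pow_mul, hr, mul_comm]
  · calc f r ≤ 2 ^ (c * (r ^ 2 + 1)) := hup r
      _ < 2 ^ (2 ^ g) := Nat.pow_lt_pow_right (by norm_num) hcr
      _ ≤ A ^ (2 ^ g) := Nat.pow_le_pow_left (by rw [hA]; omega) _
      _ ≤ A ^ (n + A - 2) := Nat.pow_le_pow_right (by rw [hA]; omega) (by rw [hA]; omega)
  · refine lt_of_lt_of_le ?_ hZ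
    have h1 : 2 * a ≤ 2 ^ a := two_mul_le_two_pow a (by omega)
    have h2 : (2 * a) ^ n ≤ 2 ^ (a * n) := by
      calc (2 * a) ^ n ≤ (2 ^ a) ^ n := Nat.pow_le_pow_left h1 n
        _ = 2 ^ (a * n) := by rw [← pow_mul]
    have h3 : a * (2 * a) ^ n ≤ 2 ^ (a * n + a) := by
      calc a * (2 * a) ^ n ≤ 2 ^ a * 2 ^ (a * n) := Nat.mul_le_mul Nat.lt_two_pow_self.le h2
        _ = 2 ^ (a * n + a) := by rw [← pow_add, add_comm]
    have h4 : 2 ^ (a * n + a) * 4 ≤ 2 ^ g := by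
      have : 2 ^ (a * n + a) * 4 = 2 ^ (a * n + a + 2) := by rw [pow_add _ _ 2]; norm_num
      rw [this]
      exact Nat.pow_le_pow_right (by norm_num) hgn2
    have h5 : 0 < 2 ^ (a * n + a) := by positivity
    omega

theorem xv_le (hP : PellG) (a n : ℕ) (ha : 2 ≤ a) : xv a n ≤ a * yv a n + 1 := by
  have h := hP.eqn a n ha
  by_contra hcon
  push Not at hcon
  have h1 : (a ^ 2 - 1) * yv a n ^ 2 ≤ a ^ 2 * yv a n ^ 2 := Nat.mul_le_mul_right _ (Nat.sub_le _ _)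
  have h2 : (a * yv a n + 1) ^ 2 < xv a n ^ 2 := Nat.pow_lt_pow_left hcon (by norm_num)
  have h3 : (a * yv a n + 1) ^ 2 = a ^ 2 * yv a n ^ 2 + 2 * (a * yv a n) + 1 := by ring
  omega

end YN

open YN in
theorem yn : StYn := by
  rintro ⟨f, hf, hlow, c, hup⟩ hP
  obtain ⟨G, hG⟩ := ex_G
  -- functions
  let a : (Fin 2 → ℕ) → ℕ := fun v => max (v 0) 2
  let n : (Fin 2 → ℕ) → ℕ := fun v => v 1
  let g : (Fin 2 → ℕ) → ℕ := fun v => (a v + n v + (G + c + 3)) ^ 2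
  let Z : (Fin 2 → ℕ) → ℕ := fun v => f (g v)
  let A : (Fin 2 → ℕ) → ℕ := fun v => a v + Z v
  let r : (Fin 2 → ℕ) → ℕ := fun v => n v * (a v + c * (g v ^ 2 + 1) + 2)
  let F : (Fin 2 → ℕ) → ℕ := fun v => f (r v)
  have ha : SFn a := (SFn.proj 0).max (SFn.const 2)
  have hn : SFn n := SFn.proj 1
  have hg : SFn g := ((ha.add hn).add (SFn.const _)).npow 2
  have hZ : SFn Z := SFn.comp1 hf hg
  have hA : SFn A := ha.add hZ
  have hr : SFn r := hn.mul ((ha.add ((SFn.const c).mul ((hg.npow 2).add (SFn.const 1)))).add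
    (SFn.const 2))
  have hF : SFn F := SFn.comp1 hf hr
  have ha2 : ∀ v, 2 ≤ a v := fun v => le_max_right _ _
  have hb : ∀ v, n v + 1 < A v ∧ (2 * A v) ^ n v ≤ F v ∧ F v < A v ^ (n v + A v - 2) ∧
      a v * (2 * a v) ^ n v + 1 < Z v := fun v =>
    bounds f hlow c hup G hG (a v) (n v) (g v) (A v) (r v) (ha2 v) rfl rfl rfl
  have hA2 : ∀ v, 2 ≤ A v := fun v => (ha2 v).trans (Nat.le_add_right _ _)
  -- the relation
  have hR : ∀ (v : Fin 2 → ℕ) (X Y : ℕ), (X ^ 2 = (A v ^ 2 - 1) * Y ^ 2 + 1 ∧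
      Y ≡ n v [MOD (A v - 1)] ∧ Y ≤ F v) ↔ (X = xv (A v) (n v) ∧ Y = yv (A v) (n v)) := by
    intro v X Y
    obtain ⟨b1, b2, b3, b4⟩ := hb v
    constructor
    · rintro ⟨h1, h2, h3⟩
      exact hP.iso (A v) (n v) X Y (hA2 v) b1 h1 h2 (lt_of_le_of_lt h3 b3)
    · rintro ⟨rfl, rfl⟩
      exact ⟨hP.eqn _ _ (hA2 v), hP.cong _ _ (hA2 v), (hP.up _ _ (hA2 v)).trans b2⟩
  have hSF : ∀ {β : Type} (s : Fin 2 → β) (x y : β), SF (fun w : β → ℕ =>
      (w x) ^ 2 = (A (fun i => w (s i)) ^ 2 - 1) * (w y) ^ 2 + 1 ∧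
      w y ≡ n (fun i => w (s i)) [MOD (A (fun i => w (s i)) - 1)] ∧ w y ≤ F (fun i => w (s i))) := by
    intro β s x y
    refine SF.and ?_ (SF.and ?_ ?_)
    · exact SF.eq ((SFn.proj x).npow 2) (((((hA.reindex s).npow 2).sub (SFn.const 1)).mul
        ((SFn.proj y).npow 2)).add (SFn.const 1))
    · exact SF.modEq (SFn.proj y) (hn.reindex s) ((hA.reindex s).sub (SFn.const 1))
    · exact SF.le (SFn.proj y) (hF.reindex s)
  have hY : SFn (fun v : Fin 2 → ℕ => yv (A v) (n v)) := by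
    refine SFn.of_rel (R := fun (v : Fin 2 → ℕ) Y => ∃ X, X ^ 2 = (A v ^ 2 - 1) * Y ^ 2 + 1 ∧
      Y ≡ n v [MOD (A v - 1)] ∧ Y ≤ F v) ?_ ?_
    · refine SF.ex (R := fun (w : Option (Fin 2) → ℕ) X =>
        X ^ 2 = (A (fun i => w (some i)) ^ 2 - 1) * (w none) ^ 2 + 1 ∧
        w none ≡ n (fun i => w (some i)) [MOD (A (fun i => w (some i)) - 1)] ∧
        w none ≤ F (fun i => w (some i))) ?_ ?_
      · exact hSF (fun i => some (some i)) none (some none)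
      · intro w X X' h h'
        exact ((hR (fun i => w (some i)) X (w none)).1 h).1.trans
          ((hR (fun i => w (some i)) X' (w none)).1 h').1.symm
    · intro v Y
      constructor
      · rintro ⟨X, h⟩; exact ((hR v X Y).1 h).2
      · intro h; exact ⟨_, (hR v _ _).2 ⟨rfl, h⟩⟩
  have hX : SFn (fun v : Fin 2 → ℕ => xv (A v) (n v)) := by
    refine SFn.of_rel (R := fun (v : Fin 2 → ℕ) X => ∃ Y, X ^ 2 = (A v ^ 2 - 1) * Y ^ 2 + 1 ∧
      Y ≡ n v [MOD (A v - 1)] ∧ Y ≤ F v) ?_ ?_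
    · refine SF.ex (R := fun (w : Option (Fin 2) → ℕ) Y =>
        (w none) ^ 2 = (A (fun i => w (some i)) ^ 2 - 1) * Y ^ 2 + 1 ∧
        Y ≡ n (fun i => w (some i)) [MOD (A (fun i => w (some i)) - 1)] ∧
        Y ≤ F (fun i => w (some i))) ?_ ?_
      · exact hSF (fun i => some (some i)) (some none) none
      · intro w Y Y' h h'
        exact ((hR (fun i => w (some i)) (w none) Y).1 h).2.trans
          ((hR (fun i => w (some i)) (w none) Y').1 h').2.symm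
    · intro v X
      constructor
      · rintro ⟨Y, h⟩; exact ((hR v X Y).1 h).1
      · intro h; exact ⟨_, (hR v _ _).2 ⟨h, rfl⟩⟩
  have hyb : ∀ v, yv (a v) (n v) < Z v := fun v => by
    have h1 := hP.up (a v) (n v) (ha2 v)
    have h2 := (hb v).2.2.2
    have h3 := ha2 v
    nlinarith [Nat.zero_le ((2 * a v) ^ n v)]
  have hxb : ∀ v, xv (a v) (n v) < Z v := fun v => by
    have h1 := hP.up (a v) (n v) (ha2 v)
    have h2 := (hb v).2.2.2
    have h3 := xv_le hP (a v) (n v) (ha2 v)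
    have h4 : a v * yv (a v) (n v) ≤ a v * (2 * a v) ^ n v := Nat.mul_le_mul_left _ h1
    omega
  constructor
  · refine (SFn.ite_lt (SFn.proj 0) (SFn.const 2) (SFn.const 0) (hY.mod hZ)).congr fun v => ?_
    by_cases h : v 0 < 2
    · rw [if_pos h]
      unfold yv
      rw [dif_neg (by omega)]
    · rw [if_neg h]
      have h1 : a v = v 0 := max_eq_left (by omega)
      have h2 : yv (A v) (n v) ≡ yv (a v) (n v) [MOD Z v] := hP.red (a v) (Z v) (n v) (ha2 v)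
      have h3 : yv (A v) (n v) % Z v = yv (a v) (n v) := by
        have h4 := Nat.mod_eq_of_lt (hyb v)
        rw [← h4]; exact h2
      rw [h3, h1]
  · refine (SFn.ite_lt (SFn.proj 0) (SFn.const 2) (SFn.const 0) (hX.mod hZ)).congr fun v => ?_
    by_cases h : v 0 < 2
    · rw [if_pos h]
      unfold xv
      rw [dif_neg (by omega)]
    · rw [if_neg h]
      have h1 : a v = v 0 := max_eq_left (by omega)
      have h2 : xv (A v) (n v) ≡ xv (a v) (n v) [MOD Z v] := hP.redx (a v) (Z v) (n v) (ha2 v)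
      have h3 : xv (A v) (n v) % Z v = xv (a v) (n v) := by
        have h4 := Nat.mod_eq_of_lt (hxb v)
        rw [← h4]; exact h2
      rw [h3, h1]

end Crest.Agent.R323
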