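import Crest.Agent.R323.CG
import Crest.Agent.R323.REP
import Crest.Agent.R323.DBLR
import Crest.Agent.R323.DESC
import Crest.Agent.R323.CLASS
import Crest.Agent.R323.PAR
import Crest.Agent.R323.EDS
import Crest.Agent.R323.QUAD
import Crest.Agent.R323.READ
import Crest.Agent.R323.PELL3
import Crest.Agent.R323.PELLG
import Crest.Agent.R323.BITS
import Crest.Agent.R323.DIG
import Crest.Agent.R323.EXTR
import Crest.Agent.R323.GEOMF
import Crest.Agent.R323.YN
import Crest.Agent.R323.POW
import Crest.Agent.R323.CLG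
import Crest.Agent.R323.BQ
import Crest.Agent.R323.FIN

/-! Assembly of row 323. -/

set_option autoImplicit false

namespace Crest.Agent.R323

theorem edsEx : ∃ U D W : ℕ → ℕ, Eds U D W := eds curveG rep dblR desc cls par

theorem readS : StRead := read

theorem assemble (hfd : StFd) (hpart : StPart) (n : ℕ) (S : Set (Fin n → ℕ))
    (hS : REPred fun a => a ∈ S) :
    ∃ m : ℕ, 1 ≤ m ∧ ∃ P : MvPolynomial (Fin n ⊕ Fin m) ℤ, ∀ a : Fin n → ℕ,
    (a ∈ S → ∃! w : Fin m → ℕ, MvPolynomial.eval
      (Sum.elim (fun i => (a i : ℤ)) (fun j => (w j : ℤ))) P = 0) ∧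
    (a ∉ S → ∀ w : Fin m → ℕ, MvPolynomial.eval
      (Sum.elim (fun i => (a i : ℤ)) (fun j => (w j : ℤ))) P ≠ 0) := by
  have hF : StF := hfd edsEx quad read pell3
  have hyn := yn hF pellG
  have hpow : SPow := pow hF pellG hyn
  have hch : SChoose := choose chooseF hpow
  have hland : SLand := land oddBits landChar hch
  have hgeom : SGeom := geom geomF hpow
  have hbq : SBQ := bq extr dig digU digS hpow hland hgeom
  exact fin (hpart hbq hpow) n S hS

end Crest.Agent.R323
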