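import Crest.Agent.R323.Defs

/-! Closure library for single-fold predicates. -/

set_option autoImplicit false

namespace Crest.Agent.R323

open Sum

/-! ### polynomials -/

theorem IsPoly.add' {α : Type} {f g : (α → ℕ) → ℤ} (hf : IsPoly f) (hg : IsPoly g) :
    IsPoly (fun v => f v + g v) := hf.add hg

theorem IsPoly.pow' {α : Type} {f : (α → ℕ) → ℤ} (hf : IsPoly f) (n : ℕ) :
    IsPoly (fun v => f v ^ n) := by
  induction n with
  | zero => simpa using IsPoly.const 1
  | succ n ih =>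
    simp only [pow_succ]
    exact ih.mul hf

theorem IsPoly.sum' {α ι : Type} (s : Finset ι) {f : ι → (α → ℕ) → ℤ} (hf : ∀ i, IsPoly (f i)) :
    IsPoly (fun v => ∑ i ∈ s, f i v) := by
  classical
  induction s using Finset.induction_on with
  | empty => simpa using IsPoly.const 0
  | insert a s ha ih =>
    simp only [Finset.sum_insert ha]
    exact IsPoly.add' (hf a) ih

theorem IsPoly.reindex {α β : Type} {p : (α → ℕ) → ℤ} (hp : IsPoly p) (f : α → β) :
    IsPoly (fun v : β → ℕ => p (fun a => v (f a))) := by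
  induction hp with
  | proj i => exact IsPoly.proj (f i)
  | const n => exact IsPoly.const n
  | sub _ _ h1 h2 => exact h1.sub h2
  | mul _ _ h1 h2 => exact h1.mul h2

/-! ### `SF` -/

theorem SF.of_type {α β : Type} [Fintype β] {R : (α → ℕ) → Prop} (p : (α ⊕ β → ℕ) → ℤ)
    (hp : IsPoly p) (h : ∀ v : α → ℕ, (R v ↔ ∃ t : β → ℕ, p (Sum.elim v t) = 0) ∧
      ∀ t t' : β → ℕ, p (Sum.elim v t) = 0 → p (Sum.elim v t') = 0 → t = t') : SF R := by
  classical
  let e : β ≃ Fin (Fintype.card β) := Fintype.equivFin β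
  have key : ∀ (v : α → ℕ) (t : Fin (Fintype.card β) → ℕ),
      (fun a : α ⊕ β => Sum.elim v t (Sum.map id e a)) = Sum.elim v (fun b => t (e b)) := by
    intro v t
    funext a
    cases a <;> rfl
  refine ⟨Fintype.card β, fun v => p (fun a => v (Sum.map id e a)), IsPoly.reindex hp _, fun v => ⟨?_, ?_⟩⟩
  · rw [(h v).1]
    constructor
    · rintro ⟨t, ht⟩
      refine ⟨fun j => t (e.symm j), ?_⟩
      show p (fun a => Sum.elim v (fun j => t (e.symm j)) (Sum.map id e a)) = 0
      rw [key]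
      simpa using ht
    · rintro ⟨t, ht⟩
      refine ⟨fun b => t (e b), ?_⟩
      have ht' : p (fun a => Sum.elim v t (Sum.map id e a)) = 0 := ht
      rw [key] at ht'
      exact ht'
  · intro t t' ht ht'
    have h1 : p (fun a => Sum.elim v t (Sum.map id e a)) = 0 := ht
    have h2 : p (fun a => Sum.elim v t' (Sum.map id e a)) = 0 := ht'
    rw [key] at h1 h2
    have h3 := (h v).2 _ _ h1 h2
    funext j
    have := congrFun h3 (e.symm j)
    simpa using this

theorem SF.congr {α : Type} {R R' : (α → ℕ) → Prop} (h : SF R) (hR : ∀ v, R v ↔ R' v) : SF R' := by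
  have : R = R' := funext fun v => propext (hR v)
  rw [← this]; exact h

theorem SF.reindex {α β : Type} {R : (α → ℕ) → Prop} (h : SF R) (f : α → β) :
    SF (fun v : β → ℕ => R (fun a => v (f a))) := by
  obtain ⟨k, p, hp, hv⟩ := h
  have key : ∀ (v : β → ℕ) (t : Fin k → ℕ),
      (fun a : α ⊕ Fin k => Sum.elim v t (Sum.map f id a)) = Sum.elim (fun a => v (f a)) t := by
    intro v t
    funext a
    cases a <;> rfl
  refine ⟨k, fun v => p (fun a => v (Sum.map f id a)), IsPoly.reindex hp _, fun v => ?_⟩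
  simp only [key]
  exact hv _

/-- unique existential quantifier over a finite family -/
theorem SF.exType {α γ : Type} [Fintype γ] {R : (α → ℕ) → (γ → ℕ) → Prop}
    (h : SF (fun v : α ⊕ γ → ℕ => R (fun a => v (inl a)) (fun c => v (inr c))))
    (hu : ∀ v t t', R v t → R v t' → t = t') : SF (fun v => ∃ t : γ → ℕ, R v t) := by
  obtain ⟨k, p, hp, hv⟩ := h
  let f : (α ⊕ γ) ⊕ Fin k → α ⊕ (γ ⊕ Fin k) := fun x =>
    match x with
    | inl (inl a) => inl a
    | inl (inr c) => inr (inl c)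
    | inr j => inr (inr j)
  have key : ∀ (v : α → ℕ) (t : γ ⊕ Fin k → ℕ),
      (fun a => Sum.elim v t (f a)) = Sum.elim (Sum.elim v (fun c => t (inl c)))
        (fun j => t (inr j)) := by
    intro v t
    funext a
    rcases a with (a | c) | j <;> rfl
  refine SF.of_type (β := γ ⊕ Fin k) (fun v => p (fun a => v (f a))) (IsPoly.reindex hp _) fun v => ⟨?_, ?_⟩
  · simp only [key]
    constructor
    · rintro ⟨t, ht⟩
      obtain ⟨s, hs⟩ := ((hv (Sum.elim v t)).1).1 ht
      exact ⟨Sum.elim t s, hs⟩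
    · rintro ⟨t, ht⟩
      exact ⟨fun c => t (inl c), ((hv (Sum.elim v fun c => t (inl c))).1).2 ⟨_, ht⟩⟩
  · intro t t' ht ht'
    have ht2 : p (fun a => Sum.elim v t (f a)) = 0 := ht
    have ht2' : p (fun a => Sum.elim v t' (f a)) = 0 := ht'
    rw [key] at ht2 ht2'
    have h1 : R v (fun c => t (inl c)) :=
      ((hv (Sum.elim v fun c => t (inl c))).1).2 ⟨_, ht2⟩
    have h2 : R v (fun c => t' (inl c)) :=
      ((hv (Sum.elim v fun c => t' (inl c))).1).2 ⟨_, ht2'⟩
    have h3 := hu v _ _ h1 h2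
    rw [← h3] at ht2'
    have h4 := (hv _).2 _ _ ht2 ht2'
    funext x
    rcases x with c | j
    · exact congrFun h3 c
    · exact congrFun h4 j

theorem SF.exN {α : Type} {n : ℕ} {R : (α → ℕ) → (Fin n → ℕ) → Prop}
    (h : SF (fun v : α ⊕ Fin n → ℕ => R (fun a => v (inl a)) (fun c => v (inr c))))
    (hu : ∀ v t t', R v t → R v t' → t = t') : SF (fun v => ∃ t : Fin n → ℕ, R v t) :=
  SF.exType h hu

/-- unique existential quantifier over one variable -/
theorem SF.ex {α : Type} {R : (α → ℕ) → ℕ → Prop}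
    (h : SF (fun v : Option α → ℕ => R (fun a => v (some a)) (v none)))
    (hu : ∀ v y y', R v y → R v y' → y = y') : SF (fun v => ∃ y, R v y) := by
  have h1 : SF (fun v : α ⊕ Unit → ℕ => R (fun a => v (inl a)) (v (inr ()))) :=
    h.reindex (fun o : Option α => match o with
      | none => inr ()
      | some a => inl a)
  have h2 : SF (fun v : α → ℕ => ∃ t : Unit → ℕ, R v (t ())) := by
    refine SF.exType (R := fun v t => R v (t ())) h1 ?_
    intro v t t' ht ht'
    funext u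
    exact hu v _ _ ht ht'
  refine h2.congr fun v => ?_
  constructor
  · rintro ⟨t, ht⟩; exact ⟨t (), ht⟩
  · rintro ⟨y, hy⟩; exact ⟨fun _ => y, hy⟩

/-- finite conjunction -/
theorem SF.all {α ι : Type} [Fintype ι] {R : ι → (α → ℕ) → Prop} (h : ∀ i, SF (R i)) :
    SF (fun v => ∀ i, R i v) := by
  choose k p hp hv using h
  let f : (i : ι) → α ⊕ Fin (k i) → α ⊕ ((i : ι) × Fin (k i)) := fun i x =>
    match x with
    | inl a => inl a
    | inr j => inr ⟨i, j⟩
  have key : ∀ (i : ι) (v : α → ℕ) (t : ((i : ι) × Fin (k i)) → ℕ),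
      (fun a => Sum.elim v t (f i a)) = Sum.elim v (fun j => t ⟨i, j⟩) := by
    intro i v t
    funext a
    rcases a with a | j <;> rfl
  refine SF.of_type (β := (i : ι) × Fin (k i))
    (fun v => ∑ i, (p i (fun a => v (f i a))) ^ 2)
    (IsPoly.sum' _ fun i => IsPoly.pow' (IsPoly.reindex (hp i) (f i)) 2) fun v => ?_
  have hz : ∀ t : ((i : ι) × Fin (k i)) → ℕ,
      (∑ i, (p i (fun a => Sum.elim v t (f i a))) ^ 2 = 0) ↔
        ∀ i, p i (Sum.elim v (fun j => t ⟨i, j⟩)) = 0 := by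
    intro t
    rw [Finset.sum_eq_zero_iff_of_nonneg fun i _ => sq_nonneg _]
    constructor
    · intro h i
      have := h i (Finset.mem_univ i)
      rw [key] at this
      exact pow_eq_zero_iff (two_ne_zero) |>.1 this
    · intro h i _
      rw [key, h i]; norm_num
  constructor
  · constructor
    · intro hR
      have : ∀ i, ∃ t : Fin (k i) → ℕ, p i (Sum.elim v t) = 0 := fun i => ((hv i v).1).1 (hR i)
      choose t ht using this
      exact ⟨fun x => t x.1 x.2, (hz _).2 fun i => ht i⟩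
    · rintro ⟨t, ht⟩ i
      exact ((hv i v).1).2 ⟨_, (hz t).1 ht i⟩
  · intro t t' ht ht'
    have h1 := (hz t).1 ht
    have h2 := (hz t').1 ht'
    funext ⟨i, j⟩
    exact congrFun ((hv i v).2 _ _ (h1 i) (h2 i)) j

theorem SF.and {α : Type} {R S : (α → ℕ) → Prop} (hR : SF R) (hS : SF S) :
    SF (fun v => R v ∧ S v) := by
  have h := SF.all (ι := Bool) (R := fun b v => if b then R v else S v)
    (fun b => by cases b <;> simpa)
  refine h.congr fun v => ?_
  simp [and_comm]

theorem SF.poly {α : Type} {p : (α → ℕ) → ℤ} (hp : IsPoly p) : SF (fun v => p v = 0) := by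
  refine SF.of_type (β := Empty) (fun v => p (fun a => v (inl a))) (IsPoly.reindex hp _) fun v => ⟨?_, ?_⟩
  · constructor
    · intro h; exact ⟨fun e => e.elim, h⟩
    · rintro ⟨t, ht⟩; exact ht
  · intro t t' _ _
    funext e
    exact e.elim

/-- disjoint disjunction -/
theorem SF.or {α : Type} {R S : (α → ℕ) → Prop} (hR : SF R) (hS : SF S)
    (hd : ∀ v, R v → S v → False) : SF (fun v => R v ∨ S v) := by
  obtain ⟨k, p, hp, hv⟩ := hR
  obtain ⟨l, q, hq, hw⟩ := hS
  let f : α ⊕ Fin k → α ⊕ Option (Fin k ⊕ Fin l) := fun x =>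
    match x with
    | inl a => inl a
    | inr j => inr (some (inl j))
  let g : α ⊕ Fin l → α ⊕ Option (Fin k ⊕ Fin l) := fun x =>
    match x with
    | inl a => inl a
    | inr j => inr (some (inr j))
  have keyf : ∀ (v : α → ℕ) (t : Option (Fin k ⊕ Fin l) → ℕ),
      (fun a => Sum.elim v t (f a)) = Sum.elim v (fun j => t (some (inl j))) := by
    intro v t; funext a; rcases a with a | j <;> rfl
  have keyg : ∀ (v : α → ℕ) (t : Option (Fin k ⊕ Fin l) → ℕ),
      (fun a => Sum.elim v t (g a)) = Sum.elim v (fun j => t (some (inr j))) := by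
    intro v t; funext a; rcases a with a | j <;> rfl
  let F : (α ⊕ Option (Fin k ⊕ Fin l) → ℕ) → ℤ := fun v =>
    (((v (inr none) : ℕ) : ℤ) ^ 2 + (p (fun a => v (f a))) ^ 2) +
      ∑ j : Fin l, ((v (inr (some (inr j))) : ℕ) : ℤ) ^ 2
  let G : (α ⊕ Option (Fin k ⊕ Fin l) → ℕ) → ℤ := fun v =>
    ((((v (inr none) : ℕ) : ℤ) - 1) ^ 2 + (q (fun a => v (g a))) ^ 2) +
      ∑ j : Fin k, ((v (inr (some (inl j))) : ℕ) : ℤ) ^ 2
  have hF : IsPoly F := by
    refine IsPoly.add' (IsPoly.add' (IsPoly.pow' (IsPoly.proj _) 2)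
      (IsPoly.pow' (IsPoly.reindex hp _) 2)) (IsPoly.sum' _ fun j => IsPoly.pow' (IsPoly.proj _) 2)
  have hG : IsPoly G := by
    refine IsPoly.add' (IsPoly.add' (IsPoly.pow' ((IsPoly.proj _).sub (IsPoly.const 1)) 2)
      (IsPoly.pow' (IsPoly.reindex hq _) 2)) (IsPoly.sum' _ fun j => IsPoly.pow' (IsPoly.proj _) 2)
  have hF0 : ∀ (v : α → ℕ) (t : Option (Fin k ⊕ Fin l) → ℕ), F (Sum.elim v t) = 0 ↔
      t none = 0 ∧ p (Sum.elim v (fun j => t (some (inl j)))) = 0 ∧ ∀ j, t (some (inr j)) = 0 := by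
    intro v t
    have h1 : F (Sum.elim v t) = (((t none : ℕ) : ℤ) ^ 2 +
        (p (Sum.elim v (fun j => t (some (inl j))))) ^ 2) +
        ∑ j : Fin l, ((t (some (inr j)) : ℕ) : ℤ) ^ 2 := by
      show (((t none : ℕ) : ℤ) ^ 2 + (p (fun a => Sum.elim v t (f a))) ^ 2) + _ = _
      rw [keyf]; rfl
    rw [h1]
    have hs : 0 ≤ ∑ j : Fin l, ((t (some (inr j)) : ℕ) : ℤ) ^ 2 :=
      Finset.sum_nonneg fun j _ => sq_nonneg _
    constructor
    · intro h
      have ha := sq_nonneg ((t none : ℕ) : ℤ)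
      have hb := sq_nonneg (p (Sum.elim v (fun j => t (some (inl j)))))
      have e1 : ((t none : ℕ) : ℤ) ^ 2 = 0 := by linarith
      have e2 : (p (Sum.elim v (fun j => t (some (inl j))))) ^ 2 = 0 := by linarith
      have e3 : ∑ j : Fin l, ((t (some (inr j)) : ℕ) : ℤ) ^ 2 = 0 := by linarith
      refine ⟨by simpa using e1, by simpa using e2, fun j => ?_⟩
      have := (Finset.sum_eq_zero_iff_of_nonneg fun i _ => sq_nonneg _).1 e3 j (Finset.mem_univ j)
      simpa using this
    · rintro ⟨h1, h2, h3⟩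
      simp [h1, h2, h3]
  have hG0 : ∀ (v : α → ℕ) (t : Option (Fin k ⊕ Fin l) → ℕ), G (Sum.elim v t) = 0 ↔
      t none = 1 ∧ q (Sum.elim v (fun j => t (some (inr j)))) = 0 ∧ ∀ j, t (some (inl j)) = 0 := by
    intro v t
    have h1 : G (Sum.elim v t) = ((((t none : ℕ) : ℤ) - 1) ^ 2 +
        (q (Sum.elim v (fun j => t (some (inr j))))) ^ 2) +
        ∑ j : Fin k, ((t (some (inl j)) : ℕ) : ℤ) ^ 2 := by
      show ((((t none : ℕ) : ℤ) - 1) ^ 2 + (q (fun a => Sum.elim v t (g a))) ^ 2) + _ = _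
      rw [keyg]; rfl
    rw [h1]
    have hs : 0 ≤ ∑ j : Fin k, ((t (some (inl j)) : ℕ) : ℤ) ^ 2 :=
      Finset.sum_nonneg fun j _ => sq_nonneg _
    constructor
    · intro h
      have ha := sq_nonneg (((t none : ℕ) : ℤ) - 1)
      have hb := sq_nonneg (q (Sum.elim v (fun j => t (some (inr j)))))
      have e1 : (((t none : ℕ) : ℤ) - 1) ^ 2 = 0 := by linarith
      have e2 : (q (Sum.elim v (fun j => t (some (inr j))))) ^ 2 = 0 := by linarith
      have e3 : ∑ j : Fin k, ((t (some (inl j)) : ℕ) : ℤ) ^ 2 = 0 := by linarith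
      refine ⟨?_, by simpa using e2, fun j => ?_⟩
      · have : ((t none : ℕ) : ℤ) - 1 = 0 := by simpa using e1
        omega
      · have := (Finset.sum_eq_zero_iff_of_nonneg fun i _ => sq_nonneg _).1 e3 j (Finset.mem_univ j)
        simpa using this
    · rintro ⟨h1, h2, h3⟩
      simp [h1, h2, h3]
  refine SF.of_type (β := Option (Fin k ⊕ Fin l)) (fun v => F v * G v) (hF.mul hG)
    fun v => ⟨?_, ?_⟩
  · constructor
    · rintro (h | h)
      · obtain ⟨t, ht⟩ := ((hv v).1).1 h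
        refine ⟨fun o => match o with
          | none => 0
          | some (inl j) => t j
          | some (inr _) => 0, ?_⟩
        show F _ * G _ = 0
        have : F (Sum.elim v (fun o : Option (Fin k ⊕ Fin l) => match o with
          | none => 0
          | some (inl j) => t j
          | some (inr _) => 0)) = 0 := (hF0 _ _).2 ⟨rfl, ht, fun _ => rfl⟩
        rw [this, zero_mul]
      · obtain ⟨t, ht⟩ := ((hw v).1).1 h
        refine ⟨fun o => match o with
          | none => 1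
          | some (inl _) => 0
          | some (inr j) => t j, ?_⟩
        show F _ * G _ = 0
        have : G (Sum.elim v (fun o : Option (Fin k ⊕ Fin l) => match o with
          | none => 1
          | some (inl _) => 0
          | some (inr j) => t j)) = 0 := (hG0 _ _).2 ⟨rfl, ht, fun _ => rfl⟩
        rw [this, mul_zero]
    · rintro ⟨t, ht⟩
      rcases mul_eq_zero.1 ht with h | h
      · exact Or.inl (((hv v).1).2 ⟨_, ((hF0 v t).1 h).2.1⟩)
      · exact Or.inr (((hw v).1).2 ⟨_, ((hG0 v t).1 h).2.1⟩)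
  · intro t t' ht ht'
    rcases mul_eq_zero.1 ht with h | h <;> rcases mul_eq_zero.1 ht' with h' | h'
    · obtain ⟨a1, a2, a3⟩ := (hF0 v t).1 h
      obtain ⟨b1, b2, b3⟩ := (hF0 v t').1 h'
      have h4 := (hv v).2 _ _ a2 b2
      funext o
      rcases o with _ | (j | j)
      · rw [a1, b1]
      · exact congrFun h4 j
      · rw [a3, b3]
    · exact (hd v (((hv v).1).2 ⟨_, ((hF0 v t).1 h).2.1⟩)
        (((hw v).1).2 ⟨_, ((hG0 v t').1 h').2.1⟩)).elim
    · exact (hd v (((hv v).1).2 ⟨_, ((hF0 v t').1 h').2.1⟩)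
        (((hw v).1).2 ⟨_, ((hG0 v t).1 h).2.1⟩)).elim
    · obtain ⟨a1, a2, a3⟩ := (hG0 v t).1 h
      obtain ⟨b1, b2, b3⟩ := (hG0 v t').1 h'
      have h4 := (hw v).2 _ _ a2 b2
      funext o
      rcases o with _ | (j | j)
      · rw [a1, b1]
      · rw [a3, b3]
      · exact congrFun h4 j

/-! ### `SFn`: single-fold functions -/

theorem SF.const {α : Type} (P : Prop) : SF (fun _ : α → ℕ => P) := by
  rcases em P with h | h
  · exact (SF.poly (IsPoly.const 0)).congr fun v => by simp [h]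
  · exact (SF.poly (IsPoly.const 1)).congr fun v => by simp [h]

theorem SF.true {α : Type} : SF (fun _ : α → ℕ => True) :=
  (SF.poly (IsPoly.const 0)).congr fun v => by simp

theorem SF.false {α : Type} : SF (fun _ : α → ℕ => False) :=
  (SF.poly (IsPoly.const 1)).congr fun v => by simp

theorem SFn.congr {α : Type} {f g : (α → ℕ) → ℕ} (h : SFn f) (hf : ∀ v, f v = g v) : SFn g := by
  have : f = g := funext hf
  rw [← this]; exact h

/-- a functional single-fold relation gives a single-fold function -/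
theorem SFn.of_rel {α : Type} {f : (α → ℕ) → ℕ} {R : (α → ℕ) → ℕ → Prop}
    (hR : SF (fun v : Option α → ℕ => R (fun a => v (some a)) (v none)))
    (h : ∀ v y, R v y ↔ y = f v) : SFn f :=
  SF.congr hR fun v => h _ _

theorem SFn.reindex {α β : Type} {f : (α → ℕ) → ℕ} (hf : SFn f) (s : α → β) :
    SFn (fun v : β → ℕ => f (fun a => v (s a))) :=
  SF.reindex hf (Option.map s)

theorem SFn.of_poly {α : Type} {f : (α → ℕ) → ℕ} {p : (α → ℕ) → ℤ} (hp : IsPoly p)
    (h : ∀ v, (f v : ℤ) = p v) : SFn f := by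
  have h1 : IsPoly (fun v : Option α → ℕ => ((v none : ℕ) : ℤ) - p (fun a => v (some a))) :=
    (IsPoly.proj _).sub (IsPoly.reindex hp some)
  refine (SF.poly h1).congr fun v => ?_
  rw [← h]
  constructor
  · intro h; omega
  · intro h; omega

theorem SFn.proj {α : Type} (a : α) : SFn (fun v : α → ℕ => v a) :=
  SFn.of_poly (IsPoly.proj a) fun _ => rfl

theorem SFn.const {α : Type} (c : ℕ) : SFn (fun _ : α → ℕ => c) :=
  SFn.of_poly (IsPoly.const c) fun _ => rfl

/-- composition -/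
theorem SF.comp {α ι : Type} [Fintype ι] {R : (ι → ℕ) → Prop} (hR : SF R)
    {g : ι → (α → ℕ) → ℕ} (hg : ∀ i, SFn (g i)) : SF (fun v => R (fun i => g i v)) := by
  have h1 : SF (fun v : α ⊕ ι → ℕ => (∀ i, v (inr i) = g i (fun a => v (inl a))) ∧
      R (fun c => v (inr c))) := by
    refine SF.and (SF.all fun i => ?_) (hR.reindex inr)
    exact SF.reindex (hg i) (fun o : Option α => match o with
      | none => inr i
      | some a => inl a)
  have h2 := SF.exType (R := fun (v : α → ℕ) (t : ι → ℕ) => (∀ i, t i = g i v) ∧ R t) h1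
    (by
      rintro v t t' ⟨h, _⟩ ⟨h', _⟩
      funext i
      rw [h, h'])
  refine h2.congr fun v => ?_
  constructor
  · rintro ⟨t, ht, hRt⟩
    have : t = fun i => g i v := funext ht
    rw [← this]; exact hRt
  · intro h
    exact ⟨_, fun i => rfl, h⟩

theorem SFn.comp {α ι : Type} [Fintype ι] {f : (ι → ℕ) → ℕ} (hf : SFn f)
    {g : ι → (α → ℕ) → ℕ} (hg : ∀ i, SFn (g i)) : SFn (fun v => f (fun i => g i v)) := by
  have h := SF.comp (R := fun w : Option ι → ℕ => w none = f (fun i => w (some i))) hf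
    (g := fun o => match o with
      | none => fun v : Option α → ℕ => v none
      | some i => fun v : Option α → ℕ => g i (fun a => v (some a)))
    (by
      intro o
      cases o with
      | none => exact SFn.proj none
      | some i => exact (hg i).reindex some)
  exact h

theorem SF.comp1 {α : Type} {R : ℕ → Prop} (hR : SF (fun v : Fin 1 → ℕ => R (v 0)))
    {f : (α → ℕ) → ℕ} (hf : SFn f) : SF (fun v => R (f v)) :=
  SF.comp (g := fun _ => f) hR fun _ => hf

theorem SF.comp2 {α : Type} {R : ℕ → ℕ → Prop} (hR : SF (fun v : Fin 2 → ℕ => R (v 0) (v 1)))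
    {f g : (α → ℕ) → ℕ} (hf : SFn f) (hg : SFn g) : SF (fun v => R (f v) (g v)) := by
  refine SF.comp (g := ![f, g]) hR fun i => ?_
  fin_cases i
  · exact hf
  · exact hg

theorem SF.comp3 {α : Type} {R : ℕ → ℕ → ℕ → Prop}
    (hR : SF (fun v : Fin 3 → ℕ => R (v 0) (v 1) (v 2)))
    {f g h : (α → ℕ) → ℕ} (hf : SFn f) (hg : SFn g) (hh : SFn h) :
    SF (fun v => R (f v) (g v) (h v)) := by
  refine SF.comp (g := ![f, g, h]) hR fun i => ?_
  fin_cases i
  · exact hf
  · exact hg
  · exact hh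

theorem SFn.comp1 {α : Type} {F : ℕ → ℕ} (hF : SFn (fun v : Fin 1 → ℕ => F (v 0)))
    {f : (α → ℕ) → ℕ} (hf : SFn f) : SFn (fun v => F (f v)) :=
  SFn.comp (g := fun _ => f) hF fun _ => hf

theorem SFn.comp2 {α : Type} {F : ℕ → ℕ → ℕ} (hF : SFn (fun v : Fin 2 → ℕ => F (v 0) (v 1)))
    {f g : (α → ℕ) → ℕ} (hf : SFn f) (hg : SFn g) : SFn (fun v => F (f v) (g v)) := by
  refine SFn.comp (g := ![f, g]) hF fun i => ?_
  fin_cases i
  · exact hf
  · exact hg

theorem SFn.comp3 {α : Type} {F : ℕ → ℕ → ℕ → ℕ}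
    (hF : SFn (fun v : Fin 3 → ℕ => F (v 0) (v 1) (v 2)))
    {f g h : (α → ℕ) → ℕ} (hf : SFn f) (hg : SFn g) (hh : SFn h) :
    SFn (fun v => F (f v) (g v) (h v)) := by
  refine SFn.comp (g := ![f, g, h]) hF fun i => ?_
  fin_cases i
  · exact hf
  · exact hg
  · exact hh

/-- substitute a function for the extra variable (possibly infinitely many other variables) -/
theorem SF.subst {α : Type} {R : (α → ℕ) → ℕ → Prop}
    (h : SF (fun v : Option α → ℕ => R (fun a => v (some a)) (v none)))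
    {f : (α → ℕ) → ℕ} (hf : SFn f) : SF (fun v => R v (f v)) := by
  have h1 : SF (fun v => ∃ y, y = f v ∧ R v y) :=
    SF.ex (R := fun v y => y = f v ∧ R v y) (SF.and hf h)
      (by rintro v y y' ⟨h1, _⟩ ⟨h2, _⟩; rw [h1, h2])
  refine h1.congr fun v => ?_
  constructor
  · rintro ⟨y, rfl, h⟩; exact h
  · intro h; exact ⟨_, rfl, h⟩

theorem SFn.subst {α : Type} {F : (α → ℕ) → ℕ → ℕ}
    (h : SFn (fun v : Option α → ℕ => F (fun a => v (some a)) (v none)))
    {f : (α → ℕ) → ℕ} (hf : SFn f) : SFn (fun v => F v (f v)) := by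
  have h1 : SF (fun v : Option (Option α) → ℕ =>
      v (some none) = F (fun a => v (some (some a))) (v none)) :=
    SF.reindex h (fun o : Option (Option α) => match o with
      | none => some none
      | some none => none
      | some (some a) => some (some a))
  exact SF.subst (R := fun (v : Option α → ℕ) (y : ℕ) => v none = F (fun a => v (some a)) y) h1
    (hf.reindex some)

theorem SFn.add {α : Type} {f g : (α → ℕ) → ℕ} (hf : SFn f) (hg : SFn g) :
    SFn (fun v => f v + g v) :=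
  SFn.comp2 (F := fun x y => x + y)
    (SFn.of_poly ((IsPoly.proj (0 : Fin 2)).add (IsPoly.proj 1)) fun v => by simp) hf hg

theorem SFn.mul {α : Type} {f g : (α → ℕ) → ℕ} (hf : SFn f) (hg : SFn g) :
    SFn (fun v => f v * g v) :=
  SFn.comp2 (F := fun x y => x * y)
    (SFn.of_poly ((IsPoly.proj (0 : Fin 2)).mul (IsPoly.proj 1)) fun v => by simp) hf hg

theorem SFn.npow {α : Type} {f : (α → ℕ) → ℕ} (hf : SFn f) (n : ℕ) :
    SFn (fun v => f v ^ n) := by
  induction n with
  | zero => simpa using SFn.const 1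
  | succ n ih =>
    simp only [pow_succ]
    exact ih.mul hf

theorem SFn.sum {α ι : Type} (s : Finset ι) {f : ι → (α → ℕ) → ℕ} (hf : ∀ i, SFn (f i)) :
    SFn (fun v => ∑ i ∈ s, f i v) := by
  classical
  induction s using Finset.induction_on with
  | empty => simpa using SFn.const 0
  | insert a s ha ih =>
    simp only [Finset.sum_insert ha]
    exact (hf a).add ih

/-! ### relations -/

theorem SF.eq {α : Type} {f g : (α → ℕ) → ℕ} (hf : SFn f) (hg : SFn g) :
    SF (fun v => f v = g v) :=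
  SF.comp2 (R := fun x y => x = y)
    ((SF.poly ((IsPoly.proj (0 : Fin 2)).sub (IsPoly.proj 1))).congr fun v => by omega) hf hg

theorem SF.le {α : Type} {f g : (α → ℕ) → ℕ} (hf : SFn f) (hg : SFn g) :
    SF (fun v => f v ≤ g v) := by
  refine SF.comp2 (R := fun x y => x ≤ y) ?_ hf hg
  have h : SF (fun v : Fin 2 → ℕ => ∃ y, v 0 + y = v 1) :=
    SF.ex (R := fun (v : Fin 2 → ℕ) y => v 0 + y = v 1)
      (SF.eq ((SFn.proj _).add (SFn.proj _)) (SFn.proj _)) (by intro v y y' h h'; omega)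
  refine h.congr fun v => ?_
  constructor
  · rintro ⟨y, h⟩; omega
  · intro h; exact ⟨v 1 - v 0, by omega⟩

theorem SF.lt {α : Type} {f g : (α → ℕ) → ℕ} (hf : SFn f) (hg : SFn g) :
    SF (fun v => f v < g v) :=
  (SF.le (hf.add (SFn.const 1)) hg).congr fun v => by omega

theorem SF.ne {α : Type} {f g : (α → ℕ) → ℕ} (hf : SFn f) (hg : SFn g) :
    SF (fun v => f v ≠ g v) :=
  (SF.or (SF.lt hf hg) (SF.lt hg hf) (by intro v h h'; omega)).congr fun v => by omega

/-- case distinction -/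
theorem SF.cases {α : Type} {c R S : (α → ℕ) → Prop} (hc : SF c) (hc' : SF (fun v => ¬ c v))
    (hR : SF R) (hS : SF S) : SF (fun v => (c v → R v) ∧ (¬ c v → S v)) := by
  refine (SF.or (hc.and hR) (hc'.and hS) (by rintro v ⟨h, _⟩ ⟨h', _⟩; exact h' h)).congr fun v => ?_
  by_cases h : c v <;> simp [h]

theorem SFn.ite {α : Type} {c : (α → ℕ) → Prop} [DecidablePred c] (hc : SF c)
    (hc' : SF (fun v => ¬ c v)) {f g : (α → ℕ) → ℕ} (hf : SFn f) (hg : SFn g) :
    SFn (fun v => if c v then f v else g v) := by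
  refine SFn.of_rel (R := fun v y => (c v → y = f v) ∧ (¬ c v → y = g v))
    (SF.cases (hc.reindex some) (hc'.reindex some) hf hg) ?_
  intro v y
  by_cases h : c v <;> simp [h]

theorem SFn.ite_eq {α : Type} {a b f g : (α → ℕ) → ℕ} (ha : SFn a) (hb : SFn b)
    (hf : SFn f) (hg : SFn g) : SFn (fun v => if a v = b v then f v else g v) :=
  SFn.ite (c := fun v => a v = b v) (SF.eq ha hb) (SF.ne ha hb) hf hg

theorem SFn.ite_lt {α : Type} {a b f g : (α → ℕ) → ℕ} (ha : SFn a) (hb : SFn b)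
    (hf : SFn f) (hg : SFn g) : SFn (fun v => if a v < b v then f v else g v) :=
  SFn.ite (c := fun v => a v < b v) (SF.lt ha hb)
    ((SF.le hb ha).congr fun v => by omega) hf hg

theorem SFn.ite_le {α : Type} {a b f g : (α → ℕ) → ℕ} (ha : SFn a) (hb : SFn b)
    (hf : SFn f) (hg : SFn g) : SFn (fun v => if a v ≤ b v then f v else g v) :=
  SFn.ite (c := fun v => a v ≤ b v) (SF.le ha hb)
    ((SF.lt hb ha).congr fun v => by omega) hf hg

theorem SFn.sub {α : Type} {f g : (α → ℕ) → ℕ} (hf : SFn f) (hg : SFn g) :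
    SFn (fun v => f v - g v) := by
  refine SFn.of_rel (R := fun v y => (f v < g v ∧ y = 0) ∨ (y + g v = f v)) ?_ ?_
  · refine SF.or (SF.and (SF.lt (hf.reindex some) (hg.reindex some))
      (SF.eq (SFn.proj _) (SFn.const _)))
      (SF.eq ((SFn.proj _).add (hg.reindex some)) (hf.reindex some)) ?_
    rintro v ⟨h1, h2⟩ h3
    omega
  · intro v y
    constructor
    · rintro (⟨h1, h2⟩ | h) <;> omega
    · intro h
      by_cases h1 : f v < g v
      · left; omega
      · right; omega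

theorem SFn.min {α : Type} {f g : (α → ℕ) → ℕ} (hf : SFn f) (hg : SFn g) :
    SFn (fun v => min (f v) (g v)) :=
  (SFn.ite_le hf hg hf hg).congr fun v => by
    by_cases h : f v ≤ g v
    · rw [if_pos h, min_eq_left h]
    · rw [if_neg h, min_eq_right (le_of_not_ge h)]

theorem SFn.max {α : Type} {f g : (α → ℕ) → ℕ} (hf : SFn f) (hg : SFn g) :
    SFn (fun v => max (f v) (g v)) :=
  (SFn.ite_le hf hg hg hf).congr fun v => by
    by_cases h : f v ≤ g v
    · rw [if_pos h, max_eq_right h]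
    · rw [if_neg h, max_eq_left (le_of_not_ge h)]

/-- `|f - g|` -/
theorem SFn.dist {α : Type} {f g : (α → ℕ) → ℕ} (hf : SFn f) (hg : SFn g) :
    SFn (fun v => ((f v : ℤ) - g v).natAbs) :=
  ((hf.sub hg).add (hg.sub hf)).congr fun v => by omega

theorem SFn.div {α : Type} {f g : (α → ℕ) → ℕ} (hf : SFn f) (hg : SFn g) :
    SFn (fun v => f v / g v) := by
  refine SFn.of_rel (R := fun v y => (g v = 0 ∧ y = 0) ∨ (g v * y ≤ f v ∧ f v < g v * (y + 1)))
    ?_ ?_
  · refine SF.or (SF.and (SF.eq (hg.reindex some) (SFn.const _)) (SF.eq (SFn.proj _) (SFn.const _)))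
      (SF.and (SF.le ((hg.reindex some).mul (SFn.proj _)) (hf.reindex some))
        (SF.lt (hf.reindex some) ((hg.reindex some).mul ((SFn.proj _).add (SFn.const _))))) ?_
    rintro v ⟨h1, h2⟩ ⟨h3, h4⟩
    rw [h1] at h4; simp at h4
  · intro v y
    rcases Nat.eq_zero_or_pos (g v) with h | h
    · simp [h]
    · have key : y = f v / g v ↔ (y * g v ≤ f v ∧ f v < (y + 1) * g v) := by
        rw [eq_comm, Nat.div_eq_iff h]
        constructor
        · rintro ⟨h1, h2⟩
          refine ⟨h1, ?_⟩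
          rw [add_mul, one_mul]; omega
        · rintro ⟨h1, h2⟩
          rw [add_mul, one_mul] at h2
          exact ⟨h1, by omega⟩
      rw [key]
      constructor
      · rintro (⟨h1, h2⟩ | ⟨h1, h2⟩)
        · omega
        · exact ⟨by rw [mul_comm]; exact h1, by rw [mul_comm]; exact h2⟩
      · rintro ⟨h1, h2⟩
        right
        exact ⟨by rw [mul_comm]; exact h1, by rw [mul_comm]; exact h2⟩

theorem SFn.mod {α : Type} {f g : (α → ℕ) → ℕ} (hf : SFn f) (hg : SFn g) :
    SFn (fun v => f v % g v) :=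
  (hf.sub (hg.mul (hf.div hg))).congr fun v => (Nat.mod_eq_sub_mul_div).symm

theorem SF.dvd {α : Type} {f g : (α → ℕ) → ℕ} (hf : SFn f) (hg : SFn g) :
    SF (fun v => f v ∣ g v) :=
  (SF.eq (hg.mod hf) (SFn.const 0)).congr fun v => (Nat.dvd_iff_mod_eq_zero).symm

theorem SF.modEq {α : Type} {f g n : (α → ℕ) → ℕ} (hf : SFn f) (hg : SFn g) (hn : SFn n) :
    SF (fun v => f v ≡ g v [MOD n v]) :=
  SF.eq (hf.mod hn) (hg.mod hn)

theorem SFn.pred {α : Type} {f : (α → ℕ) → ℕ} (hf : SFn f) : SFn (fun v => f v - 1) :=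
  hf.sub (SFn.const 1)

theorem gcd_char (f g y : ℕ) (hf : 0 < f) (_hg : 0 < g) :
    ((y ∣ f ∧ y ∣ g) ∧ ∃ q, q * y < f ∧ f ∣ g * q + y) ↔ y = Nat.gcd f g := by
  have hd : 0 < Nat.gcd f g := Nat.gcd_pos_of_pos_left _ hf
  constructor
  · rintro ⟨⟨h1, h2⟩, q, h3, h4⟩
    refine Nat.dvd_antisymm (Nat.dvd_gcd h1 h2) ?_
    have h5 : Nat.gcd f g ∣ g * q + y := (Nat.gcd_dvd_left f g).trans h4
    exact (Nat.dvd_add_right ((Nat.gcd_dvd_right f g).mul_right q)).1 h5
  · rintro rfl
    refine ⟨⟨Nat.gcd_dvd_left f g, Nat.gcd_dvd_right f g⟩, ?_⟩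
    -- Bezout
    have hb := Nat.gcd_eq_gcd_ab f g
    -- q ≡ - b mod f/d
    set d := Nat.gcd f g with hdd
    obtain ⟨m, hm⟩ : d ∣ f := Nat.gcd_dvd_left f g
    have hm0 : 0 < m := by
      rcases Nat.eq_zero_or_pos m with h | h
      · rw [h, mul_zero] at hm; omega
      · exact h
    have hmz : (m : ℤ) ≠ 0 := by exact_mod_cast hm0.ne'
    set q : ℤ := (-(Nat.gcdB f g)) % (m : ℤ) with hq
    have hq0 : 0 ≤ q := Int.emod_nonneg _ hmz
    have hq1 : q < m := Int.emod_lt_of_pos _ (by exact_mod_cast hm0)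
    refine ⟨q.toNat, ?_, ?_⟩
    · have h1 : ((q.toNat * d : ℕ) : ℤ) < f := by
        push_cast
        rw [Int.toNat_of_nonneg hq0, hm]
        push_cast
        have hdz : (0 : ℤ) < d := by exact_mod_cast hd
        nlinarith
      exact_mod_cast h1
    · have h1 : (f : ℤ) ∣ (g * q.toNat + d : ℕ) := by
        push_cast
        rw [Int.toNat_of_nonneg hq0]
        -- q = -b - m * c
        have h2 : q = -(Nat.gcdB f g) - m * ((-(Nat.gcdB f g)) / (m : ℤ)) := by
          rw [hq, Int.emod_def]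
        obtain ⟨g', hg'⟩ : d ∣ g := Nat.gcd_dvd_right f g
        rw [h2]
        have h3 : (g : ℤ) * m = f * g' := by
          have : g * m = f * g' := by
            rw [hg', hm]; ring
          exact_mod_cast this
        refine ⟨Nat.gcdA f g - g' * ((-(Nat.gcdB f g)) / (m : ℤ)), ?_⟩
        have : (g : ℤ) * (-(Nat.gcdB f g) - m * ((-(Nat.gcdB f g)) / (m : ℤ))) + d
            = - (g * Nat.gcdB f g) - (g * m) * ((-(Nat.gcdB f g)) / (m : ℤ)) + d := by ring
        rw [this, h3]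
        linear_combination hb
      exact_mod_cast h1

theorem gcd_char_unique (f g q q' : ℕ) (hf : 0 < f)
    (h1 : q * Nat.gcd f g < f) (h2 : f ∣ g * q + Nat.gcd f g)
    (h1' : q' * Nat.gcd f g < f) (h2' : f ∣ g * q' + Nat.gcd f g) : q = q' := by
  have hd : 0 < Nat.gcd f g := Nat.gcd_pos_of_pos_left _ hf
  obtain ⟨d, m, g', hd', hcop, hm, hg'⟩ := Nat.exists_coprime f g |> fun ⟨m, g', hc, h1, h2⟩ =>
    (⟨Nat.gcd f g, m, g', rfl, hc, h1, h2⟩ : ∃ d m g' : ℕ, d = Nat.gcd f g ∧ Nat.Coprime m g' ∧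
      f = m * Nat.gcd f g ∧ g = g' * Nat.gcd f g)
  rw [← hd'] at hd h1 h2 h1' h2' hm hg'
  have key : ∀ q : ℕ, f ∣ g * q + d → m ∣ g' * q + 1 := by
    intro q h
    have : m * d ∣ (g' * q + 1) * d := by
      have e : (g' * q + 1) * d = g * q + d := by rw [hg']; ring
      rw [e, ← hm]; exact h
    exact Nat.dvd_of_mul_dvd_mul_right hd this
  have k1 := key q h2
  have k2 := key q' h2'
  have l1 : q < m := by
    rw [hm] at h1; exact Nat.lt_of_mul_lt_mul_right h1
  have l2 : q' < m := by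
    rw [hm] at h1'; exact Nat.lt_of_mul_lt_mul_right h1'
  have e : (m : ℤ) ∣ (q : ℤ) - q' := by
    have a1 : (m : ℤ) ∣ (g' : ℤ) * q + 1 := by exact_mod_cast k1
    have a2 : (m : ℤ) ∣ (g' : ℤ) * q' + 1 := by exact_mod_cast k2
    have a3 : (m : ℤ) ∣ (g' : ℤ) * (q - q') := by
      have := dvd_sub a1 a2
      have e : (g' : ℤ) * q + 1 - (g' * q' + 1) = g' * (q - q') := by ring
      rwa [e] at this
    exact (Nat.isCoprime_iff_coprime.2 hcop).dvd_of_dvd_mul_left a3
  have := Int.eq_zero_of_abs_lt_dvd e (by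
    rw [abs_lt]; constructor <;> omega)
  omega

theorem SFn.gcd {α : Type} {f g : (α → ℕ) → ℕ} (hf : SFn f) (hg : SFn g) :
    SFn (fun v => Nat.gcd (f v) (g v)) := by
  refine SFn.comp2 (F := Nat.gcd) ?_ hf hg
  -- positive part
  have h1 : SF (fun v : Option (Fin 2) → ℕ => (0 < v (some 0) ∧ 0 < v (some 1)) ∧
      ((v none ∣ v (some 0) ∧ v none ∣ v (some 1)) ∧ ∃ q, q * v none < v (some 0) ∧
        v (some 0) ∣ v (some 1) * q + v none)) := by
    have h2 : SF (fun v : Option (Fin 2) → ℕ => ∃ q,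
        (0 < v (some 0) ∧ 0 < v (some 1)) ∧
      ((v none ∣ v (some 0) ∧ v none ∣ v (some 1)) ∧ q * v none < v (some 0) ∧
        v (some 0) ∣ v (some 1) * q + v none)) := by
      refine SF.ex (R := fun (v : Option (Fin 2) → ℕ) q => (0 < v (some 0) ∧ 0 < v (some 1)) ∧
        ((v none ∣ v (some 0) ∧ v none ∣ v (some 1)) ∧ q * v none < v (some 0) ∧
        v (some 0) ∣ v (some 1) * q + v none)) ?_ ?_
      · refine SF.and (SF.and (SF.lt (SFn.const 0) (SFn.proj _)) (SF.lt (SFn.const 0) (SFn.proj _)))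
          (SF.and (SF.and (SF.dvd (SFn.proj _) (SFn.proj _)) (SF.dvd (SFn.proj _) (SFn.proj _)))
            (SF.and (SF.lt ((SFn.proj _).mul (SFn.proj _)) (SFn.proj _))
              (SF.dvd (SFn.proj _) (((SFn.proj _).mul (SFn.proj _)).add (SFn.proj _)))))
      · rintro v q q' ⟨⟨h1, h2⟩, h3, h4, h5⟩ ⟨_, _, h4', h5'⟩
        have hy := (gcd_char (v (some 0)) (v (some 1)) (v none) h1 h2).1 ⟨h3, q, h4, h5⟩
        rw [hy] at h4 h5 h4' h5'
        exact gcd_char_unique _ _ _ _ h1 h4 h5 h4' h5'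
    refine h2.congr fun v => ?_
    constructor
    · rintro ⟨q, h1, h2, h3⟩; exact ⟨h1, h2, q, h3⟩
    · rintro ⟨h1, h2, q, h3⟩; exact ⟨q, h1, h2, h3⟩
  have h3 : SF (fun v : Option (Fin 2) → ℕ => (v (some 0) = 0 ∨ (0 < v (some 0) ∧ v (some 1) = 0)) ∧
      v none = v (some 0) + v (some 1)) :=
    SF.and (SF.or (SF.eq (SFn.proj _) (SFn.const 0)) (SF.and (SF.lt (SFn.const 0) (SFn.proj _))
      (SF.eq (SFn.proj _) (SFn.const 0))) (by rintro v h1 ⟨h2, _⟩; omega))
      (SF.eq (SFn.proj _) ((SFn.proj _).add (SFn.proj _)))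
  have h4 := SF.or h1 h3 (by rintro v ⟨⟨h1, h2⟩, _⟩ ⟨h3 | h3, _⟩ <;> omega)
  refine SFn.of_rel (R := fun (v : Fin 2 → ℕ) y => ((0 < v 0 ∧ 0 < v 1) ∧
      ((y ∣ v 0 ∧ y ∣ v 1) ∧ ∃ q, q * y < v 0 ∧ v 0 ∣ v 1 * q + y)) ∨
      ((v 0 = 0 ∨ (0 < v 0 ∧ v 1 = 0)) ∧ y = v 0 + v 1)) h4 ?_
  intro v y
  rcases Nat.eq_zero_or_pos (v 0) with h | h
  · simp [h]
  · rcases Nat.eq_zero_or_pos (v 1) with h' | h'
    · simp [h, h']
    · rw [← gcd_char _ _ y h h']
      constructor
      · rintro (⟨_, h1⟩ | ⟨h1 | h1, _⟩)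
        · exact h1
        · omega
        · omega
      · intro h1; exact Or.inl ⟨⟨h, h'⟩, h1⟩

theorem SF.coprime {α : Type} {f g : (α → ℕ) → ℕ} (hf : SFn f) (hg : SFn g) :
    SF (fun v => Nat.Coprime (f v) (g v)) :=
  SF.eq (hf.gcd hg) (SFn.const 1)

end Crest.Agent.R323
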