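import Crest.Agent.R323.Defs
import Crest.Agent.R323.SFLib

set_option autoImplicit false

namespace Crest.Agent.R323

open Sum

namespace PART

/-- `j`-th digit of `S` in base `M + 1` -/
def dg (S M j : ℕ) : ℕ := (S / (M + 1) ^ j) % (M + 1)

theorem dg_le (S M j : ℕ) : dg S M j ≤ M := Nat.le_of_lt_succ (Nat.mod_lt _ (Nat.succ_pos M))

theorem dg_ext (M : ℕ) : ∀ (n S S' : ℕ), S < (M + 1) ^ n → S' < (M + 1) ^ n →
    (∀ j < n, dg S M j = dg S' M j) → S = S' := by
  intro n
  induction n with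
  | zero => intro S S' h h' _; simp at h h'; omega
  | succ n ih =>
    intro S S' h h' hj
    have h1 : S / (M + 1) = S' / (M + 1) := by
      apply ih
      · rw [Nat.div_lt_iff_lt_mul (Nat.succ_pos M), ← pow_succ]; exact h
      · rw [Nat.div_lt_iff_lt_mul (Nat.succ_pos M), ← pow_succ]; exact h'
      · intro j hjn
        have := hj (j + 1) (by omega)
        unfold dg at this ⊢
        rw [Nat.div_div_eq_div_mul, Nat.div_div_eq_div_mul, ← pow_succ']
        exact this
    have h0 := hj 0 (by omega)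
    unfold dg at h0
    rw [pow_zero, Nat.div_one, Nat.div_one] at h0
    rw [← Nat.div_add_mod S (M + 1), ← Nat.div_add_mod S' (M + 1), h1, h0]

theorem dg_exists (M : ℕ) : ∀ (n : ℕ) (s : ℕ → ℕ), (∀ j < n, s j ≤ M) →
    ∃ S, S < (M + 1) ^ n ∧ ∀ j < n, dg S M j = s j := by
  intro n
  induction n with
  | zero => intro s _; exact ⟨0, by simp, by intro j hj; omega⟩
  | succ n ih =>
    intro s hs
    obtain ⟨S, hS, hj⟩ := ih (fun j => s (j + 1)) (fun j hjn => hs (j + 1) (by omega))
    have hs0 : s 0 < M + 1 := Nat.lt_succ_of_le (hs 0 (by omega))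
    have hdiv : (s 0 + (M + 1) * S) / (M + 1) = S := by
      rw [Nat.add_mul_div_left _ _ (Nat.succ_pos M), Nat.div_eq_of_lt hs0, zero_add]
    refine ⟨s 0 + (M + 1) * S, ?_, ?_⟩
    · rw [pow_succ]
      have : (M + 1) * (S + 1) ≤ (M + 1) * (M + 1) ^ n := Nat.mul_le_mul_left _ hS
      rw [mul_comm ((M + 1) ^ n)]
      calc s 0 + (M + 1) * S < (M + 1) + (M + 1) * S := Nat.add_lt_add_right hs0 _
        _ = (M + 1) * (S + 1) := by ring
        _ ≤ _ := this
    · intro j hjn
      rcases j with _ | j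
      · unfold dg
        rw [pow_zero, Nat.div_one, Nat.add_mul_mod_self_left]
        exact Nat.mod_eq_of_lt hs0
      · unfold dg
        rw [pow_succ', ← Nat.div_div_eq_div_mul, hdiv]
        exact hj j (by omega)

theorem ball {α : Type} (hB : SBQ) {R : (α → ℕ) → ℕ → Prop}
    (h : SF (fun v : Option α → ℕ => R (fun a => v (some a)) (v none)))
    {b : (α → ℕ) → ℕ} (hb : SFn b) : SF (fun v => ∀ t < b v, R v t) := by
  have h1 := hB α (fun v : Option α → ℕ => R (fun a => v (some a)) (v none)) h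
  exact SF.subst (R := fun (v : α → ℕ) (y : ℕ) => ∀ t < y, R v t) h1 hb

theorem pow {α : Type} (hP : SPow) {f g : (α → ℕ) → ℕ} (hf : SFn f) (hg : SFn g) :
    SFn (fun v => f v ^ g v) :=
  SFn.comp2 (F := fun x y => x ^ y) hP hf hg

theorem dgF {α : Type} (hP : SPow) {f g h : (α → ℕ) → ℕ} (hf : SFn f) (hg : SFn g)
    (hh : SFn h) : SFn (fun v => dg (f v) (g v) (h v)) :=
  SFn.mod (SFn.div hf (pow hP (hg.add (SFn.const 1)) hh)) (hg.add (SFn.const 1))

/-- the relation coding a primitive recursion -/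
def K {α : Type} (F : (α → ℕ) → ℕ) (H : (α → ℕ) → ℕ → ℕ → ℕ) (v : Option (Option α) → ℕ)
    (t : Fin 3 → ℕ) : Prop :=
  t 0 < (t 1 + 1) ^ (v (some none) + 1) ∧
  dg (t 0) (t 1) 0 = F (fun a => v (some (some a))) ∧
  (∀ j < v (some none), dg (t 0) (t 1) (j + 1) =
    H (fun a => v (some (some a))) j (dg (t 0) (t 1) j)) ∧
  t 2 ≤ v (some none) ∧ dg (t 0) (t 1) (t 2) = t 1 ∧
  (∀ j < t 2, dg (t 0) (t 1) j ≠ t 1) ∧
  v none = dg (t 0) (t 1) (v (some none))

theorem K_SF {α : Type} (hB : SBQ) (hP : SPow) {F : (α → ℕ) → ℕ} (hF : SFn F)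
    {H : (α → ℕ) → ℕ → ℕ → ℕ}
    (hH : SFn (fun v : Option (Option α) → ℕ =>
      H (fun a => v (some (some a))) (v (some none)) (v none))) :
    SF (fun v : Option (Option α) ⊕ Fin 3 → ℕ => K F H (fun a => v (inl a)) (fun c => v (inr c))) := by
  unfold K
  have p : ∀ {β : Type} (b : β), SFn (fun v : β → ℕ => v b) := fun b => SFn.proj b
  refine SF.and (SF.lt (p _) (pow hP ((p _).add (SFn.const 1)) ((p _).add (SFn.const 1)))) ?_
  refine SF.and (SF.eq (dgF hP (p _) (p _) (SFn.const 0)) ?_) ?_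
  · exact hF.reindex (fun a => inl (some (some a)))
  refine SF.and ?_ ?_
  · refine ball hB (R := fun (v : Option (Option α) ⊕ Fin 3 → ℕ) (j : ℕ) =>
      dg (v (inr 0)) (v (inr 1)) (j + 1) =
        H (fun a => v (inl (some (some a)))) j (dg (v (inr 0)) (v (inr 1)) j)) ?_ (p _)
    refine SF.eq (dgF hP (p _) (p _) ((p _).add (SFn.const 1))) ?_
    have h1 : SFn (fun w : Option (Option (Option (Option α) ⊕ Fin 3)) → ℕ =>
        H (fun a => w (some (some (inl (some (some a)))))) (w (some none)) (w none)) :=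
      hH.reindex (fun o : Option (Option α) => match o with
        | none => none
        | some none => some none
        | some (some a) => some (some (inl (some (some a)))))
    exact SFn.subst (F := fun (v : Option (Option (Option α) ⊕ Fin 3) → ℕ) (y : ℕ) =>
      H (fun a => v (some (inl (some (some a))))) (v none) y) h1
      (dgF hP (p (some (inr 0))) (p (some (inr 1))) (p none))
  refine SF.and (SF.le (p _) (p _)) ?_
  refine SF.and (SF.eq (dgF hP (p _) (p _) (p _)) (p _)) ?_
  refine SF.and ?_ (SF.eq (p _) (dgF hP (p _) (p _) (p _)))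
  refine ball hB (R := fun (v : Option (Option α) ⊕ Fin 3 → ℕ) (j : ℕ) =>
    dg (v (inr 0)) (v (inr 1)) j ≠ v (inr 1)) ?_ (p _)
  exact SF.ne (dgF hP (p _) (p _) (p _)) (p _)

theorem K_seq {α : Type} {F : (α → ℕ) → ℕ} {H : (α → ℕ) → ℕ → ℕ → ℕ}
    {v : Option (Option α) → ℕ} {t : Fin 3 → ℕ} (h : K F H v t) : ∀ j ≤ v (some none),
    dg (t 0) (t 1) j = Nat.rec (motive := fun _ => ℕ) (F (fun a => v (some (some a))))
      (H (fun a => v (some (some a)))) j := by
  intro j
  induction j with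
  | zero => intro _; exact h.2.1
  | succ j ih =>
    intro hj
    rw [h.2.2.1 j (by omega), ih (by omega)]

theorem K_unique {α : Type} {F : (α → ℕ) → ℕ} {H : (α → ℕ) → ℕ → ℕ → ℕ}
    (v : Option (Option α) → ℕ) (t t' : Fin 3 → ℕ) (h : K F H v t) (h' : K F H v t') : t = t' := by
  have e := K_seq h
  have e' := K_seq h'
  have ee : ∀ j ≤ v (some none), dg (t 0) (t 1) j = dg (t' 0) (t' 1) j := fun j hj => by
    rw [e j hj, e' j hj]
  obtain ⟨a1, a2, a3, a4, a5, a6, a7⟩ := h
  obtain ⟨b1, b2, b3, b4, b5, b6, b7⟩ := h'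
  have l1 : t 1 ≤ t' 1 := by rw [← a5, ee _ a4]; exact dg_le _ _ _
  have l2 : t' 1 ≤ t 1 := by rw [← b5, ← ee _ b4]; exact dg_le _ _ _
  have h1 : t 1 = t' 1 := le_antisymm l1 l2
  have h2 : t 2 = t' 2 := by
    rcases lt_trichotomy (t 2) (t' 2) with h | h | h
    · exact absurd (by rw [← ee _ a4, a5, h1]) (b6 _ h)
    · exact h
    · exact absurd (by rw [ee _ b4, b5, h1]) (a6 _ h)
  have h0 : t 0 = t' 0 := by
    refine dg_ext (t 1) (v (some none) + 1) _ _ a1 (by rw [h1]; exact b1) ?_
    intro j hj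
    have := ee j (by omega)
    rw [this, h1]
  funext i
  fin_cases i
  · exact h0
  · exact h1
  · exact h2

theorem exists_max (s : ℕ → ℕ) : ∀ n : ℕ, ∃ τ ≤ n, (∀ j ≤ n, s j ≤ s τ) ∧ ∀ j < τ, s j ≠ s τ := by
  classical
  intro n
  have hne : (Finset.range (n + 1)).Nonempty := ⟨0, by simp⟩
  obtain ⟨m, hm, hmax⟩ := Finset.exists_max_image (Finset.range (n + 1)) s hne
  have hex : ∃ j, s j = s m := ⟨m, rfl⟩
  refine ⟨Nat.find hex, ?_, ?_, ?_⟩
  · have := Nat.find_min' hex (m := m) rfl
    rw [Finset.mem_range] at hm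
    omega
  · intro j hj
    rw [Nat.find_spec hex]
    exact hmax j (Finset.mem_range.2 (by omega))
  · intro j hj
    rw [Nat.find_spec hex]
    exact Nat.find_min hex hj

theorem prec {α : Type} (hB : SBQ) (hP : SPow) {F : (α → ℕ) → ℕ} (hF : SFn F)
    {H : (α → ℕ) → ℕ → ℕ → ℕ}
    (hH : SFn (fun v : Option (Option α) → ℕ =>
      H (fun a => v (some (some a))) (v (some none)) (v none))) :
    SFn (fun v : Option α → ℕ => Nat.rec (motive := fun _ => ℕ) (F (fun a => v (some a)))
      (H (fun a => v (some a))) (v none)) := by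
  have h1 := SF.exN (R := fun (v : Option (Option α) → ℕ) (t : Fin 3 → ℕ) => K F H v t)
    (K_SF hB hP hF hH) K_unique
  refine h1.congr fun v => ?_
  constructor
  · rintro ⟨t, ht⟩
    exact (ht.2.2.2.2.2.2).trans (K_seq ht _ le_rfl)
  · intro hy
    set s : ℕ → ℕ := fun j => Nat.rec (motive := fun _ => ℕ) (F (fun a => v (some (some a))))
      (H (fun a => v (some (some a)))) j with hs
    obtain ⟨τ, hτ, hmax, hmin⟩ := exists_max s (v (some none))
    obtain ⟨S, hS, hdg⟩ := dg_exists (s τ) (v (some none) + 1) s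
      (fun j hj => hmax j (by omega))
    refine ⟨![S, s τ, τ], hS, hdg 0 (by omega), ?_, hτ, hdg τ (by omega), ?_, ?_⟩
    · intro j hj
      show dg S (s τ) (j + 1) = H (fun a => v (some (some a))) j (dg S (s τ) j)
      rw [hdg (j + 1) (by omega), hdg j (by omega)]
    · intro j hj
      show dg S (s τ) j ≠ s τ
      have : j < τ := hj
      rw [hdg j (by omega)]
      exact hmin j hj
    · show v none = dg S (s τ) (v (some none))
      rw [hdg _ (by omega)]
      exact hy

theorem prim (hB : SBQ) (hP : SPow) {n : ℕ} {f : List.Vector ℕ n → ℕ} (hf : Nat.Primrec' f) :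
    SFn (fun v : Fin n → ℕ => f (List.Vector.ofFn v)) := by
  induction hf with
  | zero => exact SFn.const 0
  | succ => exact ((SFn.proj (0 : Fin 1)).add (SFn.const 1)).congr fun v => by simp
  | get i => exact (SFn.proj i).congr fun v => by simp
  | comp g _ _ ihf ihg =>
    exact SFn.comp (g := fun i v => g i (List.Vector.ofFn v)) ihf ihg
  | @prec n f g _ _ ihf ihg =>
    have h1 : SFn (fun v : Option (Option (Fin n)) → ℕ =>
        g ((v (some none)) ::ᵥ (v none) ::ᵥ List.Vector.ofFn (fun i => v (some (some i))))) := by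
      have := ihg.reindex (Fin.cons (some none) (Fin.cons none (fun i => some (some i))) :
        Fin (n + 2) → Option (Option (Fin n)))
      exact this
    have h2 := prec hB hP (F := fun w : Fin n → ℕ => f (List.Vector.ofFn w))
      (H := fun w y z => g (y ::ᵥ z ::ᵥ List.Vector.ofFn w)) ihf h1
    have h3 := h2.reindex (fun o : Option (Fin n) => match o with
      | none => (0 : Fin (n + 1))
      | some i => i.succ)
    exact h3

theorem mem_mOfFn {n : ℕ} (g : Fin n → Part ℕ) (w : Fin n → ℕ) (h : ∀ i, w i ∈ g i) :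
    List.Vector.ofFn w ∈ List.Vector.mOfFn g := by
  induction n with
  | zero =>
    rw [List.Vector.mOfFn]
    exact Part.mem_some _
  | succ n ih =>
    rw [List.Vector.mOfFn, Part.bind_eq_bind, Part.mem_bind_iff]
    refine ⟨w 0, h 0, ?_⟩
    rw [Part.bind_eq_bind, Part.mem_bind_iff]
    exact ⟨List.Vector.ofFn fun i => w i.succ, ih _ _ fun i => h i.succ, Part.mem_some _⟩

theorem of_mem_mOfFn {n : ℕ} (g : Fin n → Part ℕ) (w : List.Vector ℕ n)
    (h : w ∈ List.Vector.mOfFn g) : ∃ t : Fin n → ℕ, (∀ i, t i ∈ g i) ∧ w = List.Vector.ofFn t := by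
  induction n with
  | zero =>
    exact ⟨Fin.elim0, fun i => i.elim0, Subsingleton.elim _ _⟩
  | succ n ih =>
    rw [List.Vector.mOfFn, Part.bind_eq_bind, Part.mem_bind_iff] at h
    obtain ⟨a, ha, h⟩ := h
    rw [Part.bind_eq_bind, Part.mem_bind_iff] at h
    obtain ⟨w', hw', h⟩ := h
    obtain ⟨t, ht, rfl⟩ := ih _ _ hw'
    have h' := Part.mem_some_iff.1 h
    refine ⟨Fin.cons a t, ?_, ?_⟩
    · intro i
      refine Fin.cases ?_ (fun j => ?_) i
      · exact ha
      · exact ht j
    · rw [h']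
      rfl

theorem mem_comp {m n : ℕ} (f : List.Vector ℕ n →. ℕ) (g : Fin n → List.Vector ℕ m →. ℕ)
    (v : List.Vector ℕ m) (y : ℕ) :
    y ∈ ((List.Vector.mOfFn fun i => g i v) >>= f) ↔
      ∃ t : Fin n → ℕ, (∀ i, t i ∈ g i v) ∧ y ∈ f (List.Vector.ofFn t) := by
  rw [Part.bind_eq_bind, Part.mem_bind_iff]
  constructor
  · rintro ⟨w, hw, hy⟩
    obtain ⟨t, ht, rfl⟩ := of_mem_mOfFn _ _ hw
    exact ⟨t, ht, hy⟩
  · rintro ⟨t, ht, hy⟩
    exact ⟨_, mem_mOfFn _ _ ht, hy⟩

theorem mem_rf {n : ℕ} (f : List.Vector ℕ (n + 1) → ℕ) (v : List.Vector ℕ n) (y : ℕ) :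
    y ∈ Nat.rfind (fun k => Part.some (decide (f (k ::ᵥ v) = 0))) ↔
      f (y ::ᵥ v) = 0 ∧ ∀ t < y, f (t ::ᵥ v) ≠ 0 := by
  rw [Nat.mem_rfind]
  constructor
  · rintro ⟨h1, h2⟩
    refine ⟨?_, fun t ht => ?_⟩
    · have := Part.mem_some_iff.1 h1
      exact of_decide_eq_true this.symm
    · have := Part.mem_some_iff.1 (h2 ht)
      exact of_decide_eq_false this.symm
  · rintro ⟨h1, h2⟩
    refine ⟨?_, fun {t} ht => ?_⟩
    · exact Part.mem_some_iff.2 (decide_eq_true h1).symm
    · exact Part.mem_some_iff.2 (decide_eq_false (h2 t ht)).symm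

theorem part' (hB : SBQ) (hP : SPow) {n : ℕ} {f : List.Vector ℕ n →. ℕ} (hf : Nat.Partrec' f) :
    SF (fun v : Option (Fin n) → ℕ => v none ∈ f (List.Vector.ofFn fun i => v (some i))) := by
  induction hf with
  | @prim n f hf =>
    refine SF.congr (prim hB hP hf) fun v => ?_
    rw [PFun.coe_val, Part.mem_some_iff]
  | @comp m n f g _ _ ihf ihg =>
    have h1 : SF (fun v : Option (Fin m) ⊕ Fin n → ℕ =>
        (∀ i, v (inr i) ∈ g i (List.Vector.ofFn fun j => v (inl (some j)))) ∧
          v (inl none) ∈ f (List.Vector.ofFn fun i => v (inr i))) := by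
      refine SF.and (SF.all fun i => ?_) ?_
      · exact (ihg i).reindex (fun o : Option (Fin m) => match o with
          | none => inr i
          | some j => inl (some j))
      · exact ihf.reindex (fun o : Option (Fin n) => match o with
          | none => inl none
          | some j => inr j)
    have h2 := SF.exN (R := fun (v : Option (Fin m) → ℕ) (t : Fin n → ℕ) =>
      (∀ i, t i ∈ g i (List.Vector.ofFn fun j => v (some j))) ∧
          v none ∈ f (List.Vector.ofFn t)) h1 (by
        rintro v t t' ⟨h, _⟩ ⟨h', _⟩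
        funext i
        exact Part.mem_unique (h i) (h' i))
    exact h2.congr fun v => (mem_comp f g _ _).symm
  | @rfind n f _ ih =>
    have hf : SFn (fun v : Fin (n + 1) → ℕ => f (List.Vector.ofFn v)) := by
      refine SF.congr ih fun v => ?_
      rw [PFun.coe_val, Part.mem_some_iff]
    have h1 : SFn (fun v : Option (Fin n) → ℕ =>
        f (v none ::ᵥ List.Vector.ofFn fun i => v (some i))) :=
      hf.reindex (Fin.cons none (fun i => some i) : Fin (n + 1) → Option (Fin n))
    have h2 : SF (fun v : Option (Fin n) → ℕ =>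
        f (v none ::ᵥ List.Vector.ofFn fun i => v (some i)) = 0 ∧
        ∀ t < v none, f (t ::ᵥ List.Vector.ofFn fun i => v (some i)) ≠ 0) := by
      refine SF.and (SF.eq h1 (SFn.const 0)) ?_
      refine ball hB (R := fun (v : Option (Fin n) → ℕ) (t : ℕ) =>
        f (t ::ᵥ List.Vector.ofFn fun i => v (some i)) ≠ 0) ?_ (SFn.proj none)
      refine SF.ne ?_ (SFn.const 0)
      exact h1.reindex (fun o : Option (Fin n) => match o with
        | none => none
        | some i => some (some i))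
    exact h2.congr fun v => (mem_rf f _ _).symm

end PART

theorem part : StPart := by
  intro hB hP n f hf
  exact PART.part' hB hP hf

end Crest.Agent.R323
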